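import Vale.Agent.H16.Kink

namespace Vale.Agent.H16

open MeasureTheory Finset Filter
open scoped ENNReal NNReal Topology

/-- the pair energy `Σ_{i<j} f(|x_i - x_j|)` -/
noncomputable def en (f : ℝ → ℝ) {N : ℕ} (x : Fin N → E) : ℝ :=
  ∑ i : Fin N, ∑ j : Fin N, if i < j then f (dist (x i) (x j)) else 0

theorem en_eq (f : ℝ → ℝ) {N : ℕ} (x : Fin N → E) :
    en f x = (W f (List.ofFn x) - N * f 0) / 2 := by
  rw [W_ofFn]
  have h1 : ∑ i, ∑ j, f (dist (x i) (x j)) =
      (∑ i, ∑ j, if i < j then f (dist (x i) (x j)) else 0) +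
      (∑ i, ∑ j, if j < i then f (dist (x i) (x j)) else 0) +
      (∑ i, ∑ j, if i = j then f (dist (x i) (x j)) else 0) := by
    rw [← Finset.sum_add_distrib, ← Finset.sum_add_distrib]
    apply Finset.sum_congr rfl; intro i _
    rw [← Finset.sum_add_distrib, ← Finset.sum_add_distrib]
    apply Finset.sum_congr rfl; intro j _
    rcases lt_trichotomy i j with h | h | h
    · simp [h, h.not_gt, h.ne]
    · simp [h]
    · simp [h, h.not_gt, h.ne']
  have h2 : (∑ i, ∑ j, if j < i then f (dist (x i) (x j)) else 0) =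
      ∑ i, ∑ j, if i < j then f (dist (x i) (x j)) else 0 := by
    rw [Finset.sum_comm]
    apply Finset.sum_congr rfl; intro i _
    apply Finset.sum_congr rfl; intro j _
    rw [dist_comm]
  have h3 : (∑ i, ∑ j, if i = j then f (dist (x i) (x j)) else 0) = N * f 0 := by
    simp
  unfold en
  rw [h1, h2, h3]
  ring

/-- canonical partition function -/
noncomputable def Zc (f : ℝ → ℝ) (β L : ℝ) (N : ℕ) : ℝ :=
  (1 / (N.factorial : ℝ)) * ∫ x in {x : Fin N → E | ∀ i, x i ∈ bx L}, Real.exp (-(β * en f x))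

theorem en_smul (f : ℝ → ℝ) (β : ℝ) {N : ℕ} (x : Fin N → E) :
    en (fun r => β * f r) x = β * en f x := by
  unfold en
  rw [Finset.mul_sum]
  apply Finset.sum_congr rfl; intro i _
  rw [Finset.mul_sum]
  apply Finset.sum_congr rfl; intro j _
  split_ifs <;> simp

theorem Zc_eq {f : ℝ → ℝ} (hf : Measurable f) (β L : ℝ) (N : ℕ) {z : ℝ} (hz : 0 < z) :
    z ^ N * Zc f β L N =
      (jj (volume.restrict (bx L)) N (bf (fun r => β * f r) (Real.log z) 0)).toReal := by
  have hset : {x : Fin N → E | ∀ i, x i ∈ bx L} = Set.univ.pi fun _ => bx L := by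
    ext x; simp [Set.mem_pi]
  have hmeas : Measurable (fun x : Fin N → E => Real.exp (-(β * en f x))) := by
    apply Real.measurable_exp.comp
    apply Measurable.neg
    apply Measurable.const_mul
    unfold en
    apply Finset.measurable_sum; intro i _
    apply Finset.measurable_sum; intro j _
    split_ifs
    · exact hf.comp ((measurable_pi_apply i).dist (measurable_pi_apply j))
    · exact measurable_const
  unfold Zc jj J
  rw [hset, integral_eq_lintegral_of_nonneg_ae (Eventually.of_forall fun x => Real.exp_nonneg _)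
    hmeas.aestronglyMeasurable]
  have hres : (volume : Measure (Fin N → E)).restrict (Set.univ.pi fun _ => bx L) =
      Measure.pi fun _ : Fin N => (volume : Measure E).restrict (bx L) := by
    rw [← Measure.restrict_pi_pi]
    rfl
  rw [hres]
  have h1 : ∀ x : Fin N → E, bf (fun r => β * f r) (Real.log z) 0 (List.ofFn x) =
      ENNReal.ofReal (z ^ N) * ENNReal.ofReal (Real.exp (-(β * en f x))) := by
    intro x
    unfold bf
    rw [← ENNReal.ofReal_mul (by positivity), List.length_ofFn]
    congr 1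
    have e1 : z ^ N = Real.exp (Real.log z * N) := by
      rw [mul_comm, Real.exp_nat_mul, Real.exp_log hz]
    rw [e1, ← Real.exp_add]
    congr 1
    rw [← en_smul, en_eq]
    ring
  simp only [h1]
  rw [lintegral_const_mul' _ _ ENNReal.ofReal_ne_top, ENNReal.toReal_mul, ENNReal.toReal_mul,
    ENNReal.toReal_ofReal (by positivity)]
  simp only [ENNReal.toReal_inv, ENNReal.toReal_natCast]
  ring

theorem smul_phi {β : ℝ} (A : ℝ) {t : ℕ → ℝ} (r : ℝ) :
    β * phi A t r = phi (β * A) (fun k => β * t k) r := by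
  unfold phi psi core
  rw [mul_sub, ← tsum_mul_left]
  congr 1
  · split_ifs <;> simp
  · congr 1; funext k; ring

theorem Good.smul {A : ℝ} {t : ℕ → ℝ} (g : Good A t) {β : ℝ} (hβ : 0 < β) :
    Good (β * A) (fun k => β * t k) := by
  refine ⟨mul_nonneg hβ.le g.A0, fun k => mul_nonneg hβ.le (g.t0 k), g.ts.mul_left β, ?_⟩
  rw [tsum_mul_left]
  have := mul_le_mul_of_nonneg_left g.At hβ.le
  linarith

theorem grand_eq {A : ℝ} {t : ℕ → ℝ} (g : Good A t) {β L z : ℝ} (hβ : 0 < β) (hL : 0 ≤ L) (hz : 0 < z) :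
    Summable (fun N : ℕ => z ^ N * Zc (phi A t) β L N) ∧
    Real.log (∑' N : ℕ, z ^ N * Zc (phi A t) β L N) =
      lf (β * A) (fun k => β * t k) (Real.log z) L := by
  have hf := phi_measurable A g.t0 g.ts
  have hphi : (fun r => β * phi A t r) = phi (β * A) (fun k => β * t k) := by
    funext r; exact smul_phi A r
  have g' := g.smul hβ
  have h1 : ∀ N, z ^ N * Zc (phi A t) β L N =
      (jj (volume.restrict (bx L)) N (bf (phi (β * A) (fun k => β * t k)) (Real.log z) 0)).toReal := by
    intro N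
    rw [Zc_eq hf β L N hz, hphi]
  have hfin := g'.Xi_ne_top (Real.log z) hL
  unfold Xi X at hfin
  have h2 : ∀ N, jj (volume.restrict (bx L)) N (bf (phi (β * A) (fun k => β * t k)) (Real.log z) 0) ≠ ⊤ :=
    fun N => ENNReal.ne_top_of_tsum_ne_top hfin N
  simp only [h1]
  refine ⟨ENNReal.summable_toReal hfin, ?_⟩
  rw [← ENNReal.tsum_toReal_eq h2]
  rfl

theorem pressure_exists {A : ℝ} {t : ℕ → ℝ} (g : Good A t) {β z : ℝ} (hβ : 0 < β) (hz : 0 < z) :
    Tendsto (fun L : ℝ => (L ^ 3)⁻¹ * Real.log (∑' N : ℕ, z ^ N * Zc (phi A t) β L N)) atTop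
      (𝓝 (P (β * A) (fun k => β * t k) (Real.log z))) := by
  refine (tendsto_lf (g.smul hβ) (Real.log z)).congr' ?_
  filter_upwards [eventually_ge_atTop 0] with L hL
  rw [(grand_eq g hβ hL hz).2]
  ring

end Vale.Agent.H16
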