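import Mathlib

namespace Vale.Agent.H16

open Finset

section count
variable {T : Type*} [DecidableEq T] {N : ℕ}

theorem pair_count_eq (U : Finset T) (a b : Fin N → T) (ha : ∀ i, a i ∈ U) :
    (∑ i, ∑ j, if a i = b j then (1:ℝ) else 0) =
      ∑ u ∈ U, (∑ i, if a i = u then (1:ℝ) else 0) * (∑ j, if b j = u then (1:ℝ) else 0) := by
  symm
  calc ∑ u ∈ U, (∑ i, if a i = u then (1:ℝ) else 0) * (∑ j, if b j = u then (1:ℝ) else 0)
      = ∑ u ∈ U, ∑ i, ∑ j, (if a i = u then (1:ℝ) else 0) * (if b j = u then (1:ℝ) else 0) := by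
        apply Finset.sum_congr rfl
        intro u _
        rw [Finset.sum_mul_sum]
    _ = ∑ i, ∑ j, ∑ u ∈ U, (if a i = u then (1:ℝ) else 0) * (if b j = u then (1:ℝ) else 0) := by
        rw [Finset.sum_comm]
        apply Finset.sum_congr rfl
        intro i _
        rw [Finset.sum_comm]
    _ = _ := by
        apply Finset.sum_congr rfl
        intro i _
        apply Finset.sum_congr rfl
        intro j _
        rw [Finset.sum_eq_single (a i)]
        · by_cases h : a i = b j
          · simp [h]
          · have h' : ¬ b j = a i := fun e => h e.symm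
            simp [h, h']
        · intro u _ hu
          have : ¬ a i = u := fun e => hu e.symm
          simp [this]
        · intro h; exact absurd (ha i) h

theorem pair_count_le (a b : Fin N → T) :
    2 * (∑ i, ∑ j, if a i = b j then (1:ℝ) else 0) ≤
      (∑ i, ∑ j, if a i = a j then (1:ℝ) else 0) + (∑ i, ∑ j, if b i = b j then (1:ℝ) else 0) := by
  set U : Finset T := (univ.image a) ∪ (univ.image b) with hU
  have ha : ∀ i, a i ∈ U := fun i => by simp [hU]
  have hb : ∀ i, b i ∈ U := fun i => by simp [hU]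
  rw [pair_count_eq U a b ha, pair_count_eq U a a ha, pair_count_eq U b b hb, Finset.mul_sum,
    ← Finset.sum_add_distrib]
  apply Finset.sum_le_sum
  intro u _
  nlinarith [sq_nonneg ((∑ i, if a i = u then (1:ℝ) else 0) - (∑ j, if b j = u then (1:ℝ) else 0))]

theorem shift_count_le {T : Type*} [DecidableEq T] [AddGroup T] (c : Fin N → T) (v : T) :
    (∑ i, ∑ j, if c i = c j + v then (1:ℝ) else 0) ≤ ∑ i, ∑ j, if c i = c j then (1:ℝ) else 0 := by
  have h := pair_count_le c (fun j => c j + v)
  simp only [add_left_inj] at h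
  linarith

/-- number of ordered pairs with nearby indices -/
theorem near_count_le (K : ℕ) (c : Fin N → (Fin 3 → ℤ)) :
    (∑ i, ∑ j, if (∀ m, |c i m - c j m| ≤ (K:ℤ)) then (1:ℝ) else 0) ≤
      (2 * K + 1) ^ 3 * ∑ i, ∑ j, if c i = c j then (1:ℝ) else 0 := by
  classical
  set V : Finset (Fin 3 → ℤ) := Fintype.piFinset (fun _ => Finset.Icc (-(K:ℤ)) K) with hV
  have hcard : (V.card : ℝ) = (2 * K + 1) ^ 3 := by
    rw [hV, Fintype.card_piFinset]
    simp only [Int.card_Icc, Finset.prod_const, Finset.card_univ, Fintype.card_fin]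
    have : ((K:ℤ) + 1 - (-(K:ℤ))).toNat = 2 * K + 1 := by omega
    rw [this]
    push_cast
    ring
  calc (∑ i, ∑ j, if (∀ m, |c i m - c j m| ≤ (K:ℤ)) then (1:ℝ) else 0)
      = ∑ i, ∑ j, ∑ v ∈ V, (if c i = c j + v then (1:ℝ) else 0) := by
        apply Finset.sum_congr rfl
        intro i _
        apply Finset.sum_congr rfl
        intro j _
        by_cases h : ∀ m, |c i m - c j m| ≤ (K:ℤ)
        · rw [if_pos h, Finset.sum_eq_single (c i - c j)]
          · simp
          · intro v _ hv
            rw [if_neg]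
            intro e
            apply hv
            rw [e]
            simp
          · intro hn
            exfalso
            apply hn
            rw [hV, Fintype.mem_piFinset]
            intro m
            have := abs_le.1 (h m)
            simp only [Pi.sub_apply, Finset.mem_Icc]
            exact this
        · rw [if_neg h, Finset.sum_eq_zero]
          intro v hv
          rw [if_neg]
          intro e
          apply h
          intro m
          rw [hV, Fintype.mem_piFinset] at hv
          have := Finset.mem_Icc.1 (hv m)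
          rw [abs_le, e]
          simpa using this
    _ = ∑ v ∈ V, ∑ i, ∑ j, (if c i = c j + v then (1:ℝ) else 0) := by
        rw [Finset.sum_comm (s := V)]
        apply Finset.sum_congr rfl
        intro i _
        rw [Finset.sum_comm]
    _ ≤ ∑ v ∈ V, ∑ i, ∑ j, (if c i = c j then (1:ℝ) else 0) :=
        Finset.sum_le_sum fun v _ => shift_count_le c v
    _ = _ := by
        rw [Finset.sum_const, nsmul_eq_mul, hcard]

/-- Cauchy-Schwarz: many particles in few cells produce many pairs in the same cell -/
theorem sq_le_card_mul_pairs (U : Finset T) (c : Fin N → T) (hc : ∀ i, c i ∈ U) :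
    (N : ℝ) ^ 2 ≤ U.card * ∑ i, ∑ j, if c i = c j then (1:ℝ) else 0 := by
  rw [pair_count_eq U c c hc]
  have h1 : (N : ℝ) = ∑ u ∈ U, (∑ i, if c i = u then (1:ℝ) else 0) := by
    rw [Finset.sum_comm]
    have : ∀ i : Fin N, (∑ u ∈ U, if c i = u then (1:ℝ) else 0) = 1 := by
      intro i
      rw [Finset.sum_ite_eq]
      simp [hc i]
    simp [this]
  calc (N : ℝ) ^ 2 = (∑ u ∈ U, (∑ i, if c i = u then (1:ℝ) else 0)) ^ 2 := by rw [← h1]
    _ ≤ U.card * ∑ u ∈ U, (∑ i, if c i = u then (1:ℝ) else 0) ^ 2 := sq_sum_le_card_mul_sum_sq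
    _ = _ := by
      congr 1
      apply Finset.sum_congr rfl
      intro u _
      ring
end count

/-! ### shifted block indices -/

/-- Hermite-type identity -/
theorem hermite (M : ℕ) (hM : 0 < M) (n : ℤ) (d : ℕ) :
    ∑ o ∈ Finset.range M, ((n + d + o) / (M:ℤ) - (n + o) / (M:ℤ)) = d := by
  induction d with
  | zero => simp
  | succ d ih =>
    have h1 : ∑ o ∈ Finset.range M, ((n + (d+1:ℕ) + o) / (M:ℤ) - (n + o) / (M:ℤ)) =
        ∑ o ∈ Finset.range M, ((n + d + (o+1:ℕ)) / (M:ℤ) - (n + d + o) / (M:ℤ)) +
        ∑ o ∈ Finset.range M, ((n + d + o) / (M:ℤ) - (n + o) / (M:ℤ)) := by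
      rw [← Finset.sum_add_distrib]
      apply Finset.sum_congr rfl
      intro o _
      push_cast
      ring_nf
    rw [h1, ih, Finset.sum_range_sub (fun o : ℕ => (n + d + o) / (M:ℤ)) M]
    have hM' : (M:ℤ) ≠ 0 := by positivity
    rw [Int.add_ediv_of_dvd_right (dvd_refl (M:ℤ)), Int.ediv_self hM']
    push_cast
    simp
    ring

/-- number of offsets for which two integers fall in different blocks -/
theorem diff_block_count (M : ℕ) (hM : 0 < M) (n n' : ℤ) :
    (((Finset.range M).filter (fun o : ℕ => (n + o) / (M:ℤ) ≠ (n' + o) / (M:ℤ))).card : ℤ) ≤ |n - n'| := by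
  wlog h : n' ≤ n generalizing n n'
  · have := this n' n (by omega)
    rw [abs_sub_comm]
    convert this using 4
    exact ne_comm
  obtain ⟨d, hd⟩ := Int.le.dest h
  have e := hermite M hM n' d
  rw [hd] at e
  have habs : |n - n'| = d := by
    rw [← hd]; simp
  rw [habs, ← e, Finset.card_filter]
  push_cast
  apply Finset.sum_le_sum
  intro o _
  have hmono : (n' + o) / (M:ℤ) ≤ (n + o) / (M:ℤ) :=
    Int.ediv_le_ediv (by positivity) (by omega)
  split_ifs with hne
  · have : (n' + o) / (M:ℤ) < (n + o) / (M:ℤ) := lt_of_le_of_ne hmono (fun h => hne h.symm)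
    omega
  · omega

end Vale.Agent.H16
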