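import Mathlib

namespace Vale.Agent.H16

open Filter Topology

/-- Ekeland's variational principle on a complete subset of a metric space. -/
theorem ekeland {X : Type*} [MetricSpace X] {D : Set X} (hD : IsComplete D) (G : X → ℝ)
    {m : ℝ} (hm : ∀ x ∈ D, m ≤ G x)
    (hlsc : ∀ (u : ℕ → X) (x : X) (c : ℝ), (∀ n, u n ∈ D) → x ∈ D → Tendsto u atTop (𝓝 x) →
      (∀ n, G (u n) ≤ c) → G x ≤ c)
    {x0 : X} (hx0 : x0 ∈ D) {lam : ℝ} (hlam : 0 < lam) :
    ∃ x ∈ D, G x + lam * dist x0 x ≤ G x0 ∧ ∀ y ∈ D, G x ≤ G y + lam * dist x y := by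
  -- one step
  have step : ∀ (n : ℕ) (x : D), ∃ y : D, G y + lam * dist (x : X) y ≤ G x ∧
      ∀ z ∈ D, G z + lam * dist (x : X) z ≤ G x → G y ≤ G z + (1 / 2 : ℝ) ^ n := by
    intro n x
    set S : Set X := {z | z ∈ D ∧ G z + lam * dist (x : X) z ≤ G x} with hS
    have hxS : (x : X) ∈ S := ⟨x.2, by simp⟩
    have hbdd : BddBelow (G '' S) := ⟨m, by rintro _ ⟨z, hz, rfl⟩; exact hm z hz.1⟩
    have hne : (G '' S).Nonempty := ⟨_, _, hxS, rfl⟩
    obtain ⟨_, ⟨y, hy, rfl⟩, hlt⟩ := Real.lt_sInf_add_pos hne (by positivity : 0 < (1 / 2 : ℝ) ^ n)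
    refine ⟨⟨y, hy.1⟩, hy.2, ?_⟩
    intro z hz hz'
    have := csInf_le hbdd ⟨z, ⟨hz, hz'⟩, rfl⟩
    simp only
    linarith
  choose f hf1 hf2 using step
  set u : ℕ → D := fun n => Nat.rec ⟨x0, hx0⟩ (fun n x => f n x) n with hu
  have hu0 : (u 0 : X) = x0 := rfl
  have husucc : ∀ n, u (n + 1) = f n (u n) := fun n => rfl
  have h1 : ∀ n, G (u (n + 1)) + lam * dist (u n : X) (u (n + 1)) ≤ G (u n) := by
    intro n; rw [husucc]; exact hf1 n (u n)
  have h2 : ∀ n, ∀ z ∈ D, G z + lam * dist (u n : X) z ≤ G (u n) → G (u (n+1)) ≤ G z + (1 / 2 : ℝ) ^ n := by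
    intro n; rw [husucc]; exact hf2 n (u n)
  -- chain
  have h3 : ∀ n k, G (u (n + k)) + lam * dist (u n : X) (u (n + k)) ≤ G (u n) := by
    intro n k
    induction k with
    | zero => simp
    | succ k ih =>
      have h4 := h1 (n + k)
      have h5 := dist_triangle (u n : X) (u (n + k)) (u (n + k + 1))
      have h6 : lam * dist (u n : X) (u (n + k + 1)) ≤
        lam * (dist (u n : X) (u (n + k)) + dist (u (n+k) : X) (u (n + k + 1))) :=
        mul_le_mul_of_nonneg_left h5 hlam.le
      have e : n + (k + 1) = n + k + 1 := by ring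
      rw [e]
      linarith
  have hanti : Antitone (fun n => G (u n)) := by
    apply antitone_nat_of_succ_le
    intro n
    have := h1 n
    have h5 : 0 ≤ lam * dist (u n : X) (u (n + 1)) := by positivity
    linarith
  have hGconv : CauchySeq (fun n => G (u n)) := by
    have hb : BddBelow (Set.range fun n => G (u n)) := ⟨m, by rintro _ ⟨n, rfl⟩; exact hm _ (u n).2⟩
    exact (tendsto_atTop_ciInf hanti hb).cauchySeq
  have hcauchy : CauchySeq (fun n => (u n : X)) := by
    rw [Metric.cauchySeq_iff']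
    intro ε hε
    obtain ⟨N, hN⟩ := Metric.cauchySeq_iff'.1 hGconv (lam * ε) (by positivity)
    refine ⟨N, ?_⟩
    intro n hn
    obtain ⟨k, rfl⟩ := Nat.exists_eq_add_of_le hn
    have h4 := h3 N k
    have h5 := hN (N + k) hn
    rw [Real.dist_eq] at h5
    have h6 := (abs_lt.1 h5).1
    rw [dist_comm]
    have h7 : lam * dist (u N : X) (u (N + k)) < lam * ε := by linarith
    exact lt_of_mul_lt_mul_left h7 hlam.le
  obtain ⟨x, hxD, hx⟩ := cauchySeq_tendsto_of_isComplete hD (fun n => (u n).2) hcauchy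
  have h4 : ∀ n, G x + lam * dist (u n : X) x ≤ G (u n) := by
    intro n
    apply le_of_forall_pos_le_add
    intro ε hε
    -- eventually dist (u n) (u m) ≥ dist (u n) x - ε / lam
    have hev : ∀ᶠ k in atTop, dist (u (n + k) : X) x < ε / lam := by
      have h5 : Tendsto (fun k => (u (n + k) : X)) atTop (𝓝 x) :=
        hx.comp (tendsto_atTop_mono (fun k => Nat.le_add_left k n) tendsto_id)
      have := (Metric.tendsto_nhds.1 h5) (ε / lam) (by positivity)
      exact this
    obtain ⟨K, hK⟩ := eventually_atTop.1 hev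
    have h6 := hlsc (fun k => (u (n + (K + k)) : X)) x (G (u n) - lam * dist (u n : X) x + ε)
      (fun k => (u _).2) hxD (hx.comp (tendsto_atTop_mono (fun k => by omega : ∀ k, k ≤ n + (K + k)) tendsto_id))
      (by
        intro k
        have h7 := h3 n (K + k)
        have h8 := hK (K + k) (by omega)
        have h9 := dist_triangle (u n : X) (u (n + (K + k))) x
        have h10 : lam * dist (u n : X) x ≤ lam * (dist (u n : X) (u (n + (K + k))) +
          dist (u (n + (K + k)) : X) x) := mul_le_mul_of_nonneg_left h9 hlam.le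
        have h11 : lam * dist (u (n + (K + k)) : X) x ≤ ε := by
          rw [lt_div_iff₀ hlam] at h8
          linarith
        linarith)
    linarith
  refine ⟨x, hxD, h4 0, ?_⟩
  intro y hy
  by_contra hcon
  push Not at hcon
  have h5 : ∀ n, G (u (n + 1)) ≤ G y + (1 / 2 : ℝ) ^ n := by
    intro n
    apply h2 n y hy
    have h6 := dist_triangle (u n : X) x y
    have h7 : lam * dist (u n : X) y ≤ lam * (dist (u n : X) x + dist x y) :=
      mul_le_mul_of_nonneg_left h6 hlam.le
    have h8 := h4 n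
    linarith
  have h6 : ∀ n, G x ≤ G y + (1 / 2 : ℝ) ^ n := by
    intro n
    have h7 := h4 (n + 1)
    have h8 : 0 ≤ lam * dist (u (n + 1) : X) x := by positivity
    have := h5 n
    linarith
  have h7 : G x ≤ G y + 0 := by
    apply ge_of_tendsto' (tendsto_const_nhds.add (tendsto_pow_atTop_nhds_zero_of_lt_one
      (by norm_num : (0:ℝ) ≤ 1/2) (by norm_num))) h6
  have h8 : 0 ≤ lam * dist x y := by positivity
  linarith

end Vale.Agent.H16
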