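import Vale.Agent.H16.Gas2

namespace Vale.Agent.H16

open MeasureTheory Finset Filter
open scoped ENNReal NNReal Topology

theorem MG.map {α β : Type} [MeasurableSpace α] [MeasurableSpace β] {T : α → β}
    (hT : Measurable T) {G : List β → ℝ≥0∞} (hG : MG G) : MG (fun l : List α => G (l.map T)) := by
  intro n
  have h := (hG n).comp (f := fun x : Fin n → α => fun i => T (x i)) (by fun_prop)
  convert h using 2 with x
  simp only [Function.comp, List.map_ofFn]
  rfl

theorem X_map {α β : Type} [MeasurableSpace α] [MeasurableSpace β] {T : α → β}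
    {ν : Measure α} {ν' : Measure β} [SigmaFinite ν] [SigmaFinite ν']
    (hT : MeasurePreserving T ν ν') {G : List β → ℝ≥0∞} (hG : MG G) :
    X ν' G = X ν (fun l => G (l.map T)) := by
  unfold X jj J
  congr 1
  funext N
  congr 1
  have h := (measurePreserving_pi (fun _ : Fin N => ν) (fun _ : Fin N => ν')
    (f := fun _ => T) (fun _ => hT)).lintegral_comp (hG N)
  rw [← h]
  apply lintegral_congr
  intro x
  simp only [List.map_ofFn]
  rfl

/-- Euclidean three-space -/
abbrev E := EuclideanSpace ℝ (Fin 3)

/-- sum of `f (dist x y)` over all ordered pairs, the diagonal included -/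
noncomputable def W (f : ℝ → ℝ) (l : List E) : ℝ :=
  (l.map (fun x => (l.map (fun y => f (dist x y))).sum)).sum

theorem sum_map_ofFn {γ : Type*} (g : γ → ℝ) {n : ℕ} (x : Fin n → γ) :
    ((List.ofFn x).map g).sum = ∑ i, g (x i) := by
  rw [List.map_ofFn, List.sum_ofFn]
  rfl

theorem W_ofFn (f : ℝ → ℝ) {n : ℕ} (x : Fin n → E) :
    W f (List.ofFn x) = ∑ i, ∑ j, f (dist (x i) (x j)) := by
  unfold W
  rw [sum_map_ofFn]
  apply Finset.sum_congr rfl
  intro i _
  rw [sum_map_ofFn]

open Classical in
theorem sum_map_flt {γ : Type} (A : Set γ) (g : γ → ℝ) (l : List γ) :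
    ((flt A l).map g).sum = (l.map (fun x => if x ∈ A then g x else 0)).sum := by
  induction l with
  | nil => simp
  | cons a l ih =>
    by_cases h : a ∈ A
    · rw [flt_cons_pos h]; simp [ih, h]
    · rw [flt_cons_neg h]; simp [ih, h]

open Classical in
theorem W_flt (f : ℝ → ℝ) (A : Set E) {n : ℕ} (x : Fin n → E) :
    W f (flt A (List.ofFn x)) =
      ∑ i, ∑ j, if x i ∈ A ∧ x j ∈ A then f (dist (x i) (x j)) else 0 := by
  unfold W
  rw [sum_map_flt, sum_map_ofFn]
  apply Finset.sum_congr rfl
  intro i _
  by_cases h : x i ∈ A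
  · rw [if_pos h, sum_map_flt, sum_map_ofFn]
    apply Finset.sum_congr rfl
    intro j _
    simp [h]
  · simp [h]

open Classical in
theorem len_flt {γ : Type} (A : Set γ) {n : ℕ} (x : Fin n → γ) :
    ((flt A (List.ofFn x)).length : ℝ) = ∑ i, if x i ∈ A then 1 else 0 := by
  have h := sum_map_flt A (fun _ => (1:ℝ)) (List.ofFn x)
  rw [sum_map_ofFn] at h
  rw [← h]
  simp

theorem W_map (f : ℝ → ℝ) {T : E → E} (hT : Isometry T) (l : List E) :
    W f (l.map T) = W f l := by
  unfold W
  simp only [List.map_map, Function.comp_def, hT.dist_eq]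

/-- Boltzmann factor with chemical potential `μ` and an extra term `κ n²` -/
noncomputable def bf (f : ℝ → ℝ) (μ κ : ℝ) (l : List E) : ℝ≥0∞ :=
  ENNReal.ofReal (Real.exp (μ * l.length + κ * (l.length : ℝ) ^ 2 - (W f l - l.length * f 0) / 2))

theorem bf_nil (f : ℝ → ℝ) (μ κ : ℝ) : bf f μ κ [] = 1 := by
  simp [bf, W]

theorem MG_bf {f : ℝ → ℝ} (hf : Measurable f) (μ κ : ℝ) : MG (bf f μ κ) := by
  intro n
  unfold bf
  simp only [W_ofFn, List.length_ofFn]
  apply ENNReal.measurable_ofReal.comp
  apply Real.measurable_exp.comp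
  apply Measurable.sub measurable_const
  apply Measurable.div_const
  apply Measurable.sub _ measurable_const
  apply Finset.measurable_sum
  intro i _
  apply Finset.measurable_sum
  intro j _
  apply hf.comp
  exact (measurable_pi_apply i).dist (measurable_pi_apply j)

theorem bf_map (f : ℝ → ℝ) (μ κ : ℝ) {T : E → E} (hT : Isometry T) (l : List E) :
    bf f μ κ (l.map T) = bf f μ κ l := by
  simp [bf, W_map f hT]

/-- translation invariance of the grand canonical sum -/
theorem X_translate {f : ℝ → ℝ} (hf : Measurable f) (μ κ : ℝ) (S : Set E) (v : E) :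
    X (volume.restrict S) (bf f μ κ) =
      X (volume.restrict ((fun x => x + v) ⁻¹' S)) (bf f μ κ) := by
  have h1 : MeasurePreserving (fun x : E => x + v) volume volume :=
    measurePreserving_add_right volume v
  have h2 : MeasurePreserving (fun x : E => x + v) (volume.restrict ((fun x => x + v) ⁻¹' S))
      (volume.restrict S) :=
    h1.restrict_preimage_emb (MeasurableEquiv.addRight v).measurableEmbedding S
  rw [X_map h2 (MG_bf hf μ κ)]
  congr 1
  funext l
  apply bf_map
  exact fun x y => by simp

end Vale.Agent.H16
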