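import Mathlib

/-! Grand canonical sums over finite configurations, written with lists. -/

namespace Vale.Agent.H16

open MeasureTheory Finset
open scoped ENNReal NNReal

variable {α : Type} [MeasurableSpace α]

/-- measurability of a function on lists, length by length -/
def MG (G : List α → ℝ≥0∞) : Prop :=
  ∀ n : ℕ, Measurable (fun x : Fin n → α => G (List.ofFn x))

/-- `N`-particle integral -/
noncomputable def J (ν : Measure α) (N : ℕ) (G : List α → ℝ≥0∞) : ℝ≥0∞ :=
  ∫⁻ x : Fin N → α, G (List.ofFn x) ∂(Measure.pi fun _ : Fin N => ν)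

/-- `N`-particle integral divided by `N!` -/
noncomputable def jj (ν : Measure α) (N : ℕ) (G : List α → ℝ≥0∞) : ℝ≥0∞ :=
  ((N.factorial : ℝ≥0∞))⁻¹ * J ν N G

/-- grand canonical sum -/
noncomputable def X (ν : Measure α) (G : List α → ℝ≥0∞) : ℝ≥0∞ := ∑' N, jj ν N G

theorem J_zero (ν : Measure α) [SigmaFinite ν] (G : List α → ℝ≥0∞) : J ν 0 G = G [] := by
  unfold J
  rw [Measure.pi_of_empty, lintegral_dirac]
  simp

theorem MG.joint {G : List α → ℝ≥0∞} (hG : MG G) (n : ℕ) :
    Measurable (fun p : α × (Fin n → α) => G (p.1 :: List.ofFn p.2)) := by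
  have h := (hG (n + 1)).comp (MeasurableEquiv.piFinSuccAbove (fun _ : Fin (n+1) => α) 0).symm.measurable
  convert h using 2 with p
  simp only [Function.comp]
  congr 1
  rw [List.ofFn_succ]
  simp [MeasurableEquiv.piFinSuccAbove, Fin.insertNthEquiv]

theorem MG.cons {G : List α → ℝ≥0∞} (hG : MG G) (a : α) : MG (fun l => G (a :: l)) := by
  intro n
  exact (hG.joint n).comp (measurable_const.prodMk measurable_id)

theorem J_succ (ν : Measure α) [SigmaFinite ν] (N : ℕ) {G : List α → ℝ≥0∞} (hG : MG G) :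
    J ν (N + 1) G = ∫⁻ a, J ν N (fun l => G (a :: l)) ∂ν := by
  unfold J
  have h1 := (measurePreserving_piFinSuccAbove (fun _ : Fin (N+1) => ν) 0)
  rw [← lintegral_prod _ (hG.joint N).aemeasurable]
  have h2 := h1.lintegral_comp (f := fun p : α × (Fin N → α) => G (p.1 :: List.ofFn p.2)) (hG.joint N)
  rw [← h2]
  apply lintegral_congr
  intro x
  rw [List.ofFn_succ]
  simp [MeasurableEquiv.piFinSuccAbove, Fin.insertNthEquiv]
  rfl

theorem J_cons_measurable (ν : Measure α) [SigmaFinite ν] (N : ℕ) {G : List α → ℝ≥0∞} (hG : MG G) :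
    Measurable (fun a => J ν N (fun l => G (a :: l))) := by
  unfold J
  exact Measurable.lintegral_prod_right' (hG.joint N)

theorem jj_zero (ν : Measure α) [SigmaFinite ν] (G : List α → ℝ≥0∞) : jj ν 0 G = G [] := by
  simp [jj, J_zero]

theorem jj_succ (ν : Measure α) [SigmaFinite ν] (N : ℕ) {G : List α → ℝ≥0∞} (hG : MG G) :
    ((N + 1 : ℕ) : ℝ≥0∞) * jj ν (N + 1) G = ∫⁻ a, jj ν N (fun l => G (a :: l)) ∂ν := by
  unfold jj
  rw [J_succ ν N hG, lintegral_const_mul _ (J_cons_measurable ν N hG)]
  rw [Nat.factorial_succ, Nat.cast_mul, ENNReal.mul_inv (Or.inr (ENNReal.natCast_ne_top _))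
    (Or.inl (ENNReal.natCast_ne_top _)), ← mul_assoc, ← mul_assoc,
    ENNReal.mul_inv_cancel (by simp) (ENNReal.natCast_ne_top _), one_mul]

theorem jj_cons_measurable (ν : Measure α) [SigmaFinite ν] (N : ℕ) {G : List α → ℝ≥0∞} (hG : MG G) :
    Measurable (fun a => jj ν N (fun l => G (a :: l))) := by
  unfold jj
  exact (J_cons_measurable ν N hG).const_mul _



/-! ### two-block factorization -/

open Classical in
/-- the sublist of points lying in `A` -/
noncomputable def flt (A : Set α) (l : List α) : List α := l.filter (fun x => decide (x ∈ A))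

omit [MeasurableSpace α] in
@[simp] theorem flt_nil (A : Set α) : flt A [] = [] := by simp [flt]

omit [MeasurableSpace α] in
theorem flt_cons_pos {A : Set α} {a : α} (h : a ∈ A) (l : List α) :
    flt A (a :: l) = a :: flt A l := by simp [flt, h]

omit [MeasurableSpace α] in
theorem flt_cons_neg {A : Set α} {a : α} (h : a ∉ A) (l : List α) :
    flt A (a :: l) = flt A l := by simp [flt, h]

omit [MeasurableSpace α] in
theorem flt_flt_of_subset {A B : Set α} (h : B ⊆ A) (l : List α) :
    flt B (flt A l) = flt B l := by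
  unfold flt
  rw [List.filter_filter]
  congr 1
  funext x
  by_cases hx : x ∈ B
  · simp [hx, h hx]
  · simp [hx]

theorem jj_split (ν : Measure α) [SigmaFinite ν] {A : Set α} (hA : MeasurableSet A) (N : ℕ) :
    ∀ (G H : List α → ℝ≥0∞), MG G → MG H →
      MG (fun l => G (flt A l) * H (flt Aᶜ l)) →
      jj ν N (fun l => G (flt A l) * H (flt Aᶜ l)) =
        ∑ p ∈ antidiagonal N, jj (ν.restrict A) p.1 G * jj (ν.restrict Aᶜ) p.2 H := by
  induction N with
  | zero =>
    intro G H hG hH hK
    simp [jj_zero]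
  | succ N ih =>
    intro G H hG hH hK
    have hne : ((N + 1 : ℕ) : ℝ≥0∞) ≠ 0 := by simp
    have hnt : ((N + 1 : ℕ) : ℝ≥0∞) ≠ ⊤ := ENNReal.natCast_ne_top _
    apply (ENNReal.mul_right_inj hne hnt).1
    rw [jj_succ ν N hK]
    have hsplit := lintegral_add_compl (μ := ν) (fun a => jj ν N (fun l =>
      G (flt A (a :: l)) * H (flt Aᶜ (a :: l)))) hA
    rw [← hsplit]
    have h1 : ∫⁻ a in A, jj ν N (fun l =>
        G (flt A (a :: l)) * H (flt Aᶜ (a :: l))) ∂ν =
        ∑ p ∈ antidiagonal N, ((p.1 + 1 : ℕ) : ℝ≥0∞) * jj (ν.restrict A) (p.1 + 1) G *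
          jj (ν.restrict Aᶜ) p.2 H := by
      have e1 : ∫⁻ a in A, jj ν N (fun l =>
        G (flt A (a :: l)) * H (flt Aᶜ (a :: l))) ∂ν =
        ∫⁻ a in A, ∑ p ∈ antidiagonal N, jj (ν.restrict A) p.1 (fun l => G (a :: l)) *
          jj (ν.restrict Aᶜ) p.2 H ∂ν := by
        apply setLIntegral_congr_fun hA
        intro a ha
        have e2 : (fun l : List α => G (flt A (a :: l)) * H (flt Aᶜ (a :: l)))
            = (fun l : List α => (fun l' => G (a :: l')) (flt A l) *
                H (flt Aᶜ l)) := by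
          funext l
          rw [flt_cons_pos ha, flt_cons_neg (by simpa using ha)]
        simp only
        rw [e2]
        apply ih _ _ (hG.cons a) hH
        rw [← e2]
        exact hK.cons a
      rw [e1, lintegral_finsetSum]
      · apply Finset.sum_congr rfl
        intro p _
        rw [lintegral_mul_const _ (jj_cons_measurable _ _ hG), jj_succ _ _ hG]
      · intro p _
        exact (jj_cons_measurable _ _ hG).mul_const _
    have h2 : ∫⁻ a in Aᶜ, jj ν N (fun l =>
        G (flt A (a :: l)) * H (flt Aᶜ (a :: l))) ∂ν =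
        ∑ p ∈ antidiagonal N, jj (ν.restrict A) p.1 G *
          (((p.2 + 1 : ℕ) : ℝ≥0∞) * jj (ν.restrict Aᶜ) (p.2 + 1) H) := by
      have e1 : ∫⁻ a in Aᶜ, jj ν N (fun l =>
        G (flt A (a :: l)) * H (flt Aᶜ (a :: l))) ∂ν =
        ∫⁻ a in Aᶜ, ∑ p ∈ antidiagonal N, jj (ν.restrict A) p.1 G *
          jj (ν.restrict Aᶜ) p.2 (fun l => H (a :: l)) ∂ν := by
        apply setLIntegral_congr_fun hA.compl
        intro a ha
        have ha' : a ∉ A := ha
        have e2 : (fun l : List α => G (flt A (a :: l)) * H (flt Aᶜ (a :: l)))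
            = (fun l : List α => G (flt A l) *
                (fun l' => H (a :: l')) (flt Aᶜ l)) := by
          funext l
          rw [flt_cons_neg ha', flt_cons_pos ha]
        simp only
        rw [e2]
        apply ih _ _ hG (hH.cons a)
        rw [← e2]
        exact hK.cons a
      rw [e1, lintegral_finsetSum]
      · apply Finset.sum_congr rfl
        intro p _
        rw [lintegral_const_mul _ (jj_cons_measurable _ _ hH), jj_succ _ _ hH]
      · intro p _
        exact (jj_cons_measurable _ _ hH).const_mul _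
    rw [h1, h2]
    have h3 : ∑ p ∈ antidiagonal N, ((p.1 + 1 : ℕ) : ℝ≥0∞) * jj (ν.restrict A) (p.1 + 1) G *
          jj (ν.restrict Aᶜ) p.2 H =
        ∑ p ∈ antidiagonal (N + 1), (p.1 : ℝ≥0∞) * jj (ν.restrict A) p.1 G *
          jj (ν.restrict Aᶜ) p.2 H := by
      rw [Finset.Nat.sum_antidiagonal_succ]
      simp
    have h4 : ∑ p ∈ antidiagonal N, jj (ν.restrict A) p.1 G *
          (((p.2 + 1 : ℕ) : ℝ≥0∞) * jj (ν.restrict Aᶜ) (p.2 + 1) H) =
        ∑ p ∈ antidiagonal (N + 1), (p.2 : ℝ≥0∞) * jj (ν.restrict A) p.1 G *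
          jj (ν.restrict Aᶜ) p.2 H := by
      rw [Finset.Nat.sum_antidiagonal_succ']
      simp
      apply Finset.sum_congr rfl
      intro p _
      ring
    rw [h3, h4, ← Finset.sum_add_distrib, Finset.mul_sum]
    apply Finset.sum_congr rfl
    intro p hp
    have hp' : p.1 + p.2 = N + 1 := by simpa using hp
    rw [← hp']
    push_cast
    ring

theorem tsum_mul_tsum_antidiag (f g : ℕ → ℝ≥0∞) :
    (∑' n, f n) * (∑' n, g n) = ∑' n, ∑ p ∈ antidiagonal n, f p.1 * g p.2 := by
  have e1 : (∑' n, f n) * (∑' n, g n) = ∑' p : ℕ × ℕ, f p.1 * g p.2 := by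
    rw [ENNReal.tsum_prod (f := fun a b => f a * g b), ← ENNReal.tsum_mul_right]
    congr 1
    funext a
    rw [← ENNReal.tsum_mul_left]
  rw [e1, ← (Finset.HasAntidiagonal.sigmaAntidiagonalEquivProd (A := ℕ)).tsum_eq (fun p : ℕ × ℕ => f p.1 * g p.2),
    ENNReal.tsum_sigma']
  congr 1
  funext n
  rw [tsum_fintype]
  simp only [Finset.HasAntidiagonal.sigmaAntidiagonalEquivProd_apply]
  rw [Finset.sum_coe_sort (antidiagonal n) (fun p : ℕ × ℕ => f p.1 * g p.2)]

theorem X_split (ν : Measure α) [SigmaFinite ν] {A : Set α} (hA : MeasurableSet A)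
    (G H : List α → ℝ≥0∞) (hG : MG G) (hH : MG H)
    (hK : MG (fun l => G (flt A l) * H (flt Aᶜ l))) :
    X ν (fun l => G (flt A l) * H (flt Aᶜ l)) =
      X (ν.restrict A) G * X (ν.restrict Aᶜ) H := by
  unfold X
  rw [tsum_mul_tsum_antidiag]
  congr 1
  funext N
  exact jj_split ν hA N G H hG hH hK

/-! ### measurability of filtered functions -/

theorem filter_joint_measurable {A : Set α} (hA : MeasurableSet A) (n : ℕ) :
    ∀ (Y : Type) [MeasurableSpace Y] (G : Y → List α → ℝ≥0∞),
      (∀ n : ℕ, Measurable (fun p : Y × (Fin n → α) => G p.1 (List.ofFn p.2))) →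
      Measurable (fun p : Y × (Fin n → α) => G p.1 (flt A (List.ofFn p.2))) := by
  classical
  induction n with
  | zero =>
    intro Y _ G hG
    simpa using hG 0
  | succ n ih =>
    intro Y _ G hG
    have key : (fun p : Y × (Fin (n+1) → α) => G p.1 (flt A (List.ofFn p.2))) =
        fun p : Y × (Fin (n+1) → α) => if p.2 0 ∈ A then
          G p.1 (p.2 0 :: flt A (List.ofFn (fun i => p.2 (Fin.succ i))))
          else G p.1 (flt A (List.ofFn (fun i => p.2 (Fin.succ i)))) := by
      funext p
      rw [List.ofFn_succ]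
      by_cases h : p.2 0 ∈ A
      · simp only [h, if_true]; rw [flt_cons_pos h]
      · simp only [h, if_false]; rw [flt_cons_neg h]
    rw [key]
    have htail : Measurable (fun p : Y × (Fin (n+1) → α) => (fun i : Fin n => p.2 (Fin.succ i))) := by
      fun_prop
    have h0 : Measurable (fun p : Y × (Fin (n+1) → α) => p.2 0) := by fun_prop
    apply Measurable.ite
    · exact h0 hA
    · have := ih (Y × α) (fun y l => G y.1 (y.2 :: l)) (by
        intro m
        have h := (hG (m + 1)).comp
          (f := fun q : (Y × α) × (Fin m → α) => (q.1.1, (Fin.cons q.1.2 q.2 : Fin (m+1) → α))) (by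
            apply Measurable.prodMk (by fun_prop)
            apply measurable_pi_lambda
            intro i
            refine Fin.cases ?_ ?_ i
            · simp only [Fin.cons_zero]; fun_prop
            · intro j; simp only [Fin.cons_succ]; fun_prop)
        convert h using 2 with q
        simp [List.ofFn_succ])
      exact this.comp (f := fun p : Y × (Fin (n+1) → α) =>
        ((p.1, p.2 0), (fun i : Fin n => p.2 (Fin.succ i)))) (by fun_prop)
    · have := ih Y G hG
      exact this.comp (f := fun p : Y × (Fin (n+1) → α) =>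
        (p.1, (fun i : Fin n => p.2 (Fin.succ i)))) (by fun_prop)

theorem MG.filter {A : Set α} (hA : MeasurableSet A) {G : List α → ℝ≥0∞} (hG : MG G) :
    MG (fun l => G (flt A l)) := by
  intro n
  have := filter_joint_measurable hA n Unit (fun _ l => G l) (by
    intro m
    exact (hG m).comp measurable_snd)
  exact this.comp (f := fun x : Fin n → α => ((), x)) (by fun_prop)

theorem MG.mul {G H : List α → ℝ≥0∞} (hG : MG G) (hH : MG H) : MG (fun l => G l * H l) :=
  fun n => (hG n).mul (hH n)

theorem MG.prod {ι : Type*} (s : Finset ι) {G : ι → List α → ℝ≥0∞} (hG : ∀ i, MG (G i)) :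
    MG (fun l => ∏ i ∈ s, G i l) := by
  intro n
  exact Finset.measurable_prod s (fun i _ => hG i n)

end Vale.Agent.H16
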