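import Vale.Agent.H16.Gas

namespace Vale.Agent.H16

open MeasureTheory Finset Filter
open scoped ENNReal NNReal Topology

variable {α : Type} [MeasurableSpace α]

theorem jj_mono_fun (ν : Measure α) (N : ℕ) {G H : List α → ℝ≥0∞}
    (h : ∀ l, G l ≤ H l) : jj ν N G ≤ jj ν N H := by
  unfold jj J
  gcongr with x
  exact h _

theorem X_mono_fun (ν : Measure α) {G H : List α → ℝ≥0∞}
    (h : ∀ l, G l ≤ H l) : X ν G ≤ X ν H :=
  ENNReal.tsum_le_tsum fun N => jj_mono_fun ν N h

/-- monotonicity with the inequality needed only for configurations in `S` -/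
theorem X_mono_on (ν : Measure α) [SigmaFinite ν] {S : Set α} (hS : MeasurableSet S)
    {G H : List α → ℝ≥0∞}
    (h : ∀ (N : ℕ) (x : Fin N → α), (∀ i, x i ∈ S) → G (List.ofFn x) ≤ H (List.ofFn x)) :
    X (ν.restrict S) G ≤ X (ν.restrict S) H := by
  apply ENNReal.tsum_le_tsum
  intro N
  unfold jj J
  gcongr 1
  have e : (Measure.pi fun _ : Fin N => ν.restrict S) =
      (Measure.pi fun _ : Fin N => ν).restrict (Set.univ.pi fun _ => S) := by
    rw [Measure.restrict_pi_pi]
  rw [e]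
  apply setLIntegral_mono' (MeasurableSet.univ_pi fun _ => hS)
  intro x hx
  exact h N x (fun i => hx i (Set.mem_univ i))

theorem X_congr_on (ν : Measure α) [SigmaFinite ν] {S : Set α} (hS : MeasurableSet S)
    {G H : List α → ℝ≥0∞}
    (h : ∀ (N : ℕ) (x : Fin N → α), (∀ i, x i ∈ S) → G (List.ofFn x) = H (List.ofFn x)) :
    X (ν.restrict S) G = X (ν.restrict S) H :=
  le_antisymm (X_mono_on ν hS fun N x hx => (h N x hx).le)
    (X_mono_on ν hS fun N x hx => (h N x hx).ge)

theorem X_mono_set (ν : Measure α) [SigmaFinite ν] {S T : Set α} (hST : S ⊆ T)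
    (G : List α → ℝ≥0∞) :
    X (ν.restrict S) G ≤ X (ν.restrict T) G := by
  apply ENNReal.tsum_le_tsum
  intro N
  unfold jj J
  gcongr 1
  rw [← Measure.restrict_pi_pi (μ := fun _ : Fin N => ν) (fun _ => S),
    ← Measure.restrict_pi_pi (μ := fun _ : Fin N => ν) (fun _ => T)]
  apply lintegral_mono_set
  exact Set.pi_mono fun i _ => hST

theorem one_le_X (ν : Measure α) [SigmaFinite ν] (G : List α → ℝ≥0∞) (h : G [] = 1) :
    1 ≤ X ν G := by
  calc (1 : ℝ≥0∞) = jj ν 0 G := by rw [jj_zero, h]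
    _ ≤ X ν G := ENNReal.le_tsum 0

theorem X_prod (ν : Measure α) [SigmaFinite ν] {ι : Type*} (s : Finset ι)
    (C : ι → Set α) (hC : ∀ i, MeasurableSet (C i))
    (hd : Set.PairwiseDisjoint (s : Set ι) C)
    (G : ι → List α → ℝ≥0∞) (hG : ∀ i, MG (G i)) :
    X (ν.restrict (⋃ i ∈ s, C i)) (fun l => ∏ i ∈ s, G i (flt (C i) l)) =
      ∏ i ∈ s, X (ν.restrict (C i)) (G i) := by
  classical
  induction s using Finset.induction_on with
  | empty =>
    simp only [Finset.notMem_empty, Set.iUnion_of_empty, Set.iUnion_empty, Measure.restrict_empty,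
      Finset.prod_empty]
    unfold X
    rw [tsum_eq_single 0]
    · simp [jj_zero]
    · intro N hN
      unfold jj J
      obtain ⟨m, rfl⟩ := Nat.exists_eq_succ_of_ne_zero hN
      have h0 : (Measure.pi fun _ : Fin (m+1) => (0 : Measure α)) = 0 := by
        rw [← Measure.measure_univ_eq_zero, Measure.pi_univ]
        simp
      simp [h0]
  | insert a s ha ih =>
    have hd' : Set.PairwiseDisjoint (s : Set ι) C :=
      hd.subset (by simp)
    have hda : ∀ j ∈ s, Disjoint (C a) (C j) := by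
      intro j hj
      apply hd (by simp) (by simp [hj])
      rintro rfl; exact ha hj
    have ih' := ih hd'
    rw [Finset.prod_insert ha, ← ih']
    set H : List α → ℝ≥0∞ := fun l => ∏ i ∈ s, G i (flt (C i) l) with hH
    have hHm : MG H := MG.prod s (fun i => (hG i).filter (hC i))
    have hfil : ∀ (l : List α) (j : ι), j ∈ s →
        flt (C j) (flt (C a)ᶜ l) = flt (C j) l := by
      intro l j hj
      apply flt_flt_of_subset
      intro x hx h
      exact Set.disjoint_left.1 (hda j hj) h hx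
    have e1 : (fun l : List α => ∏ i ∈ insert a s, G i (flt (C i) l)) =
        fun l => G a (flt (C a) l) * H (flt (C a)ᶜ l) := by
      funext l
      rw [Finset.prod_insert ha]
      congr 1
      rw [hH]
      apply Finset.prod_congr rfl
      intro j hj
      rw [hfil l j hj]
    rw [e1, X_split _ (hC a) (G a) H (hG a) hHm
      (((hG a).filter (hC a)).mul (hHm.filter (hC a).compl))]
    congr 2
    · rw [Measure.restrict_restrict (hC a)]
      congr 1
      ext x
      simp
      tauto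
    · rw [Measure.restrict_restrict (hC a).compl]
      congr 1
      ext x
      simp only [Finset.mem_insert, Set.iUnion_iUnion_eq_or_left, Set.mem_inter_iff,
        Set.mem_compl_iff, Set.mem_union, Set.mem_iUnion, exists_prop]
      constructor
      · rintro ⟨h1, h2 | h2⟩
        · exact absurd h2 h1
        · exact h2
      · rintro ⟨j, hj, hx⟩
        exact ⟨fun h => Set.disjoint_left.1 (hda j hj) h hx, Or.inr ⟨j, hj, hx⟩⟩

/-! ### Hoelder -/

theorem prod_const_rpow {c : ℝ≥0∞} (h0 : c ≠ 0) (ht : c ≠ ⊤) {ι : Type*} (s : Finset ι)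
    (p : ι → ℝ) : c ^ (∑ i ∈ s, p i) = ∏ i ∈ s, c ^ p i := by
  classical
  induction s using Finset.induction_on with
  | empty => simp
  | insert a s ha ih => rw [Finset.sum_insert ha, Finset.prod_insert ha, ENNReal.rpow_add _ _ h0 ht, ih]

theorem jj_holder (ν : Measure α) [SigmaFinite ν] {ι : Type*} (s : Finset ι)
    (p : ι → ℝ) (hp : ∑ i ∈ s, p i = 1) (h2p : ∀ i ∈ s, 0 ≤ p i)
    (G : ι → List α → ℝ≥0∞) (hG : ∀ i, MG (G i)) (N : ℕ) :
    jj ν N (fun l => ∏ i ∈ s, G i l ^ p i) ≤ ∏ i ∈ s, (jj ν N (G i)) ^ p i := by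
  unfold jj J
  have h := ENNReal.lintegral_prod_norm_pow_le (μ := Measure.pi fun _ : Fin N => ν) s
    (f := fun i x => G i (List.ofFn x)) (fun i _ => (hG i N).aemeasurable) hp h2p
  calc ((N.factorial : ℝ≥0∞))⁻¹ * ∫⁻ x : Fin N → α, ∏ i ∈ s, G i (List.ofFn x) ^ p i
          ∂(Measure.pi fun _ : Fin N => ν)
      ≤ ((N.factorial : ℝ≥0∞))⁻¹ * ∏ i ∈ s, (∫⁻ x : Fin N → α, G i (List.ofFn x)
          ∂(Measure.pi fun _ : Fin N => ν)) ^ p i := by gcongr
    _ = (∏ i ∈ s, ((N.factorial : ℝ≥0∞))⁻¹ ^ p i) * ∏ i ∈ s, (∫⁻ x : Fin N → α, G i (List.ofFn x)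
          ∂(Measure.pi fun _ : Fin N => ν)) ^ p i := by
        congr 1
        have hc0 : ((N.factorial : ℝ≥0∞))⁻¹ ≠ 0 := by
          simp
        have hct : ((N.factorial : ℝ≥0∞))⁻¹ ≠ ⊤ := by
          simp [Nat.factorial_ne_zero]
        rw [← prod_const_rpow hc0 hct s p, hp, ENNReal.rpow_one]
    _ = _ := by
        rw [← Finset.prod_mul_distrib]
        apply Finset.prod_congr rfl
        intro i hi
        rw [ENNReal.mul_rpow_of_nonneg _ _ (h2p i hi)]

theorem X_holder (ν : Measure α) [SigmaFinite ν] {ι : Type*} (s : Finset ι)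
    (p : ι → ℝ) (hp : ∑ i ∈ s, p i = 1) (h2p : ∀ i ∈ s, 0 ≤ p i)
    (G : ι → List α → ℝ≥0∞) (hG : ∀ i, MG (G i)) :
    X ν (fun l => ∏ i ∈ s, G i l ^ p i) ≤ ∏ i ∈ s, (X ν (G i)) ^ p i := by
  unfold X
  calc ∑' N, jj ν N (fun l => ∏ i ∈ s, G i l ^ p i)
      ≤ ∑' N, ∏ i ∈ s, (jj ν N (G i)) ^ p i :=
        ENNReal.tsum_le_tsum fun N => jj_holder ν s p hp h2p G hG N
    _ = ∫⁻ N : ℕ, ∏ i ∈ s, (jj ν N (G i)) ^ p i ∂Measure.count := by
        rw [lintegral_count]
    _ ≤ ∏ i ∈ s, (∫⁻ N : ℕ, jj ν N (G i) ∂Measure.count) ^ p i :=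
        ENNReal.lintegral_prod_norm_pow_le s (f := fun i N => jj ν N (G i))
          (fun i _ => (measurable_of_countable _).aemeasurable) hp h2p
    _ = _ := by
        apply Finset.prod_congr rfl
        intro i _
        rw [lintegral_count]

/-! ### Fatou -/

theorem X_fatou (ν : Measure α) [SigmaFinite ν] (G : ℕ → List α → ℝ≥0∞) (hG : ∀ n, MG (G n))
    (G' : List α → ℝ≥0∞) (h : ∀ l, Tendsto (fun n => G n l) atTop (𝓝 (G' l)))
    {c : ℝ≥0∞} (c' : ℕ → ℝ≥0∞) (hc' : Tendsto c' atTop (𝓝 c)) (hc : ∀ n, X ν (G n) ≤ c' n) :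
    X ν G' ≤ c := by
  have h1 : ∀ N, jj ν N G' ≤ liminf (fun n => jj ν N (G n)) atTop := by
    intro N
    unfold jj J
    have : ∫⁻ x : Fin N → α, G' (List.ofFn x) ∂(Measure.pi fun _ : Fin N => ν) ≤
        liminf (fun n => ∫⁻ x : Fin N → α, G n (List.ofFn x) ∂(Measure.pi fun _ : Fin N => ν)) atTop := by
      calc _ = ∫⁻ x : Fin N → α, liminf (fun n => G n (List.ofFn x)) atTop
            ∂(Measure.pi fun _ : Fin N => ν) := by
            apply lintegral_congr
            intro x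
            exact ((h (List.ofFn x)).liminf_eq).symm
        _ ≤ _ := lintegral_liminf_le (fun n => hG n N)
    calc _ ≤ ((N.factorial : ℝ≥0∞))⁻¹ * liminf (fun n => ∫⁻ x : Fin N → α, G n (List.ofFn x)
            ∂(Measure.pi fun _ : Fin N => ν)) atTop := by gcongr
      _ = _ := by
        rw [ENNReal.liminf_const_mul_of_ne_top]
        simp [Nat.factorial_ne_zero]
  unfold X
  calc ∑' N, jj ν N G' ≤ ∑' N, liminf (fun n => jj ν N (G n)) atTop :=
        ENNReal.tsum_le_tsum h1
    _ = ∫⁻ N : ℕ, liminf (fun n => jj ν N (G n)) atTop ∂Measure.count := by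
        rw [lintegral_count]
    _ ≤ liminf (fun n => ∫⁻ N : ℕ, jj ν N (G n) ∂Measure.count) atTop :=
        lintegral_liminf_le (fun n => measurable_of_countable _)
    _ = liminf (fun n => X ν (G n)) atTop := by
        simp only [lintegral_count, X]
    _ ≤ liminf c' atTop := by
        exact liminf_le_liminf (Eventually.of_forall hc)
    _ = c := hc'.liminf_eq

/-! ### exponential bound -/

theorem J_const_pow (ν : Measure α) [SigmaFinite ν] (N : ℕ) (c : ℝ≥0∞) :
    J ν N (fun l => c ^ l.length) = (c * ν Set.univ) ^ N := by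
  unfold J
  simp only [List.length_ofFn, lintegral_const, Measure.pi_univ, Finset.prod_const,
    Finset.card_univ, Fintype.card_fin, mul_pow]

theorem X_exp (ν : Measure α) [SigmaFinite ν] {c v : ℝ} (hc : 0 ≤ c)
    (hv0 : 0 ≤ v) (hv : ν Set.univ = ENNReal.ofReal v) :
    X ν (fun l => (ENNReal.ofReal c) ^ l.length) = ENNReal.ofReal (Real.exp (c * v)) := by
  unfold X jj
  have h1 : ∀ N : ℕ, ((N.factorial : ℝ≥0∞))⁻¹ * J ν N (fun l => (ENNReal.ofReal c) ^ l.length) =
      ENNReal.ofReal ((c * v) ^ N / N.factorial) := by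
    intro N
    rw [J_const_pow, hv, ← ENNReal.ofReal_mul hc, ← ENNReal.ofReal_pow (by positivity),
      ENNReal.ofReal_div_of_pos (by positivity), ENNReal.ofReal_natCast, ENNReal.div_eq_inv_mul]
  simp_rw [h1]
  rw [← ENNReal.ofReal_tsum_of_nonneg (fun n => by positivity) (Real.summable_pow_div_factorial _)]
  rw [Real.exp_eq_exp_ℝ, NormedSpace.exp_eq_tsum_div]

end Vale.Agent.H16
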