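import Vale.Agent.H16.Super

namespace Vale.Agent.H16

open MeasureTheory Finset Filter
open scoped ENNReal NNReal Topology

theorem X_const_mul {α : Type} [MeasurableSpace α] (ν : Measure α) {c : ℝ≥0∞} (hc : c ≠ ⊤)
    (G : List α → ℝ≥0∞) : X ν (fun l => c * G l) = c * X ν G := by
  unfold X jj J
  rw [← ENNReal.tsum_mul_left]
  congr 1
  funext N
  rw [lintegral_const_mul' _ _ hc]
  ring

theorem S2_ge {L : ℝ} (hL : 0 ≤ L) {N : ℕ} (x : Fin N → E) (hx : ∀ i, x i ∈ bx L) :
    (N:ℝ) ^ 2 ≤ (L + 1) ^ 3 * S2 x := by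
  set U : Finset (Fin 3 → ℤ) := Fintype.piFinset (fun _ => Finset.Icc 0 ⌊L⌋) with hU
  have hcard : (U.card : ℝ) ≤ (L + 1) ^ 3 := by
    rw [hU, Fintype.card_piFinset]
    simp only [Int.card_Icc, Finset.prod_const, Finset.card_univ, Fintype.card_fin]
    push_cast
    apply pow_le_pow_left₀ (by positivity)
    have h0 : 0 ≤ ⌊L⌋ := Int.floor_nonneg.2 hL
    have h1 : (((⌊L⌋ + 1 - 0).toNat : ℕ) : ℝ) = (⌊L⌋ : ℝ) + 1 := by
      have : ((⌊L⌋ + 1 - 0).toNat : ℤ) = ⌊L⌋ + 1 := by
        rw [Int.toNat_of_nonneg (by omega)]; ring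
      exact_mod_cast this
    rw [h1]
    have := Int.floor_le L
    linarith
  have h := sq_le_card_mul_pairs U (fun i => blk 1 0 (x i)) (by
    intro i
    rw [hU, Fintype.mem_piFinset]
    intro m
    simp only [blk, Pi.zero_apply, Nat.cast_zero, add_zero, Nat.cast_one, Int.ediv_one]
    rw [Finset.mem_Icc]
    exact ⟨Int.floor_nonneg.2 (hx i m).1, Int.floor_le_floor (hx i m).2⟩)
  refine h.trans ?_
  exact mul_le_mul_of_nonneg_right hcard (SB_nonneg 1 0 x)

theorem quad_bound {b c V n : ℝ} (hc : 0 < c) (hV : 0 < V) :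
    b * n - c * (n ^ 2 / V) / 2 ≤ V * b ^ 2 / (2 * c) := by
  have h : 0 ≤ (c * n - V * b) ^ 2 := sq_nonneg _
  have e : V * b ^ 2 / (2 * c) - (b * n - c * (n ^ 2 / V) / 2) = (c * n - V * b) ^ 2 / (2 * c * V) := by
    field_simp; ring
  have : 0 ≤ (c * n - V * b) ^ 2 / (2 * c * V) := by positivity
  linarith

theorem lf_quad {A : ℝ} {t : ℕ → ℝ} (g : Good A t) (hc : 0 < A - 27 * ∑' k, t k) (μ : ℝ) {L : ℝ}
    (hL : 0 ≤ L) :
    lf A t μ L ≤ L ^ 3 + (L + 1) ^ 3 * (μ + A / 2) ^ 2 / (2 * (A - 27 * ∑' k, t k)) := by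
  set c := A - 27 * ∑' k, t k with hcdef
  set B := (L + 1) ^ 3 * (μ + A / 2) ^ 2 / (2 * c) with hB
  apply g.lf_le μ hL
  unfold Xi
  have h1 : X (volume.restrict (bx L)) (fun l : List E => (ENNReal.ofReal (Real.exp B)) *
      (ENNReal.ofReal 1) ^ l.length) = ENNReal.ofReal (Real.exp (L ^ 3 + B)) := by
    rw [X_const_mul _ ENNReal.ofReal_ne_top, X_exp (volume.restrict (bx L)) zero_le_one
      (by positivity : 0 ≤ L ^ 3) (by rw [Measure.restrict_apply_univ, volume_bx hL]),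
      ← ENNReal.ofReal_mul (Real.exp_nonneg _), ← Real.exp_add, one_mul, add_comm]
  rw [← h1]
  apply X_mono_on _ (bx_measurable L)
  intro N x hx
  rw [ENNReal.ofReal_one, one_pow, mul_one]
  unfold bf
  apply ENNReal.ofReal_le_ofReal
  apply Real.exp_le_exp.2
  rw [W_ofFn, List.length_ofFn]
  have h1 := W_phi_ge g.A0 g.t0 g.ts x
  rw [← hcdef] at h1
  have h2 := S2_ge hL x hx
  have h3 : phi A t 0 ≤ A := by
    have := psi_nonneg g.t0 0
    simp only [phi, core]
    norm_num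
    exact this
  have h4 : (N:ℝ) * phi A t 0 ≤ N * A := mul_le_mul_of_nonneg_left h3 (by positivity)
  have hV : (0:ℝ) < (L + 1) ^ 3 := by positivity
  have h5 : (N:ℝ) ^ 2 / (L + 1) ^ 3 ≤ S2 x := by
    rw [div_le_iff₀ hV]; linarith
  have h6 : c * ((N:ℝ) ^ 2 / (L + 1) ^ 3) ≤ c * S2 x := mul_le_mul_of_nonneg_left h5 hc.le
  have h7 := quad_bound (b := μ + A / 2) (n := (N:ℝ)) hc hV
  rw [hB]
  linarith

theorem P_quad {A : ℝ} {t : ℕ → ℝ} (g : Good A t) (hc : 0 < A - 27 * ∑' k, t k) (μ : ℝ) :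
    P A t μ ≤ 1 + (μ + A / 2) ^ 2 / (2 * (A - 27 * ∑' k, t k)) := by
  apply P_le
  intro L hL
  refine (lf_quad g hc μ hL.le).trans ?_
  rw [add_mul, one_mul, div_mul_eq_mul_div, mul_comm ((μ + A / 2) ^ 2)]
  gcongr <;> linarith

/-- at zero chemical potential and without attraction the pressure is at most one -/
theorem P_zero_le {A : ℝ} (hA : 0 ≤ A) : P A (fun _ => 0) 0 ≤ 1 := by
  have g : Good A (fun _ => 0) := ⟨hA, fun _ => le_rfl, summable_zero, by simpa using hA⟩
  apply P_le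
  intro L hL
  have h : lf A (fun _ => 0) 0 L ≤ L ^ 3 := by
    apply g.lf_le 0 hL.le
    unfold Xi
    have h1 := X_exp (volume.restrict (bx L)) zero_le_one (by positivity : 0 ≤ L ^ 3)
      (by rw [Measure.restrict_apply_univ, volume_bx hL.le])
    rw [one_mul] at h1
    rw [← h1]
    apply X_mono_on _ (bx_measurable L)
    intro N x _
    rw [ENNReal.ofReal_one, one_pow]
    unfold bf
    rw [← ENNReal.ofReal_one]
    apply ENNReal.ofReal_le_ofReal
    rw [← Real.exp_zero]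
    apply Real.exp_le_exp.2
    rw [W_ofFn, List.length_ofFn]
    have hpsi : ∀ r, psi (fun _ => 0) r = 0 := by intro r; simp [psi]
    have h2 : (N:ℝ) * phi A (fun _ => 0) 0 ≤ ∑ i, ∑ j, phi A (fun _ => 0) (dist (x i) (x j)) := by
      have h3 : ∀ i : Fin N, phi A (fun _ => 0) 0 ≤ ∑ j, phi A (fun _ => 0) (dist (x i) (x j)) := by
        intro i
        have h4 := Finset.single_le_sum (f := fun j => phi A (fun _ => 0) (dist (x i) (x j)))
          (fun j _ => by
            simp only [phi, hpsi, sub_zero]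
            exact core_nonneg hA _) (Finset.mem_univ i)
        simpa using h4
      calc (N:ℝ) * phi A (fun _ => 0) 0 = ∑ i : Fin N, phi A (fun _ => 0) 0 := by simp
        _ ≤ _ := Finset.sum_le_sum fun i _ => h3 i
    simp only [zero_mul, zero_add]
    linarith
  refine h.trans ?_
  rw [one_mul]
  gcongr
  linarith

/-- lower semicontinuity of the pressure -/
theorem P_lsc {A : ℝ} {t : ℕ → ℕ → ℝ} {t' : ℕ → ℝ} (g : ∀ n, Good A (t n)) (g' : Good A t')
    {μ : ℕ → ℝ} {μ' : ℝ} (hμ : Tendsto μ atTop (𝓝 μ'))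
    (ht : ∀ r, Tendsto (fun n => psi (t n) r) atTop (𝓝 (psi t' r)))
    {a : ℕ → ℝ} {a' : ℝ} (ha : Tendsto a atTop (𝓝 a')) (h : ∀ n, P A (t n) (μ n) ≤ a n) :
    P A t' μ' ≤ a' := by
  apply P_le
  intro L hL
  apply g'.lf_le μ' hL.le
  unfold Xi
  apply X_fatou (volume.restrict (bx L)) (fun n => bf (phi A (t n)) (μ n) 0)
    (fun n => MG_bf (phi_measurable A (g n).t0 (g n).ts) _ _) _ ?_
    (fun n => ENNReal.ofReal (Real.exp (a n * (L + 2) ^ 3))) ?_ ?_
  · intro l
    unfold bf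
    apply ENNReal.tendsto_ofReal
    apply (Real.continuous_exp.tendsto _).comp
    have hphi : ∀ r, Tendsto (fun n => phi A (t n) r) atTop (𝓝 (phi A t' r)) := by
      intro r
      unfold phi
      exact tendsto_const_nhds.sub (ht r)
    have hW : Tendsto (fun n => W (phi A (t n)) l) atTop (𝓝 (W (phi A t') l)) := by
      have hl : l = List.ofFn l.get := by simp
      rw [hl]
      simp only [W_ofFn]
      apply tendsto_finsetSum
      intro i _
      apply tendsto_finsetSum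
      intro j _
      exact hphi _
    refine Tendsto.sub ((hμ.mul_const _).add tendsto_const_nhds) ?_
    exact (hW.sub ((hphi 0).const_mul _)).div_const _
  · apply ENNReal.tendsto_ofReal
    apply (Real.continuous_exp.tendsto _).comp
    exact ha.mul_const _
  · intro n
    have h1 := (g n).Xi_eq (μ n) hL.le
    unfold Xi at h1
    rw [h1]
    apply ENNReal.ofReal_le_ofReal
    apply Real.exp_le_exp.2
    have h2 := le_P (g n) (μ n) hL
    have h3 := h n
    have h4 : (0:ℝ) < (L + 2) ^ 3 := by positivity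
    nlinarith

/-- monotonicity in the chemical potential -/
theorem P_mono {A : ℝ} {t : ℕ → ℝ} (g : Good A t) {μ μ' : ℝ} (h : μ ≤ μ') : P A t μ ≤ P A t μ' := by
  apply P_le
  intro L hL
  have h1 : lf A t μ L ≤ lf A t μ' L := by
    apply g.lf_le μ hL.le
    rw [← g.Xi_eq μ' hL.le]
    unfold Xi
    apply X_mono_fun
    intro l
    unfold bf
    apply ENNReal.ofReal_le_ofReal
    apply Real.exp_le_exp.2
    have : μ * l.length ≤ μ' * l.length := mul_le_mul_of_nonneg_right h (by positivity)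
    linarith
  refine h1.trans ?_
  have := le_P g μ' hL
  linarith

end Vale.Agent.H16
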