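import Vale.Agent.H16.LP3
import Vale.Agent.H16.Ekeland

namespace Vale.Agent.H16

open MeasureTheory Finset Filter
open scoped ENNReal NNReal Topology

/-- the Banach space of weights -/
abbrev ell1 := lp (fun _ : ℕ => ℝ) 1

theorem ell1_summable (t : ell1) : Summable (fun k => |t k|) := by
  have h := lp.memℓp t
  have h2 := h.summable (by norm_num)
  simpa using h2

theorem ell1_norm (t : ell1) : ‖t‖ = ∑' k, |t k| := by
  rw [lp.norm_eq_tsum_rpow (by norm_num)]
  simp

theorem ell1_dist (t t' : ell1) : dist t t' = ∑' k, |t k - t' k| := by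
  rw [dist_eq_norm, ell1_norm]
  rfl

theorem ell1_tsum_sub (t t' : ell1) : |(∑' k, t k) - ∑' k, t' k| ≤ dist t t' := by
  rw [ell1_dist]
  have h1 : Summable (fun k => t k) := (ell1_summable t).of_abs
  have h2 : Summable (fun k => t' k) := (ell1_summable t').of_abs
  rw [← h1.tsum_sub h2]
  have h3 : Summable (fun k => |t k - t' k|) := ell1_summable (t - t')
  exact (norm_tsum_le_tsum_norm (f := fun k => t k - t' k) h3)

theorem psi_sub (t t' : ell1) (r : ℝ) : |psi t r - psi t' r| ≤ dist t t' := by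
  rw [ell1_dist]
  have hs : ∀ (t : ell1), Summable (fun k => t k * w k r) := by
    intro t
    apply Summable.of_abs
    apply Summable.of_nonneg_of_le (fun k => abs_nonneg _) _ (ell1_summable t)
    intro k
    rw [abs_mul, abs_of_nonneg (w_nonneg k r)]
    exact mul_le_of_le_one_right (abs_nonneg _) (w_le_one k r)
  unfold psi
  rw [← (hs t).tsum_sub (hs t')]
  have h3 : Summable (fun k => |t k - t' k|) := ell1_summable (t - t')
  have h4 : ∀ k, ‖t k * w k r - t' k * w k r‖ ≤ |t k - t' k| := by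
    intro k
    rw [← sub_mul, norm_mul, Real.norm_eq_abs, Real.norm_of_nonneg (w_nonneg k r)]
    exact mul_le_of_le_one_right (abs_nonneg _) (w_le_one k r)
  exact tsum_of_norm_bounded h3.hasSum h4

/-- the domain for the variational principle -/
def Dom (K : ℝ) : Set (ℝ × ell1) := {p | (∀ k, 0 ≤ p.2 k) ∧ ‖p.2‖ ≤ K}

theorem lp_apply_le (t : ell1) (k : ℕ) : |t k| ≤ ‖t‖ := by
  rw [ell1_norm]
  exact (ell1_summable t).le_tsum k (fun j _ => abs_nonneg _)

theorem continuous_apply_ell1 (k : ℕ) : Continuous (fun t : ell1 => t k) := by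
  rw [Metric.continuous_iff]
  intro b ε hε
  refine ⟨ε, hε, ?_⟩
  intro a ha
  refine lt_of_le_of_lt ?_ ha
  rw [Real.dist_eq, dist_eq_norm]
  exact lp_apply_le (a - b) k

theorem Dom_complete (K : ℝ) : IsComplete (Dom K) := by
  apply IsClosed.isComplete
  have : Dom K = (⋂ k, {p : ℝ × ell1 | 0 ≤ p.2 k}) ∩ {p : ℝ × ell1 | ‖p.2‖ ≤ K} := by
    ext p; simp [Dom]
  rw [this]
  apply IsClosed.inter
  · apply isClosed_iInter
    intro k
    exact isClosed_le continuous_const ((continuous_apply_ell1 k).comp continuous_snd)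
  · exact isClosed_le (continuous_norm.comp continuous_snd) continuous_const

theorem norm_eq_tsum_of_nonneg {t : ell1} (h : ∀ k, 0 ≤ t k) : ‖t‖ = ∑' k, t k := by
  rw [ell1_norm]
  congr 1
  funext k
  exact abs_of_nonneg (h k)

theorem Good_of_Dom {A K : ℝ} (hA : 0 ≤ A) (hAK : 27 * K ≤ A) {p : ℝ × ell1} (hp : p ∈ Dom K) :
    Good A p.2 := by
  refine ⟨hA, hp.1, (ell1_summable p.2).of_abs, ?_⟩
  rw [← norm_eq_tsum_of_nonneg hp.1]
  have := hp.2
  linarith

/-- the functional minimised -/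
noncomputable def GG (A q b0 : ℝ) (p : ℝ × ell1) : ℝ := P A p.2 p.1 - (q * p.1 + b0 * ∑' k, p.2 k)

/-- Existence of a kink of the pressure. -/
theorem exists_kink : ∃ (A : ℝ) (t : ℕ → ℝ) (μ : ℝ), 0 < A ∧ Good A t ∧
    27 * ∑' k, t k ≤ A / 2 ∧ ¬ DifferentiableAt ℝ (P A t) μ := by
  set q : ℝ := 1 / 2 ^ 17 with hq
  set b0 : ℝ := 1 / 2 ^ 28 with hb0
  set lam : ℝ := 1 / 2 ^ 30 with hlam
  set K : ℝ := 2 ^ 31 with hK
  set A : ℝ := 2 ^ 37 with hA
  have hApos : 0 < A := by rw [hA]; positivity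
  have hAK : 27 * K ≤ A / 2 := by rw [hA, hK]; norm_num
  have hlampos : 0 < lam := by rw [hlam]; positivity
  have hgood : ∀ p ∈ Dom K, Good A p.2 := fun p hp => Good_of_Dom hApos.le (by linarith) hp
  -- lower bound
  have hm : ∀ p ∈ Dom K, 0 ≤ GG A q b0 p := by
    intro p hp
    have g := hgood p hp
    have h1 := P_nonneg g p.1
    have h2 := P_trial g p.1
    unfold GG
    have e : q * p.1 + b0 * ∑' k, p.2 k = (1 / 2 ^ 11) * (p.1 / 64 + (∑' k, p.2 k) / 131072) := by
      rw [hq, hb0]; ring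
    rw [e]
    have h3 : (1 / 2 ^ 11 : ℝ) * (p.1 / 64 + (∑' k, p.2 k) / 131072) ≤ (1 / 2 ^ 11) * P A p.2 p.1 :=
      mul_le_mul_of_nonneg_left h2 (by positivity)
    have h4 : (1 / 2 ^ 11 : ℝ) * P A p.2 p.1 ≤ 1 * P A p.2 p.1 :=
      mul_le_mul_of_nonneg_right (by norm_num) h1
    linarith
  -- lower semicontinuity
  have hlsc : ∀ (u : ℕ → ℝ × ell1) (x : ℝ × ell1) (c : ℝ), (∀ n, u n ∈ Dom K) → x ∈ Dom K →
      Tendsto u atTop (𝓝 x) → (∀ n, GG A q b0 (u n) ≤ c) → GG A q b0 x ≤ c := by
    intro u x c hu hx hux hc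
    have h1 : Tendsto (fun n => (u n).1) atTop (𝓝 x.1) := (continuous_fst.tendsto x).comp hux
    have h2 : Tendsto (fun n => (u n).2) atTop (𝓝 x.2) := (continuous_snd.tendsto x).comp hux
    have h2' : Tendsto (fun n => dist (u n).2 x.2) atTop (𝓝 0) := tendsto_iff_dist_tendsto_zero.1 h2
    have h3 : Tendsto (fun n => ∑' k, (u n).2 k) atTop (𝓝 (∑' k, x.2 k)) := by
      rw [tendsto_iff_dist_tendsto_zero]
      apply squeeze_zero (fun n => dist_nonneg) _ h2'
      intro n
      rw [Real.dist_eq]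
      exact ell1_tsum_sub _ _
    have h4 : ∀ r, Tendsto (fun n => psi (u n).2 r) atTop (𝓝 (psi x.2 r)) := by
      intro r
      rw [tendsto_iff_dist_tendsto_zero]
      apply squeeze_zero (fun n => dist_nonneg) _ h2'
      intro n
      rw [Real.dist_eq]
      exact psi_sub _ _ r
    have h5 := P_lsc (A := A) (t := fun n => ((u n).2 : ℕ → ℝ)) (t' := (x.2 : ℕ → ℝ))
      (fun n => hgood _ (hu n)) (hgood _ hx) h1 h4
      (a := fun n => c + (q * (u n).1 + b0 * ∑' k, (u n).2 k))
      (a' := c + (q * x.1 + b0 * ∑' k, x.2 k))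
      (tendsto_const_nhds.add ((h1.const_mul q).add (h3.const_mul b0)))
      (by intro n; have := hc n; unfold GG at this; linarith)
    unfold GG
    linarith
  have hx0 : ((0, 0) : ℝ × ell1) ∈ Dom K := by
    refine ⟨fun k => by simp, ?_⟩
    simp only [norm_zero]
    rw [hK]; positivity
  obtain ⟨x, hxD, hx1, hx2⟩ := ekeland (Dom_complete K) (GG A q b0) hm hlsc hx0 hlampos
  set μ := x.1 with hμ
  set t : ell1 := x.2 with ht
  have g : Good A t := hgood x hxD
  -- bound on the norm
  have hG0 : GG A q b0 ((0, 0) : ℝ × ell1) ≤ 1 := by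
    unfold GG
    have h1 := P_zero_le hApos.le
    simp only
    have e : ((0 : ell1) : ℕ → ℝ) = fun _ => 0 := by funext k; simp
    rw [e]
    simpa using h1
  have hdist : dist ((0, 0) : ℝ × ell1) x ≤ 2 ^ 30 := by
    have h1 := hm x hxD
    have h2 : lam * dist ((0, 0) : ℝ × ell1) x ≤ 1 := by linarith
    have h3 : lam * dist ((0, 0) : ℝ × ell1) x = dist ((0, 0) : ℝ × ell1) x / 2 ^ 30 := by
      rw [hlam]; ring
    rw [h3, div_le_one (by positivity)] at h2
    exact h2
  have hnorm : ‖t‖ ≤ 2 ^ 30 := by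
    refine le_trans ?_ hdist
    rw [Prod.dist_eq]
    refine le_trans ?_ (le_max_right _ _)
    simp [ht]
  have htsum : ∑' k, t k ≤ 2 ^ 30 := by
    rw [← norm_eq_tsum_of_nonneg hxD.1]; exact hnorm
  refine ⟨A, t, μ, hApos, g, by linarith, ?_⟩
  intro hdiff
  set ρ := deriv (P A t) μ with hρ
  have hd : HasDerivAt (P A t) ρ μ := hdiff.hasDerivAt
  -- derivative nonnegative
  have hρ0 : 0 ≤ ρ := by
    have hmono : Monotone (P A t) := fun a b hab => P_mono g hab
    exact hmono.deriv_nonneg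
  -- derivative bounded above
  have hleft : ∀ h : ℝ, 0 < h → P A t μ - (q + lam) * h ≤ P A t (μ - h) := by
    intro h hh
    have hy : ((μ - h, t) : ℝ × ell1) ∈ Dom K := hxD
    have h1 := hx2 _ hy
    have h2 : dist x ((μ - h, t) : ℝ × ell1) = h := by
      rw [Prod.dist_eq]
      simp only [ht, dist_self]
      rw [← hμ, Real.dist_eq]
      have : μ - (μ - h) = h := by ring
      rw [this, abs_of_pos hh]
      exact max_eq_left hh.le
    rw [h2] at h1
    unfold GG at h1
    simp only at h1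
    rw [← hμ, ← ht] at h1
    linarith
  have hρ1 : ρ ≤ q + lam := by
    apply le_of_forall_pos_le_add
    intro δ hδ
    have h1 := (hasDerivAt_iff_isLittleO_nhds_zero.1 hd)
    have h2 := (Asymptotics.isLittleO_iff.1 h1) hδ
    obtain ⟨ε, hε, h3⟩ := Metric.eventually_nhds_iff.1 h2
    have h4 := h3 (y := -(ε / 2)) (by
      rw [dist_zero_right, norm_neg, Real.norm_of_nonneg (by positivity)]; linarith)
    rw [Real.norm_eq_abs, norm_neg, Real.norm_of_nonneg (by positivity : 0 ≤ ε / 2)] at h4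
    have h5 := le_abs_self (P A t (μ + -(ε / 2)) - P A t μ - (-(ε / 2)) • ρ)
    simp only [smul_eq_mul] at h5 h4
    have h6 := hleft (ε / 2) (by positivity)
    have e : μ + -(ε / 2) = μ - ε / 2 := by ring
    rw [e] at h4 h5
    have h7 : ρ * (ε / 2) ≤ (q + lam + δ) * (ε / 2) := by nlinarith
    exact le_of_mul_le_mul_right h7 (by positivity)
  -- increments
  have hinc : ∀ k : ℕ, ∀ s : ℝ, 0 < s → s ≤ 2 ^ 30 → P A t μ + (b0 - lam) * s ≤ P A (add1 t k s) μ := by
    intro k s hs hs1
    set y : ℝ × ell1 := (μ, t + lp.single 1 k s) with hy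
    have hyfun : (y.2 : ℕ → ℝ) = add1 t k s := by
      funext i
      simp only [hy, add1]
      rw [lp.coeFn_add]
      simp only [Pi.add_apply, lp.coeFn_single]
      by_cases hik : i = k
      · subst hik; simp
      · simp [hik]
    have hyD : y ∈ Dom K := by
      constructor
      · intro i
        rw [hyfun]
        unfold add1
        have := hxD.1 i
        split_ifs <;> linarith
      · simp only [hy]
        refine (norm_add_le _ _).trans ?_
        rw [lp.norm_single (by norm_num), Real.norm_of_nonneg hs.le, hK]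
        have : (2:ℝ) ^ 31 = 2 ^ 30 + 2 ^ 30 := by norm_num
        linarith
    have h1 := hx2 y hyD
    have h2 : dist x y = s := by
      rw [Prod.dist_eq]
      simp only [hy, ← hμ, ← ht, dist_self]
      rw [dist_eq_norm, sub_add_cancel_left, norm_neg, lp.norm_single (by norm_num),
        Real.norm_of_nonneg hs.le]
      exact max_eq_right hs.le
    rw [h2] at h1
    unfold GG at h1
    rw [hyfun] at h1
    have h3 : ∑' i, add1 t k s i = ∑' i, t i + s := add1_tsum g.ts k s
    rw [h3] at h1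
    simp only [hy, ← hμ, ← ht] at h1
    linarith
  have hkey := deriv_bound hApos g (s1 := 2 ^ 30) (by positivity) (by
    have : 27 * (∑' k, t k + 2 ^ 30) ≤ 27 * K := by
      have e : K = 2 ^ 30 + 2 ^ 30 := by rw [hK]; norm_num
      rw [e]; linarith
    linarith) hd hinc hlampos
  have h1 : (ρ + lam) ^ 2 ≤ (q + 2 * lam) ^ 2 := by
    apply pow_le_pow_left₀ (by linarith)
    linarith
  have h2 : b0 - lam ≤ 27 / 2 * (q + 2 * lam) ^ 2 :=
    hkey.trans (mul_le_mul_of_nonneg_left h1 (by norm_num))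
  rw [hb0, hlam, hq] at h2
  norm_num at h2

end Vale.Agent.H16
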