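import Vale.Agent.H16.Trial

namespace Vale.Agent.H16

open MeasureTheory Finset Filter
open scoped ENNReal NNReal Topology

/-- add weight `s` to the `k`-th attraction -/
noncomputable def add1 (t : ℕ → ℝ) (k : ℕ) (s : ℝ) : ℕ → ℝ := fun i => t i + (if i = k then s else 0)

theorem hasSum_single' (k : ℕ) (f : ℕ → ℝ) : HasSum (fun i => if i = k then f i else 0) (f k) := by
  have := hasSum_ite_eq k (f k)
  convert this using 2 with i
  split_ifs with h
  · rw [h]
  · rfl

theorem add1_summable {t : ℕ → ℝ} (hts : Summable t) (k : ℕ) (s : ℝ) : Summable (add1 t k s) :=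
  hts.add (hasSum_single' k (fun _ => s)).summable

theorem add1_tsum {t : ℕ → ℝ} (hts : Summable t) (k : ℕ) (s : ℝ) :
    ∑' i, add1 t k s i = ∑' i, t i + s :=
  (hts.hasSum.add (hasSum_single' k (fun _ => s))).tsum_eq

theorem add1_psi {t : ℕ → ℝ} (ht0 : ∀ k, 0 ≤ t k) (hts : Summable t) (k : ℕ) (s : ℝ) (r : ℝ) :
    psi (add1 t k s) r = psi t r + s * w k r := by
  have h1 := (summable_tw ht0 hts r).hasSum
  have h2 := hasSum_single' k (fun i => s * w i r)
  have h3 := h1.add h2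
  unfold psi
  rw [← h3.tsum_eq]
  congr 1
  funext i
  unfold add1
  split_ifs <;> ring

theorem add1_phi (A : ℝ) {t : ℕ → ℝ} (ht0 : ∀ k, 0 ≤ t k) (hts : Summable t) (k : ℕ) (s : ℝ) (r : ℝ) :
    phi A (add1 t k s) r = phi A t r - s * w k r := by
  unfold phi
  rw [add1_psi ht0 hts]
  ring

/-- set of offsets -/
def offs (M : ℕ) : Finset (Fin 3 → ℕ) := Fintype.piFinset (fun _ => Finset.range M)

theorem offs_card (M : ℕ) : ((offs M).card : ℝ) = (M:ℝ) ^ 3 := by
  unfold offs
  rw [Fintype.card_piFinset]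
  simp

/-- fraction bound: pairs at distance `≤ R` are rarely in different blocks -/
theorem cross_count {M : ℕ} (hM : 0 < M) {R : ℕ} {x y : E} (h : dist x y ≤ R) :
    (∑ o ∈ offs M, if blk M o x = blk M o y then (0:ℝ) else 1) ≤ (M:ℝ) ^ 3 * min (1:ℝ) (3 * ((R:ℝ) + 1) / M) := by
  have hMp : (0:ℝ) < M := by exact_mod_cast hM
  rw [mul_min_of_nonneg _ _ (by positivity)]
  apply le_min
  · calc (∑ o ∈ offs M, if blk M o x = blk M o y then (0:ℝ) else 1) ≤ ∑ o ∈ offs M, (1:ℝ) := by
          apply Finset.sum_le_sum; intro o _; split_ifs <;> norm_num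
      _ = (M:ℝ) ^ 3 * 1 := by rw [Finset.sum_const, nsmul_eq_mul, offs_card]
  · -- union bound over coordinates
    have h1 : ∀ o ∈ offs M, (if blk M o x = blk M o y then (0:ℝ) else 1) ≤
        ∑ m : Fin 3, if (⌊x m⌋ + (o m : ℤ)) / (M : ℤ) ≠ (⌊y m⌋ + (o m : ℤ)) / (M : ℤ) then (1:ℝ) else 0 := by
      intro o _
      split_ifs with hb
      · apply Finset.sum_nonneg; intro m _; split_ifs <;> norm_num
      · obtain ⟨m, hm⟩ := Function.ne_iff.1 hb
        have := Finset.single_le_sum (f := fun m : Fin 3 =>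
          if (⌊x m⌋ + (o m : ℤ)) / (M : ℤ) ≠ (⌊y m⌋ + (o m : ℤ)) / (M : ℤ) then (1:ℝ) else 0)
          (fun m _ => by split_ifs <;> norm_num) (Finset.mem_univ m)
        refine le_trans ?_ this
        have hm' : (⌊x m⌋ + (o m : ℤ)) / (M : ℤ) ≠ (⌊y m⌋ + (o m : ℤ)) / (M : ℤ) := hm
        simp only
        rw [if_pos hm']
    refine (Finset.sum_le_sum h1).trans ?_
    rw [Finset.sum_comm]
    have h2 : ∀ m : Fin 3, (∑ o ∈ offs M,
        if (⌊x m⌋ + (o m : ℤ)) / (M : ℤ) ≠ (⌊y m⌋ + (o m : ℤ)) / (M : ℤ) then (1:ℝ) else 0) ≤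
        (M:ℝ) ^ 2 * (R + 1) := by
      intro m
      -- the condition depends only on o m
      set F : ℕ → ℝ := fun c => if (⌊x m⌋ + (c : ℤ)) / (M : ℤ) ≠ (⌊y m⌋ + (c : ℤ)) / (M : ℤ)
        then (1:ℝ) else 0 with hF
      have h3 : ∑ o ∈ offs M, F (o m) = (M:ℝ) ^ 2 * ∑ c ∈ Finset.range M, F c := by
        unfold offs
        have h4 := Finset.prod_univ_sum (fun _ : Fin 3 => Finset.range M)
          (fun (i : Fin 3) (c : ℕ) => if i = m then F c else 1)
        have h5 : ∀ o : Fin 3 → ℕ, (∏ i : Fin 3, if i = m then F (o i) else 1) = F (o m) := by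
          intro o
          rw [Finset.prod_ite_eq' Finset.univ m (fun i => F (o i))]
          simp
        simp only [h5] at h4
        rw [← h4]
        have h6 : ∀ i : Fin 3, (∑ c ∈ Finset.range M, if i = m then F c else 1) =
            if i = m then ∑ c ∈ Finset.range M, F c else (M:ℝ) := by
          intro i
          split_ifs
          · rfl
          · simp
        simp only [h6]
        rw [Finset.prod_ite, Finset.prod_const, Finset.prod_const]
        have c1 : (Finset.univ.filter (fun i : Fin 3 => i = m)).card = 1 := by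
          rw [Finset.filter_eq' Finset.univ m]; simp
        have c2 : (Finset.univ.filter (fun i : Fin 3 => ¬ i = m)).card = 2 := by
          rw [Finset.filter_ne' Finset.univ m]; simp
        rw [c1, c2]
        ring
      rw [h3]
      apply mul_le_mul_of_nonneg_left _ (by positivity)
      have h7 : ∑ c ∈ Finset.range M, F c =
          (((Finset.range M).filter (fun c : ℕ => (⌊x m⌋ + (c:ℤ)) / (M:ℤ) ≠ (⌊y m⌋ + (c:ℤ)) / (M:ℤ))).card : ℝ) := by
        rw [Finset.card_filter]
        push_cast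
        rfl
      rw [h7]
      have h8 := diff_block_count M hM ⌊x m⌋ ⌊y m⌋
      have h9 : |⌊x m⌋ - ⌊y m⌋| ≤ (R:ℤ) := floor_diff ((coord_le x y m).trans h)
      have h10 := h8.trans h9
      have h11 : (((Finset.range M).filter (fun c : ℕ => (⌊x m⌋ + (c:ℤ)) / (M:ℤ) ≠ (⌊y m⌋ + (c:ℤ)) / (M:ℤ))).card : ℝ) ≤ R := by
        exact_mod_cast h10
      linarith
    refine (Finset.sum_le_sum (fun m _ => h2 m)).trans (le_of_eq ?_)
    simp only [Finset.sum_const, Finset.card_univ, Fintype.card_fin, nsmul_eq_mul]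
    push_cast
    field_simp

/-- the total crossing weight -/
noncomputable def eps (t : ℕ → ℝ) (M : ℕ) : ℝ := ∑' k, t k * min 1 (3 * ((RN k : ℝ) + 1) / M)

theorem eps_summable {t : ℕ → ℝ} (ht0 : ∀ k, 0 ≤ t k) (hts : Summable t) (M : ℕ) :
    Summable (fun k => t k * min 1 (3 * ((RN k : ℝ) + 1) / M)) := by
  apply Summable.of_nonneg_of_le _ _ hts
  · intro k
    apply mul_nonneg (ht0 k)
    apply le_min zero_le_one
    positivity
  · intro k
    exact mul_le_of_le_one_right (ht0 k) (min_le_left _ _)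

theorem eps_tendsto {t : ℕ → ℝ} (ht0 : ∀ k, 0 ≤ t k) (hts : Summable t) :
    Tendsto (fun M : ℕ => eps t M) atTop (𝓝 0) := by
  have h := tendsto_tsum_of_dominated_convergence (𝓕 := (atTop : Filter ℕ))
    (f := fun (M : ℕ) k => t k * min 1 (3 * ((RN k : ℝ) + 1) / M)) (g := fun _ => (0:ℝ))
    (bound := t) hts ?_ ?_
  · simpa [eps] using h
  · intro k
    have h1 : Tendsto (fun M : ℕ => 3 * ((RN k : ℝ) + 1) / (M:ℝ)) atTop (𝓝 0) :=
      tendsto_const_nhds.div_atTop tendsto_natCast_atTop_atTop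
    have h2 : Tendsto (fun M : ℕ => min 1 (3 * ((RN k : ℝ) + 1) / (M:ℝ))) atTop (𝓝 (min 1 0)) :=
      tendsto_const_nhds.min h1
    have h3 := h2.const_mul (t k)
    simpa using h3
  · apply Eventually.of_forall
    intro M k
    rw [Real.norm_of_nonneg]
    · exact mul_le_of_le_one_right (ht0 k) (min_le_left _ _)
    · apply mul_nonneg (ht0 k)
      apply le_min zero_le_one
      positivity

theorem cross_psi {t : ℕ → ℝ} (ht0 : ∀ k, 0 ≤ t k) (hts : Summable t) {M : ℕ} (hM : 0 < M)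
    {N : ℕ} (x : Fin N → E) :
    (∑ o ∈ offs M, ∑ i, ∑ j, if blk M o (x i) = blk M o (x j) then 0 else psi t (dist (x i) (x j))) ≤
      (M:ℝ) ^ 3 * (27 * eps t M * S2 x) := by
  have hMp : (0:ℝ) < M := by exact_mod_cast hM
  set c : Fin N → Fin N → ℝ := fun i j => ∑ o ∈ offs M, if blk M o (x i) = blk M o (x j) then (0:ℝ) else 1
    with hc
  have e1 : (∑ o ∈ offs M, ∑ i, ∑ j, if blk M o (x i) = blk M o (x j) then 0 else psi t (dist (x i) (x j)))
      = ∑ i, ∑ j, c i j * psi t (dist (x i) (x j)) := by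
    rw [Finset.sum_comm]
    apply Finset.sum_congr rfl; intro i _
    rw [Finset.sum_comm]
    apply Finset.sum_congr rfl; intro j _
    rw [hc, Finset.sum_mul]
    apply Finset.sum_congr rfl; intro o _
    split_ifs <;> simp
  rw [e1]
  have h1 := psi_sum ht0 hts c x
  have h2 : HasSum (fun k => t k * min 1 (3 * ((RN k : ℝ) + 1) / M) * ((M:ℝ) ^ 3 * (27 * S2 x)))
      (eps t M * ((M:ℝ) ^ 3 * (27 * S2 x))) := (eps_summable ht0 hts M).hasSum.mul_right _
  have h3 := hasSum_le (fun k => ?_) h1 h2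
  · refine h3.trans (le_of_eq ?_)
    ring
  · have hmin0 : 0 ≤ min 1 (3 * ((RN k : ℝ) + 1) / M) := le_min zero_le_one (by positivity)
    have h4 : ∑ i, ∑ j, c i j * w k (dist (x i) (x j)) ≤
        ∑ i, ∑ j, ((M:ℝ) ^ 3 * min 1 (3 * ((RN k : ℝ) + 1) / M)) * w k (dist (x i) (x j)) := by
      apply Finset.sum_le_sum; intro i _
      apply Finset.sum_le_sum; intro j _
      by_cases hd : dist (x i) (x j) ≤ (RN k : ℝ)
      · exact mul_le_mul_of_nonneg_right (cross_count hM hd) (w_nonneg _ _)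
      · have : w k (dist (x i) (x j)) = 0 := by unfold w; rw [if_neg hd]
        rw [this]; simp
    have h5 : ∑ i, ∑ j, ((M:ℝ) ^ 3 * min 1 (3 * ((RN k : ℝ) + 1) / M)) * w k (dist (x i) (x j)) =
        ((M:ℝ) ^ 3 * min 1 (3 * ((RN k : ℝ) + 1) / M)) * ∑ i, ∑ j, w k (dist (x i) (x j)) := by
      rw [Finset.mul_sum]
      apply Finset.sum_congr rfl; intro i _
      rw [Finset.mul_sum]
    have h6 := W_w_le' k x
    calc t k * ∑ i, ∑ j, c i j * w k (dist (x i) (x j))
        ≤ t k * (((M:ℝ) ^ 3 * min 1 (3 * ((RN k : ℝ) + 1) / M)) * ∑ i, ∑ j, w k (dist (x i) (x j))) := by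
          apply mul_le_mul_of_nonneg_left _ (ht0 k)
          rw [← h5]; exact h4
      _ ≤ t k * (((M:ℝ) ^ 3 * min 1 (3 * ((RN k : ℝ) + 1) / M)) * (27 * S2 x)) := by
          apply mul_le_mul_of_nonneg_left _ (ht0 k)
          exact mul_le_mul_of_nonneg_left h6 (by positivity)
      _ = _ := by ring

end Vale.Agent.H16
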