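import Vale.Agent.H16.LP

namespace Vale.Agent.H16

open MeasureTheory Finset Filter
open scoped ENNReal NNReal Topology

/-- exponent of the block functional -/
noncomputable def Eo (A : ℝ) (t : ℕ → ℝ) (μ κ : ℝ) (M : ℕ) (o : Fin 3 → ℕ) {N : ℕ} (x : Fin N → E) : ℝ :=
  μ * N + κ * (∑ i, ∑ j, if blk M o (x i) = blk M o (x j) then (1:ℝ) else 0)
    - ((∑ i, ∑ j, if blk M o (x i) = blk M o (x j) then phi A t (dist (x i) (x j)) else 0)
      - N * phi A t 0) / 2

theorem pointwise_o {A : ℝ} {t : ℕ → ℝ} (g : Good A t) (k : ℕ) {s : ℝ} (hs : 0 ≤ s)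
    {M : ℕ} (hM : 0 < M) (h3 : 3 * M ≤ RN k) (μ : ℝ) {κ : ℝ} (hκ : κ = 27 * s / (2 * (M:ℝ) ^ 3))
    (o : Fin 3 → ℕ) {N : ℕ} (x : Fin N → E) :
    μ * N - ((∑ i, ∑ j, phi A (add1 t k s) (dist (x i) (x j))) - N * phi A (add1 t k s) 0) / 2 ≤
      Eo A t μ κ M o x +
      (∑ i, ∑ j, if blk M o (x i) = blk M o (x j) then 0 else psi t (dist (x i) (x j))) / 2 := by
  have hMp : (0:ℝ) < M := by exact_mod_cast hM
  have e1 : ∑ i, ∑ j, phi A (add1 t k s) (dist (x i) (x j)) =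
      (∑ i, ∑ j, phi A t (dist (x i) (x j))) - s * ∑ i, ∑ j, w k (dist (x i) (x j)) := by
    simp only [add1_phi A g.t0 g.ts, Finset.sum_sub_distrib, Finset.mul_sum]
  have e2 := add1_phi A g.t0 g.ts k s 0
  have h1 := W_w_le k hM h3 o x
  have h2 : (∑ i, ∑ j, if blk M o (x i) = blk M o (x j) then phi A t (dist (x i) (x j)) else 0) -
      (∑ i, ∑ j, if blk M o (x i) = blk M o (x j) then 0 else psi t (dist (x i) (x j))) ≤
      ∑ i, ∑ j, phi A t (dist (x i) (x j)) := by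
    rw [← Finset.sum_sub_distrib]
    apply Finset.sum_le_sum; intro i _
    rw [← Finset.sum_sub_distrib]
    apply Finset.sum_le_sum; intro j _
    split_ifs
    · linarith
    · have := core_nonneg g.A0 (dist (x i) (x j))
      unfold phi
      linarith
  have h4 : s / 2 * ∑ i, ∑ j, w k (dist (x i) (x j)) ≤ κ * SB M o x := by
    calc s / 2 * ∑ i, ∑ j, w k (dist (x i) (x j)) ≤ s / 2 * (27 / (M:ℝ) ^ 3 * SB M o x) :=
          mul_le_mul_of_nonneg_left h1 (by positivity)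
      _ = κ * SB M o x := by rw [hκ]; field_simp
  have h5 : 0 ≤ s * (N * w k 0) := by
    have := w_nonneg k 0
    positivity
  unfold Eo
  rw [e1, e2]
  have h6 : SB M o x = ∑ i, ∑ j, if blk M o (x i) = blk M o (x j) then (1:ℝ) else 0 := rfl
  rw [← h6]
  generalize (∑ i, ∑ j, phi A t (dist (x i) (x j))) = a1 at *
  generalize (∑ i, ∑ j, w k (dist (x i) (x j))) = a2 at *
  generalize (∑ i, ∑ j, if blk M o (x i) = blk M o (x j) then phi A t (dist (x i) (x j)) else 0) = a3 at *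
  generalize (∑ i, ∑ j, if blk M o (x i) = blk M o (x j) then 0 else psi t (dist (x i) (x j))) = a4 at *
  have e : μ * (N:ℝ) - (a1 - s * a2 - N * (phi A t 0 - s * w k 0)) / 2 =
    μ * N - (a1 - N * phi A t 0) / 2 + s / 2 * a2 - s * (N * w k 0) / 2 := by ring
  rw [e]
  linarith

theorem pointwise {A : ℝ} {t : ℕ → ℝ} (g : Good A t) (k : ℕ) {s : ℝ} (hs : 0 ≤ s)
    (g' : Good A (add1 t k s)) {M : ℕ} (hM : 0 < M) (h3 : 3 * M ≤ RN k)
    {θ : ℝ} (hθ0 : 0 ≤ θ) (hθ1 : θ ≤ 1)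
    (hθ : 27 * eps t M ≤ θ * (A - 27 * ∑' i, add1 t k s i))
    (μ : ℝ) {κ : ℝ} (hκ : κ = 27 * s / (2 * (M:ℝ) ^ 3)) {N : ℕ} (x : Fin N → E) :
    μ * N - ((∑ i, ∑ j, phi A (add1 t k s) (dist (x i) (x j))) - N * phi A (add1 t k s) 0) / 2 ≤
      θ * ((μ + A / 2) * N) + ∑ o ∈ offs M, ((1 - θ) / (M:ℝ) ^ 3) * Eo A t μ κ M o x := by
  have hMp : (0:ℝ) < M := by exact_mod_cast hM
  set base := μ * N - ((∑ i, ∑ j, phi A (add1 t k s) (dist (x i) (x j))) -
    N * phi A (add1 t k s) 0) / 2 with hbase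
  have h1 : (M:ℝ) ^ 3 * base ≤ (∑ o ∈ offs M, Eo A t μ κ M o x) +
      ((M:ℝ) ^ 3 * (27 * eps t M * S2 x)) / 2 := by
    have h2 := Finset.sum_le_sum (s := offs M) (fun o _ => pointwise_o g k hs hM h3 μ hκ o x)
    rw [Finset.sum_const, nsmul_eq_mul, offs_card, Finset.sum_add_distrib, ← Finset.sum_div] at h2
    have h4 := cross_psi g.t0 g.ts hM x
    rw [← hbase] at h2
    linarith
  have h5 : base ≤ (μ + A / 2) * N - (A - 27 * ∑' i, add1 t k s i) * S2 x / 2 := by
    have h6 := W_phi_ge g'.A0 g'.t0 g'.ts x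
    have h7 : phi A (add1 t k s) 0 ≤ A := by
      have := psi_nonneg g'.t0 0
      simp only [phi, core]
      norm_num
      exact this
    have h8 : (N:ℝ) * phi A (add1 t k s) 0 ≤ N * A := mul_le_mul_of_nonneg_left h7 (by positivity)
    rw [hbase]
    linarith
  have hS := SB_nonneg 1 0 x
  have hS' : 0 ≤ S2 x := hS
  have heps : 0 ≤ eps t M := by
    apply tsum_nonneg
    intro k
    apply mul_nonneg (g.t0 k)
    apply le_min zero_le_one
    positivity
  rw [← Finset.mul_sum]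
  set T := ∑ o ∈ offs M, Eo A t μ κ M o x with hT
  have h9 : base ≤ T / (M:ℝ) ^ 3 + (27 * eps t M * S2 x) / 2 := by
    rw [div_add' _ _ _ (by positivity), le_div_iff₀ (by positivity)]
    linarith
  have h10 : base = (1 - θ) * base + θ * base := by ring
  rw [h10]
  have h11 : (1 - θ) * base ≤ (1 - θ) * (T / (M:ℝ) ^ 3 + (27 * eps t M * S2 x) / 2) :=
    mul_le_mul_of_nonneg_left h9 (by linarith)
  have h12 : θ * base ≤ θ * ((μ + A / 2) * N - (A - 27 * ∑' i, add1 t k s i) * S2 x / 2) :=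
    mul_le_mul_of_nonneg_left h5 hθ0
  have h13 : 27 * eps t M * S2 x ≤ θ * (A - 27 * ∑' i, add1 t k s i) * S2 x :=
    mul_le_mul_of_nonneg_right hθ hS'
  have h14 : (1 - θ) * (27 * eps t M * S2 x) ≤ 27 * eps t M * S2 x := by
    have : 0 ≤ 27 * eps t M * S2 x := by positivity
    nlinarith
  have e15 : (1 - θ) / (M:ℝ) ^ 3 * T = (1 - θ) * (T / (M:ℝ) ^ 3) := by ring
  rw [e15]
  nlinarith

theorem blk_measurable (M : ℕ) (o : Fin 3 → ℕ) : Measurable (blk M o) := by
  apply measurable_pi_lambda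
  intro m
  have h1 : Measurable (fun y : E => ⌊y m⌋) := Int.measurable_floor.comp (coord_measurable m)
  exact (measurable_of_countable (fun z : ℤ => (z + (o m : ℤ)) / (M:ℤ))).comp h1

theorem blk_mem_idx {M : ℕ} (hM : 0 < M) {o : Fin 3 → ℕ} (ho : o ∈ offs M) (n : ℕ) {y : E}
    (hy : y ∈ bx (M * n)) : blk M o y ∈ idx (n + 1) := by
  unfold idx
  rw [Fintype.mem_piFinset]
  intro m
  rw [Finset.mem_Ico]
  unfold blk
  have hM' : (0:ℤ) < M := by exact_mod_cast hM
  have ho' := Finset.mem_range.1 (Fintype.mem_piFinset.1 ho m)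
  have h0 : 0 ≤ ⌊y m⌋ := Int.floor_nonneg.2 (hy m).1
  have h1 : ⌊y m⌋ ≤ (M:ℤ) * n := by
    have := Int.floor_le_floor (hy m).2
    have e : ((M:ℝ) * n) = (((M:ℤ) * n : ℤ) : ℝ) := by push_cast; ring
    rw [e, Int.floor_intCast] at this
    exact this
  constructor
  · exact Int.ediv_nonneg (by omega) hM'.le
  · apply Int.ediv_lt_of_lt_mul hM'
    push_cast
    have h2 : (o m : ℤ) < M := by exact_mod_cast ho'
    nlinarith

theorem block_bound {A : ℝ} {t : ℕ → ℝ} (g : Good A t) (μ κ : ℝ) {M : ℕ} (hM : 0 < M)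
    {o : Fin 3 → ℕ} (ho : o ∈ offs M) (n : ℕ) :
    X (volume.restrict (bx (M * n))) (fun l => ∏ v ∈ idx (n + 1), bf (phi A t) μ κ (flt (blk M o ⁻¹' {v}) l)) ≤
      (Xi A t μ κ M) ^ ((n + 1) ^ 3) := by
  have hf := phi_measurable A g.t0 g.ts
  have hlabm : ∀ v : Fin 3 → ℤ, MeasurableSet (blk M o ⁻¹' {v}) :=
    fun v => blk_measurable M o (measurableSet_singleton v)
  have hSU : volume.restrict (bx (M * n)) =
      (volume.restrict (bx (M * n))).restrict (⋃ v ∈ idx (n+1), blk M o ⁻¹' {v}) := by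
    rw [Measure.restrict_restrict]
    · congr 1
      symm
      rw [Set.inter_eq_right]
      intro y hy
      simp only [Set.mem_iUnion]
      exact ⟨blk M o y, blk_mem_idx hM ho n hy, rfl⟩
    · exact Finset.measurableSet_biUnion _ (fun v _ => hlabm v)
  rw [hSU, X_prod (volume.restrict (bx (M * n))) (idx (n+1)) (fun v => blk M o ⁻¹' {v})
      (fun v => hlabm v) ?_ (fun _ => bf (phi A t) μ κ) (fun _ => MG_bf hf μ κ)]
  · rw [← idx_card (n+1)]
    apply Finset.prod_le_pow_card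
    intro v _
    rw [Measure.restrict_restrict (hlabm v)]
    refine (X_mono_set volume (Set.inter_subset_left) _).trans ?_
    rw [X_translate hf μ κ _ (WithLp.toLp 2 (fun m => (M:ℝ) * (v m : ℝ) - (o m : ℝ)))]
    apply X_mono_set volume
    intro y hy m
    have hb : blk M o (y + WithLp.toLp 2 (fun m => (M:ℝ) * (v m : ℝ) - (o m : ℝ))) = v := hy
    have hb' := congrFun hb m
    simp only [blk, PiLp.add_apply] at hb'
    have hM' : (0:ℤ) < M := by exact_mod_cast hM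
    have e1 : y m + ((M:ℝ) * (v m : ℝ) - (o m : ℝ)) = y m + (((M:ℤ) * v m - (o m : ℤ) : ℤ) : ℝ) := by
      push_cast; ring
    rw [e1, Int.floor_add_intCast] at hb'
    have e2 : ⌊y m⌋ + ((M:ℤ) * v m - (o m : ℤ)) + (o m : ℤ) = ⌊y m⌋ + (M:ℤ) * v m := by ring
    rw [e2, Int.add_mul_ediv_left _ _ hM'.ne'] at hb'
    have e3 : ⌊y m⌋ / (M:ℤ) = 0 := by omega
    have h0 : 0 ≤ ⌊y m⌋ := by
      by_contra hneg
      push Not at hneg
      have := Int.ediv_neg_of_neg_of_pos hneg hM'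
      omega
    have h1 : ⌊y m⌋ < M := by
      have := Int.lt_ediv_add_one_mul_self ⌊y m⌋ hM'
      rw [e3] at this
      linarith
    constructor
    · exact Int.floor_nonneg.1 h0
    · have h2 : y m < ⌊y m⌋ + 1 := Int.lt_floor_add_one _
      have h3 : ((⌊y m⌋ : ℤ) : ℝ) + 1 ≤ M := by exact_mod_cast h1
      linarith
  · intro a _ b _ hab
    apply Set.disjoint_left.2
    intro y hy hy'
    exact hab ((hy : blk M o y = a).symm.trans hy')

theorem LP_finite {A : ℝ} {t : ℕ → ℝ} (g : Good A t) (k : ℕ) {s : ℝ} (hs : 0 ≤ s)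
    (g' : Good A (add1 t k s)) {M : ℕ} (hM : 0 < M) (h3 : 3 * M ≤ RN k)
    {θ : ℝ} (hθ0 : 0 ≤ θ) (hθ1 : θ ≤ 1)
    (hθ : 27 * eps t M ≤ θ * (A - 27 * ∑' i, add1 t k s i))
    (μ : ℝ) {κ : ℝ} (hκ : κ = 27 * s / (2 * (M:ℝ) ^ 3)) {D : ℝ}
    (hD : Xi A t μ κ M ≤ ENNReal.ofReal (Real.exp D)) (n : ℕ) :
    lf A (add1 t k s) μ (M * n) ≤
      θ * (Real.exp (μ + A / 2) * ((M:ℝ) * n) ^ 3) + (1 - θ) * (((n:ℝ) + 1) ^ 3 * D) := by
  classical
  have hMp : (0:ℝ) < M := by exact_mod_cast hM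
  have hf := phi_measurable A g.t0 g.ts
  have hL : (0:ℝ) ≤ M * n := by positivity
  apply g'.lf_le μ hL
  -- the family for Hoelder
  set G : Option (Fin 3 → ℕ) → List E → ℝ≥0∞ := fun a => match a with
    | none => fun l => (ENNReal.ofReal (Real.exp (μ + A / 2))) ^ l.length
    | some o => fun l => ∏ v ∈ idx (n + 1), bf (phi A t) μ κ (flt (blk M o ⁻¹' {v}) l) with hG
  set p : Option (Fin 3 → ℕ) → ℝ := fun a => match a with
    | none => θ
    | some _ => (1 - θ) / (M:ℝ) ^ 3 with hp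
  have hGm : ∀ a, MG (G a) := by
    intro a
    match a with
    | none =>
      intro m
      simp only [hG, List.length_ofFn]
      exact measurable_const
    | some o =>
      exact MG.prod _ (fun v => (MG_bf hf μ κ).filter
        (blk_measurable M o (measurableSet_singleton v)))
  have hpsum : ∑ a ∈ Finset.insertNone (offs M), p a = 1 := by
    rw [Finset.sum_insertNone]
    simp only [hp]
    rw [Finset.sum_const, nsmul_eq_mul, offs_card]
    field_simp
    ring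
  have hp0 : ∀ a ∈ Finset.insertNone (offs M), 0 ≤ p a := by
    intro a _
    match a with
    | none => exact hθ0
    | some o =>
      simp only [hp]
      apply div_nonneg (by linarith) (by positivity)
  have h1 : Xi A (add1 t k s) μ 0 (M * n) ≤
      X (volume.restrict (bx (M * n))) (fun l => ∏ a ∈ Finset.insertNone (offs M), G a l ^ p a) := by
    unfold Xi
    apply X_mono_on _ (bx_measurable _)
    intro N x hx
    rw [Finset.prod_insertNone]
    simp only [hG, hp]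
    have hprod : ∀ o ∈ offs M, (∏ v ∈ idx (n + 1), bf (phi A t) μ κ (flt (blk M o ⁻¹' {v}) (List.ofFn x))) ^
        ((1 - θ) / (M:ℝ) ^ 3) = ENNReal.ofReal (Real.exp (((1 - θ) / (M:ℝ) ^ 3) * Eo A t μ κ M o x)) := by
      intro o ho
      rw [prod_bf _ _ _ (blk M o) (idx (n+1)) x (fun i => blk_mem_idx hM ho n (hx i))]
      rw [ENNReal.ofReal_rpow_of_nonneg (Real.exp_nonneg _) (div_nonneg (by linarith) (by positivity)),
        ← Real.exp_mul]
      unfold Eo
      rw [mul_comm]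
    rw [Finset.prod_congr rfl hprod, ← ENNReal.ofReal_prod_of_nonneg (fun _ _ => Real.exp_nonneg _),
      ← Real.exp_sum, List.length_ofFn, ← ENNReal.ofReal_pow (Real.exp_nonneg _), ← Real.exp_nat_mul,
      ENNReal.ofReal_rpow_of_nonneg (Real.exp_nonneg _) hθ0, ← Real.exp_mul,
      ← ENNReal.ofReal_mul (Real.exp_nonneg _), ← Real.exp_add]
    unfold bf
    apply ENNReal.ofReal_le_ofReal
    apply Real.exp_le_exp.2
    rw [W_ofFn, List.length_ofFn]
    have h4 := pointwise g k hs g' hM h3 hθ0 hθ1 hθ μ hκ x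
    linarith
  refine h1.trans ?_
  refine (X_holder _ _ p hpsum hp0 G hGm).trans ?_
  rw [Finset.prod_insertNone]
  simp only [hG, hp]
  rw [X_exp (volume.restrict (bx (M * n))) (Real.exp_nonneg _) (by positivity : 0 ≤ ((M:ℝ) * n) ^ 3)
    (by rw [Measure.restrict_apply_univ, volume_bx hL]),
    ENNReal.ofReal_rpow_of_nonneg (Real.exp_nonneg _) hθ0, ← Real.exp_mul]
  have h2 : ∀ o ∈ offs M, (X (volume.restrict (bx (M * n))) (fun l =>
      ∏ v ∈ idx (n + 1), bf (phi A t) μ κ (flt (blk M o ⁻¹' {v}) l))) ^ ((1 - θ) / (M:ℝ) ^ 3) ≤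
      ENNReal.ofReal (Real.exp (((1 - θ) / (M:ℝ) ^ 3) * (((n:ℝ) + 1) ^ 3 * D))) := by
    intro o ho
    calc (X (volume.restrict (bx (M * n))) (fun l =>
      ∏ v ∈ idx (n + 1), bf (phi A t) μ κ (flt (blk M o ⁻¹' {v}) l))) ^ ((1 - θ) / (M:ℝ) ^ 3)
        ≤ (ENNReal.ofReal (Real.exp (((n:ℝ) + 1) ^ 3 * D))) ^ ((1 - θ) / (M:ℝ) ^ 3) := by
          apply ENNReal.rpow_le_rpow _ (div_nonneg (by linarith) (by positivity))
          refine (block_bound g μ κ hM ho n).trans ?_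
          calc (Xi A t μ κ M) ^ ((n + 1) ^ 3) ≤ (ENNReal.ofReal (Real.exp D)) ^ ((n + 1) ^ 3) := by
                gcongr
            _ = _ := by
                rw [← ENNReal.ofReal_pow (Real.exp_nonneg _), ← Real.exp_nat_mul]
                push_cast
                rfl
      _ = _ := by
          rw [ENNReal.ofReal_rpow_of_nonneg (Real.exp_nonneg _) (div_nonneg (by linarith) (by positivity)),
            ← Real.exp_mul, mul_comm]
  calc ENNReal.ofReal (Real.exp (Real.exp (μ + A / 2) * ((M:ℝ) * n) ^ 3 * θ)) *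
        ∏ o ∈ offs M, (X (volume.restrict (bx (M * n))) (fun l =>
          ∏ v ∈ idx (n + 1), bf (phi A t) μ κ (flt (blk M o ⁻¹' {v}) l))) ^ ((1 - θ) / (M:ℝ) ^ 3)
      ≤ ENNReal.ofReal (Real.exp (Real.exp (μ + A / 2) * ((M:ℝ) * n) ^ 3 * θ)) *
        ∏ o ∈ offs M, ENNReal.ofReal (Real.exp (((1 - θ) / (M:ℝ) ^ 3) * (((n:ℝ) + 1) ^ 3 * D))) := by
        gcongr with o ho
        exact h2 o ho
    _ = _ := by
        rw [← ENNReal.ofReal_prod_of_nonneg (fun _ _ => Real.exp_nonneg _), ← Real.exp_sum,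
          ← ENNReal.ofReal_mul (Real.exp_nonneg _), ← Real.exp_add, Finset.sum_const, nsmul_eq_mul,
          offs_card]
        congr 2
        field_simp

end Vale.Agent.H16
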