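import Vale.Agent.H16.LP2

namespace Vale.Agent.H16

open MeasureTheory Finset Filter
open scoped ENNReal NNReal Topology

theorem LP_limit {A : ℝ} {t : ℕ → ℝ} (g : Good A t) (k : ℕ) {s : ℝ} (hs : 0 ≤ s)
    (g' : Good A (add1 t k s)) {M : ℕ} (hM : 0 < M) (h3 : 3 * M ≤ RN k)
    {θ : ℝ} (hθ0 : 0 ≤ θ) (hθ1 : θ ≤ 1)
    (hθ : 27 * eps t M ≤ θ * (A - 27 * ∑' i, add1 t k s i))
    (μ : ℝ) {κ : ℝ} (hκ : κ = 27 * s / (2 * (M:ℝ) ^ 3)) {D : ℝ}
    (hD : Xi A t μ κ M ≤ ENNReal.ofReal (Real.exp D)) :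
    P A (add1 t k s) μ ≤ θ * Real.exp (μ + A / 2) + (1 - θ) * (D / (M:ℝ) ^ 3) := by
  have hMp : (0:ℝ) < M := by exact_mod_cast hM
  have hlim1 : Tendsto (fun n : ℕ => ((M:ℝ) * n)) atTop atTop :=
    tendsto_natCast_atTop_atTop.const_mul_atTop hMp
  have h1 := (tendsto_lf g' μ).comp hlim1
  have h2 : Tendsto (fun n : ℕ => θ * Real.exp (μ + A / 2) +
      (1 - θ) * ((((n:ℝ) + 1) / n) ^ 3 * (D / (M:ℝ) ^ 3))) atTop
      (𝓝 (θ * Real.exp (μ + A / 2) + (1 - θ) * (1 ^ 3 * (D / (M:ℝ) ^ 3)))) := by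
    apply Tendsto.const_add
    apply Tendsto.const_mul
    apply Tendsto.mul_const
    apply Tendsto.pow
    have h4 : Tendsto (fun n : ℕ => 1 + 1 / (n:ℝ)) atTop (𝓝 (1 + 0)) :=
      tendsto_const_nhds.add (tendsto_const_nhds.div_atTop tendsto_natCast_atTop_atTop)
    rw [add_zero] at h4
    refine h4.congr' ?_
    filter_upwards [eventually_gt_atTop 0] with n hn
    have : (0:ℝ) < n := by exact_mod_cast hn
    field_simp
  rw [one_pow, one_mul] at h2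
  apply le_of_tendsto_of_tendsto h1 h2
  filter_upwards [eventually_gt_atTop 0] with n hn
  have hnp : (0:ℝ) < n := by exact_mod_cast hn
  simp only [Function.comp]
  rw [div_le_iff₀ (by positivity)]
  refine (LP_finite g k hs g' hM h3 hθ0 hθ1 hθ μ hκ hD n).trans (le_of_eq ?_)
  field_simp

theorem Xi_block {A : ℝ} {t : ℕ → ℝ} (g : Good A t) (μ : ℝ) {κ : ℝ} (hκ : 0 < κ) {η : ℝ} (hη : 0 < η)
    {M : ℝ} (hM : 0 ≤ M) {D' : ℝ} (h : ∀ h : ℝ, 0 ≤ h → lf A t (μ + η + h) M - h ^ 2 / (4 * κ) ≤ D') :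
    Xi A t μ κ M ≤ ENNReal.ofReal (Real.exp (D' + Real.log (1 - Real.exp (-η))⁻¹)) := by
  have he1 : Real.exp (-η) < 1 := by rw [Real.exp_lt_one_iff]; linarith
  have hterm : ∀ N : ℕ, jj (volume.restrict (bx M)) N (bf (phi A t) μ κ) ≤
      ENNReal.ofReal (Real.exp D' * (Real.exp (-η)) ^ N) := by
    intro N
    set hh : ℝ := 2 * κ * N with hhh
    have hh0 : 0 ≤ hh := by positivity
    have e1 : jj (volume.restrict (bx M)) N (bf (phi A t) μ κ) =
        ENNReal.ofReal (Real.exp (κ * (N:ℝ) ^ 2 - (η + hh) * N)) *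
          jj (volume.restrict (bx M)) N (bf (phi A t) (μ + η + hh) 0) := by
      unfold jj J
      rw [mul_left_comm, ← lintegral_const_mul' _ _ ENNReal.ofReal_ne_top]
      congr 1
      apply lintegral_congr
      intro x
      unfold bf
      rw [← ENNReal.ofReal_mul (Real.exp_nonneg _), ← Real.exp_add, List.length_ofFn]
      congr 2
      ring
    rw [e1]
    have h2 : jj (volume.restrict (bx M)) N (bf (phi A t) (μ + η + hh) 0) ≤
        ENNReal.ofReal (Real.exp (lf A t (μ + η + hh) M)) := by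
      rw [← g.Xi_eq (μ + η + hh) hM]
      exact ENNReal.le_tsum N
    calc _ ≤ ENNReal.ofReal (Real.exp (κ * (N:ℝ) ^ 2 - (η + hh) * N)) *
          ENNReal.ofReal (Real.exp (lf A t (μ + η + hh) M)) := by gcongr
      _ = ENNReal.ofReal (Real.exp (κ * (N:ℝ) ^ 2 - (η + hh) * N + lf A t (μ + η + hh) M)) := by
          rw [← ENNReal.ofReal_mul (Real.exp_nonneg _), ← Real.exp_add]
      _ ≤ ENNReal.ofReal (Real.exp D' * (Real.exp (-η)) ^ N) := by
          apply ENNReal.ofReal_le_ofReal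
          rw [← Real.exp_nat_mul, ← Real.exp_add]
          apply Real.exp_le_exp.2
          have h3 := h hh hh0
          have e2 : hh ^ 2 / (4 * κ) = κ * (N:ℝ) ^ 2 := by rw [hhh]; field_simp; ring
          rw [e2] at h3
          have e3 : hh * N = 2 * (κ * (N:ℝ) ^ 2) := by rw [hhh]; ring
          nlinarith
  unfold Xi X
  calc ∑' N, jj (volume.restrict (bx M)) N (bf (phi A t) μ κ)
      ≤ ∑' N : ℕ, ENNReal.ofReal (Real.exp D' * (Real.exp (-η)) ^ N) := ENNReal.tsum_le_tsum hterm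
    _ = ENNReal.ofReal (∑' N : ℕ, Real.exp D' * (Real.exp (-η)) ^ N) := by
        rw [ENNReal.ofReal_tsum_of_nonneg (fun n => by positivity)]
        exact (summable_geometric_of_lt_one (Real.exp_nonneg _) he1).mul_left _
    _ = _ := by
        rw [tsum_mul_left, tsum_geometric_of_lt_one (Real.exp_nonneg _) he1, Real.exp_add,
          Real.exp_log (inv_pos.2 (by linarith))]

theorem RN_ge_three (M : ℕ) : 3 * M ≤ RN M := by
  unfold RN
  have h1 : M < 2 ^ M := Nat.lt_two_pow_self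
  have h2 : 2 ^ (M + 6) = 64 * 2 ^ M := by ring
  omega

/-- quadratic growth beats the Gaussian weight only for large `s` -/
theorem large_h {A : ℝ} (hA : 0 < A) {t : ℕ → ℝ} (g : Good A t) {c : ℝ}
    (hc : c = A - 27 * ∑' k, t k) (hcpos : 0 < c) {μ h0 : ℝ} (hh0 : 0 < h0) :
    ∃ K0 : ℝ, 0 < K0 ∧ ∀ s : ℝ, 0 < s → s ≤ 1 / (54 * K0) →
      ∀ η : ℝ, 0 < η → η ≤ h0 / 2 → ∀ h : ℝ, h0 / 2 ≤ h →
      8 * P A t (μ + η + h) ≤ h ^ 2 / (54 * s) := by
  set C0 := |μ| + h0 + A / 2 with hC0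
  have hC0pos : 0 < C0 := by positivity
  refine ⟨(8 + 8 * C0 ^ 2 / c) * (4 / h0 ^ 2) + 8 / c, by positivity, ?_⟩
  set K0 := (8 + 8 * C0 ^ 2 / c) * (4 / h0 ^ 2) + 8 / c with hK0
  have hK0pos : 0 < K0 := by positivity
  intro s hs hsK'
  have hsK : K0 ≤ 1 / (54 * s) := by
    rw [le_div_iff₀ (by positivity)] at hsK' ⊢
    linarith
  intro η hη hηh h hh
  have h1 := P_quad g (by rw [← hc]; exact hcpos) (μ + η + h)
  rw [← hc] at h1
  have hhpos : 0 < h := by linarith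
  have h2 : (μ + η + h + A / 2) ^ 2 ≤ (C0 + h) ^ 2 := by
    apply sq_le_sq'
    · have := neg_abs_le μ
      rw [hC0]; linarith
    · have := le_abs_self μ
      rw [hC0]; linarith
  have h3 : (C0 + h) ^ 2 ≤ 2 * C0 ^ 2 + 2 * h ^ 2 := by nlinarith [sq_nonneg (C0 - h)]
  have h4 : (μ + η + h + A / 2) ^ 2 / (2 * c) ≤ C0 ^ 2 / c + h ^ 2 / c := by
    rw [div_le_iff₀ (by positivity)]
    have : (C0 ^ 2 / c + h ^ 2 / c) * (2 * c) = 2 * C0 ^ 2 + 2 * h ^ 2 := by field_simp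
    rw [this]; linarith
  have h5 : 1 ≤ 4 / h0 ^ 2 * h ^ 2 := by
    rw [div_mul_eq_mul_div, le_div_iff₀ (by positivity)]
    nlinarith
  have h6 : (8 + 8 * C0 ^ 2 / c) ≤ (8 + 8 * C0 ^ 2 / c) * (4 / h0 ^ 2 * h ^ 2) := by
    have : 0 ≤ 8 + 8 * C0 ^ 2 / c := by positivity
    nlinarith
  calc 8 * P A t (μ + η + h) ≤ 8 * (1 + (C0 ^ 2 / c + h ^ 2 / c)) := by linarith
    _ = (8 + 8 * C0 ^ 2 / c) + 8 / c * h ^ 2 := by ring
    _ ≤ (8 + 8 * C0 ^ 2 / c) * (4 / h0 ^ 2 * h ^ 2) + 8 / c * h ^ 2 := by linarith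
    _ = K0 * h ^ 2 := by rw [hK0]; ring
    _ ≤ 1 / (54 * s) * h ^ 2 := mul_le_mul_of_nonneg_right hsK (by positivity)
    _ = h ^ 2 / (54 * s) := by ring

/-- local bound from the derivative -/
theorem local_bound {A : ℝ} {t : ℕ → ℝ} {μ ρ : ℝ} (hd : HasDerivAt (P A t) ρ μ) {δ : ℝ} (hδ : 0 < δ) :
    ∃ h0 : ℝ, 0 < h0 ∧ ∀ h : ℝ, 0 ≤ h → h ≤ h0 → P A t (μ + h) ≤ P A t μ + (ρ + δ) * h := by
  have h1 := (hasDerivAt_iff_isLittleO_nhds_zero.1 hd)
  have h2 := (Asymptotics.isLittleO_iff.1 h1) hδ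
  obtain ⟨ε, hε, h3⟩ := Metric.eventually_nhds_iff.1 h2
  refine ⟨ε / 2, by positivity, ?_⟩
  intro h hh hle
  have h4 := h3 (y := h) (by rw [dist_zero_right, Real.norm_of_nonneg hh]; linarith)
  rw [Real.norm_eq_abs, Real.norm_of_nonneg hh] at h4
  have h5 := le_abs_self (P A t (μ + h) - P A t μ - h • ρ)
  simp only [smul_eq_mul] at h5
  simp only [smul_eq_mul] at h4
  linarith

/-- bound on the block functional exponent, uniformly in the shift `h` -/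
theorem all_h {A : ℝ} {t : ℕ → ℝ} (g : Good A t) {μ r s h0 η cM : ℝ} (hs : 0 < s)
    (hη : 0 < η) (hηh : η ≤ h0 / 2) (hcM1 : 1 ≤ cM) (hcM8 : cM ≤ 8)
    (hloc : ∀ h : ℝ, 0 ≤ h → h ≤ h0 → P A t (μ + h) ≤ P A t μ + r * h)
    (hlarge : ∀ h : ℝ, h0 / 2 ≤ h → 8 * P A t (μ + η + h) ≤ h ^ 2 / (54 * s)) :
    ∀ h : ℝ, 0 ≤ h → cM * P A t (μ + η + h) - h ^ 2 / (54 * s) ≤
      cM * (P A t μ + |r| * η) + 27 / 2 * s * cM ^ 2 * r ^ 2 := by
  have hPs0 : 0 ≤ P A t μ := P_nonneg g μ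
  have hBd0 : 0 ≤ cM * (P A t μ + |r| * η) + 27 / 2 * s * cM ^ 2 * r ^ 2 := by
    have h1 : 0 ≤ |r| := abs_nonneg _
    positivity
  intro h hh
  by_cases hcase : h ≤ h0 / 2
  · have h1 := hloc (η + h) (by linarith) (by linarith)
    rw [← add_assoc] at h1
    have h2 : cM * P A t (μ + η + h) ≤ cM * (P A t μ + r * (η + h)) :=
      mul_le_mul_of_nonneg_left h1 (by linarith)
    have h3 : cM * r * h - h ^ 2 / (54 * s) ≤ 27 / 2 * s * cM ^ 2 * r ^ 2 := by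
      have h4 : 0 ≤ (h - 27 * s * (cM * r)) ^ 2 / (54 * s) := by positivity
      have e : (h - 27 * s * (cM * r)) ^ 2 / (54 * s) =
        h ^ 2 / (54 * s) - cM * r * h + 27 / 2 * s * cM ^ 2 * r ^ 2 := by
        field_simp; ring
      linarith
    have h5 : cM * (r * η) ≤ cM * (|r| * η) := by
      apply mul_le_mul_of_nonneg_left _ (by linarith)
      exact mul_le_mul_of_nonneg_right (le_abs_self _) hη.le
    have h6 : cM * (P A t μ + r * (η + h)) = cM * P A t μ + cM * (r * η) + cM * r * h := by ring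
    have h7 : cM * (P A t μ + |r| * η) = cM * P A t μ + cM * (|r| * η) := by ring
    rw [h7]
    rw [h6] at h2
    linarith
  · push Not at hcase
    have h1 := hlarge h hcase.le
    have h2 : cM * P A t (μ + η + h) ≤ 8 * P A t (μ + η + h) :=
      mul_le_mul_of_nonneg_right hcM8 (P_nonneg g _)
    linarith

/-- finite `M` version of the main estimate -/
theorem main_M {A : ℝ} (hA : 0 < A) {t : ℕ → ℝ} (g : Good A t) {μ r s h0 η : ℝ} (hs : 0 < s)
    (hgap : 27 * (∑' k, t k + s) ≤ A / 2)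
    (hη : 0 < η) (hηh : η ≤ h0 / 2)
    (hloc : ∀ h : ℝ, 0 ≤ h → h ≤ h0 → P A t (μ + h) ≤ P A t μ + r * h)
    (hlarge : ∀ h : ℝ, h0 / 2 ≤ h → 8 * P A t (μ + η + h) ≤ h ^ 2 / (54 * s))
    {M : ℕ} (hM2 : 2 ≤ M) (hθ1 : 54 * eps t M / A ≤ 1)
    (gM : Good A (add1 t M s)) :
    P A (add1 t M s) μ ≤ (54 * eps t M / A) * Real.exp (μ + A / 2) +
      ((((M:ℝ) + 2) / M) ^ 3 * (P A t μ + |r| * η) + 27 / 2 * s * ((((M:ℝ) + 2) / M) ^ 3) ^ 2 * r ^ 2
        + Real.log (1 - Real.exp (-η))⁻¹ / (M:ℝ) ^ 3) := by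
  set ell := Real.log (1 - Real.exp (-η))⁻¹ with hell
  have he1 : Real.exp (-η) < 1 := by rw [Real.exp_lt_one_iff]; linarith
  have hell0 : 0 ≤ ell := by
    apply Real.log_nonneg
    apply (one_le_inv₀ (by linarith)).2
    have := Real.exp_nonneg (-η)
    linarith
  have hM : 0 < M := by omega
  have hMp : (0:ℝ) < M := by exact_mod_cast hM
  have hM2r : (2:ℝ) ≤ M := by exact_mod_cast hM2
  set cM := (((M:ℝ) + 2) / M) ^ 3 with hcM
  have hcM1 : 1 ≤ cM := by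
    rw [hcM]
    apply one_le_pow₀
    rw [le_div_iff₀ hMp]; linarith
  have hcM8 : cM ≤ 8 := by
    rw [hcM]
    have : ((M:ℝ) + 2) / M ≤ 2 := by rw [div_le_iff₀ hMp]; linarith
    calc (((M:ℝ) + 2) / M) ^ 3 ≤ 2 ^ 3 := pow_le_pow_left₀ (by positivity) this 3
      _ = 8 := by norm_num
  have heps0 : 0 ≤ eps t M := by
    apply tsum_nonneg
    intro k
    apply mul_nonneg (g.t0 k)
    apply le_min zero_le_one
    positivity
  have hPs0 : 0 ≤ P A t μ := P_nonneg g μ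
  have hall := all_h g hs hη hηh hcM1 hcM8 hloc hlarge
  set Bd := cM * (P A t μ + |r| * η) + 27 / 2 * s * cM ^ 2 * r ^ 2 with hBd
  have hBd0 : 0 ≤ Bd := by
    rw [hBd]
    have h1 : 0 ≤ |r| := abs_nonneg _
    positivity
  set κ := 27 * s / (2 * (M:ℝ) ^ 3) with hκ
  have hκpos : 0 < κ := by positivity
  have hXi := Xi_block g μ hκpos hη (M := (M:ℝ)) hMp.le (D' := (M:ℝ) ^ 3 * Bd) (by
    intro h hh
    have h1 := le_P g (μ + η + h) hMp
    have h2 := hall h hh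
    have e1 : h ^ 2 / (4 * κ) = (M:ℝ) ^ 3 * (h ^ 2 / (54 * s)) := by
      rw [hκ]; field_simp; ring
    have e2 : ((M:ℝ) + 2) ^ 3 = (M:ℝ) ^ 3 * cM := by
      rw [hcM]; field_simp
    rw [e1]
    calc lf A t (μ + η + h) M - (M:ℝ) ^ 3 * (h ^ 2 / (54 * s))
        ≤ ((M:ℝ) + 2) ^ 3 * P A t (μ + η + h) - (M:ℝ) ^ 3 * (h ^ 2 / (54 * s)) := by linarith
      _ = (M:ℝ) ^ 3 * (cM * P A t (μ + η + h) - h ^ 2 / (54 * s)) := by rw [e2]; ring
      _ ≤ (M:ℝ) ^ 3 * Bd := mul_le_mul_of_nonneg_left h2 (by positivity))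
  have hθ : 27 * eps t M ≤ (54 * eps t M / A) * (A - 27 * ∑' i, add1 t M s i) := by
    rw [add1_tsum g.ts]
    have h1 : A / 2 ≤ A - 27 * (∑' i, t i + s) := by linarith
    calc 27 * eps t M = (54 * eps t M / A) * (A / 2) := by field_simp; ring
      _ ≤ _ := mul_le_mul_of_nonneg_left h1 (by positivity)
  have hθ0 : 0 ≤ 54 * eps t M / A := by positivity
  have h6 := LP_limit g M hs.le gM hM (RN_ge_three M) hθ0 hθ1 hθ μ hκ hXi
  refine h6.trans ?_
  have h8 : ((M:ℝ) ^ 3 * Bd + ell) / (M:ℝ) ^ 3 = Bd + ell / (M:ℝ) ^ 3 := by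
    field_simp
  rw [← hell, h8]
  have h9 : 0 ≤ Bd + ell / (M:ℝ) ^ 3 := by positivity
  have h10 : (1 - 54 * eps t M / A) * (Bd + ell / (M:ℝ) ^ 3) ≤ 1 * (Bd + ell / (M:ℝ) ^ 3) :=
    mul_le_mul_of_nonneg_right (by linarith) h9
  linarith

theorem main_eta {A : ℝ} (hA : 0 < A) {t : ℕ → ℝ} (g : Good A t) {μ r s h0 η : ℝ} (hs : 0 < s)
    (hgap : 27 * (∑' k, t k + s) ≤ A / 2)
    (hη : 0 < η) (hηh : η ≤ h0 / 2)
    (hloc : ∀ h : ℝ, 0 ≤ h → h ≤ h0 → P A t (μ + h) ≤ P A t μ + r * h)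
    (hlarge : ∀ h : ℝ, h0 / 2 ≤ h → 8 * P A t (μ + η + h) ≤ h ^ 2 / (54 * s))
    (gM : ∀ M, Good A (add1 t M s)) {b : ℝ}
    (hb : ∀ k : ℕ, P A t μ + b * s ≤ P A (add1 t k s) μ) :
    P A t μ + b * s ≤ (P A t μ + |r| * η) + 27 / 2 * s * r ^ 2 := by
  set Ps := P A t μ with hPs
  set cM : ℕ → ℝ := fun M => (((M:ℝ) + 2) / M) ^ 3 with hcM
  set ell := Real.log (1 - Real.exp (-η))⁻¹ with hell
  have hcMlim : Tendsto cM atTop (𝓝 1) := by
    have h4 : Tendsto (fun n : ℕ => 1 + 2 / (n:ℝ)) atTop (𝓝 (1 + 0)) :=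
      tendsto_const_nhds.add (tendsto_const_nhds.div_atTop tendsto_natCast_atTop_atTop)
    have h5 := h4.pow 3
    rw [add_zero, one_pow] at h5
    refine h5.congr' ?_
    filter_upwards [eventually_gt_atTop 0] with n hn
    have : (0:ℝ) < n := by exact_mod_cast hn
    simp only [hcM]
    congr 1
    field_simp
  have hepslim := eps_tendsto g.t0 g.ts
  have hM3 : Tendsto (fun M : ℕ => ell / (M:ℝ) ^ 3) atTop (𝓝 0) :=
    tendsto_const_nhds.div_atTop ((tendsto_pow_atTop (by norm_num)).comp tendsto_natCast_atTop_atTop)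
  have hRlim : Tendsto (fun M : ℕ => (54 * eps t M / A) * Real.exp (μ + A / 2) +
      (cM M * (Ps + |r| * η) + 27 / 2 * s * (cM M) ^ 2 * r ^ 2 + ell / (M:ℝ) ^ 3)) atTop
      (𝓝 ((54 * 0 / A) * Real.exp (μ + A / 2) +
      ((1 * (Ps + |r| * η) + 27 / 2 * s * 1 ^ 2 * r ^ 2) + 0))) := by
    apply Tendsto.add
    · exact ((hepslim.const_mul 54).div_const A).mul_const _
    · apply Tendsto.add _ hM3
      apply Tendsto.add
      · exact hcMlim.mul_const _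
      · exact ((hcMlim.pow 2).const_mul (27 / 2 * s)).mul_const _
  have hfin : (54 * 0 / A) * Real.exp (μ + A / 2) +
      ((1 * (Ps + |r| * η) + 27 / 2 * s * 1 ^ 2 * r ^ 2) + 0) =
      (Ps + |r| * η) + 27 / 2 * s * r ^ 2 := by ring
  rw [hfin] at hRlim
  apply ge_of_tendsto hRlim
  have hepsA : ∀ᶠ M : ℕ in atTop, 54 * eps t M / A ≤ 1 := by
    have h5 : Tendsto (fun M : ℕ => 54 * eps t M / A) atTop (𝓝 (54 * 0 / A)) :=
      (hepslim.const_mul 54).div_const A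
    have h6 : (54 * 0 / A : ℝ) < 1 := by rw [mul_zero, zero_div]; norm_num
    filter_upwards [h5.eventually (gt_mem_nhds h6)] with M hM
    exact hM.le
  filter_upwards [hepsA, eventually_ge_atTop 2] with M hθ1 hM2
  exact (hb M).trans (main_M hA g hs hgap hη hηh hloc hlarge hM2 hθ1 (gM M))

/-- Key estimate: where the pressure is differentiable in the chemical potential, adding a very long
range attraction raises the pressure by at most the mean-field amount. -/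
theorem deriv_bound {A : ℝ} (hA : 0 < A) {t : ℕ → ℝ} (g : Good A t) {s1 : ℝ} (hs1 : 0 < s1)
    (hgap : 27 * (∑' k, t k + s1) ≤ A / 2) {μ ρ : ℝ} (hd : HasDerivAt (P A t) ρ μ)
    {b : ℝ} (hb : ∀ k : ℕ, ∀ s : ℝ, 0 < s → s ≤ s1 → P A t μ + b * s ≤ P A (add1 t k s) μ)
    {δ : ℝ} (hδ : 0 < δ) : b ≤ 27 / 2 * (ρ + δ) ^ 2 := by
  have hcpos : 0 < A - 27 * ∑' k, t k := by linarith
  obtain ⟨h0, hh0, hloc⟩ := local_bound hd hδ
  obtain ⟨K0, hK0pos, hlarge⟩ := large_h (μ := μ) hA g rfl hcpos hh0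
  set s := min s1 (1 / (54 * K0)) with hsdef
  have hs : 0 < s := lt_min hs1 (by positivity)
  have hss1 : s ≤ s1 := min_le_left _ _
  have hτs : ∀ k, Good A (add1 t k s) := by
    intro k
    refine ⟨hA.le, ?_, add1_summable g.ts k s, ?_⟩
    · intro i
      unfold add1
      have := g.t0 i
      split_ifs <;> linarith
    · rw [add1_tsum g.ts]; linarith
  have hfinal : b * s ≤ 27 / 2 * s * (ρ + δ) ^ 2 := by
    apply le_of_forall_pos_le_add
    intro ε hε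
    set η := min (h0 / 2) (ε / (|ρ + δ| + 1)) with hη
    have hab : 0 < |ρ + δ| + 1 := by positivity
    have hηpos : 0 < η := lt_min (by positivity) (by positivity)
    have h1 := main_eta hA g hs (by linarith) hηpos (min_le_left _ _) hloc
      (hlarge s hs (min_le_right _ _) η hηpos (min_le_left _ _)) hτs
      (fun k => hb k s hs hss1)
    have h2 : |ρ + δ| * η ≤ ε := by
      have h3 : η ≤ ε / (|ρ + δ| + 1) := min_le_right _ _
      rw [le_div_iff₀ hab] at h3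
      have : |ρ + δ| * η ≤ η * (|ρ + δ| + 1) := by nlinarith
      linarith
    linarith
  have : b * s ≤ (27 / 2 * (ρ + δ) ^ 2) * s := by linarith
  exact le_of_mul_le_mul_right this hs

end Vale.Agent.H16
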