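import Vale.Agent.H16.Energy
import Vale.Agent.H16.Count

namespace Vale.Agent.H16

open MeasureTheory Finset Filter
open scoped ENNReal NNReal Topology

/-- range of the `k`-th attractive term -/
def RN (k : ℕ) : ℕ := 2 ^ (k + 6)

/-- `k`-th attractive term (before multiplication by its weight) -/
noncomputable def w (k : ℕ) (r : ℝ) : ℝ := if r ≤ (RN k : ℝ) then ((RN k : ℝ) ^ 3)⁻¹ else 0

/-- total attraction with weights `t` -/
noncomputable def psi (t : ℕ → ℝ) (r : ℝ) : ℝ := ∑' k, t k * w k r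

/-- repulsive core -/
noncomputable def core (A : ℝ) (r : ℝ) : ℝ := if r < 2 then A else 0

/-- the pair potential -/
noncomputable def phi (A : ℝ) (t : ℕ → ℝ) (r : ℝ) : ℝ := core A r - psi t r

theorem RN_ge (k : ℕ) : (64 : ℝ) ≤ RN k := by
  have : 64 ≤ RN k := by
    unfold RN
    calc 64 = 2 ^ 6 := by norm_num
      _ ≤ 2 ^ (k + 6) := Nat.pow_le_pow_right (by norm_num) (by omega)
  exact_mod_cast this

theorem RN_pos (k : ℕ) : (0 : ℝ) < RN k := lt_of_lt_of_le (by norm_num) (RN_ge k)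

theorem w_nonneg (k : ℕ) (r : ℝ) : 0 ≤ w k r := by
  unfold w; split_ifs
  · have := RN_pos k; positivity
  · exact le_rfl

theorem w_le_one (k : ℕ) (r : ℝ) : w k r ≤ 1 := by
  unfold w; split_ifs
  · apply inv_le_one_of_one_le₀
    have := RN_ge k
    exact one_le_pow₀ (by linarith)
  · norm_num

theorem w_measurable (k : ℕ) : Measurable (w k) := by
  unfold w
  exact Measurable.ite measurableSet_Iic measurable_const measurable_const

theorem summable_tw {t : ℕ → ℝ} (ht0 : ∀ k, 0 ≤ t k) (hts : Summable t) (r : ℝ) :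
    Summable (fun k => t k * w k r) :=
  Summable.of_nonneg_of_le (fun k => mul_nonneg (ht0 k) (w_nonneg k r))
    (fun k => mul_le_of_le_one_right (ht0 k) (w_le_one k r)) hts

theorem psi_nonneg {t : ℕ → ℝ} (ht0 : ∀ k, 0 ≤ t k) (r : ℝ) : 0 ≤ psi t r :=
  tsum_nonneg fun k => mul_nonneg (ht0 k) (w_nonneg k r)

theorem psi_le {t : ℕ → ℝ} (ht0 : ∀ k, 0 ≤ t k) (hts : Summable t) (r : ℝ) :
    psi t r ≤ ∑' k, t k :=
  (summable_tw ht0 hts r).tsum_le_tsum (fun k => mul_le_of_le_one_right (ht0 k) (w_le_one k r)) hts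

theorem psi_measurable {t : ℕ → ℝ} (ht0 : ∀ k, 0 ≤ t k) (hts : Summable t) :
    Measurable (psi t) := by
  apply measurable_of_tendsto_metrizable (f := fun n r => ∑ k ∈ Finset.range n, t k * w k r)
  · intro n
    exact Finset.measurable_sum _ (fun k _ => (w_measurable k).const_mul _)
  · rw [tendsto_pi_nhds]
    intro r
    exact (summable_tw ht0 hts r).hasSum.tendsto_sum_nat

theorem core_measurable (A : ℝ) : Measurable (core A) := by
  unfold core
  exact Measurable.ite measurableSet_Iio measurable_const measurable_const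

theorem phi_measurable (A : ℝ) {t : ℕ → ℝ} (ht0 : ∀ k, 0 ≤ t k) (hts : Summable t) :
    Measurable (phi A t) := (core_measurable A).sub (psi_measurable ht0 hts)

/-! ### cells and blocks -/

/-- index of the block of side `M` with offset `o` containing a point -/
noncomputable def blk (M : ℕ) (o : Fin 3 → ℕ) (y : E) : Fin 3 → ℤ :=
  fun m => (⌊y m⌋ + (o m : ℤ)) / (M : ℤ)

/-- number of ordered pairs in the same block -/
noncomputable def SB (M : ℕ) (o : Fin 3 → ℕ) {N : ℕ} (x : Fin N → E) : ℝ :=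
  ∑ i, ∑ j, if blk M o (x i) = blk M o (x j) then (1:ℝ) else 0

theorem SB_nonneg (M : ℕ) (o : Fin 3 → ℕ) {N : ℕ} (x : Fin N → E) : 0 ≤ SB M o x :=
  Finset.sum_nonneg fun i _ => Finset.sum_nonneg fun j _ => by split_ifs <;> norm_num

theorem coord_le (x y : E) (m : Fin 3) : |x m - y m| ≤ dist x y := by
  have := PiLp.norm_apply_le (x - y) m
  rw [dist_eq_norm]
  simpa using this

theorem floor_diff {a b : ℝ} {R : ℕ} (h : |a - b| ≤ R) : |⌊a⌋ - ⌊b⌋| ≤ (R : ℤ) := by
  rw [abs_le] at h ⊢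
  constructor
  · have : ⌊b⌋ ≤ ⌊a + (R:ℤ)⌋ := Int.floor_le_floor (by push_cast; linarith)
    rw [Int.floor_add_intCast] at this
    omega
  · have : ⌊a⌋ ≤ ⌊b + (R:ℤ)⌋ := Int.floor_le_floor (by push_cast; linarith)
    rw [Int.floor_add_intCast] at this
    omega

theorem blk_near {M : ℕ} (hM : 0 < M) (o : Fin 3 → ℕ) {x y : E} {R : ℕ} (h : dist x y ≤ R) (m : Fin 3) :
    |blk M o x m - blk M o y m| ≤ ((R / M + 1 : ℕ) : ℤ) := by
  have h1 : |⌊x m⌋ - ⌊y m⌋| ≤ (R:ℤ) := floor_diff ((coord_le x y m).trans h)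
  unfold blk
  have hM' : (0:ℤ) < M := by exact_mod_cast hM
  have key : ∀ a b : ℤ, a ≤ b + R → a / (M:ℤ) ≤ b / (M:ℤ) + ((R / M + 1 : ℕ) : ℤ) := by
    intro a b hab
    have h2 : a / (M:ℤ) < b / (M:ℤ) + ((R / M + 1 : ℕ) : ℤ) + 1 := by
      apply Int.ediv_lt_of_lt_mul hM'
      have e1 : b < (b / (M:ℤ) + 1) * M := Int.lt_ediv_add_one_mul_self b hM'
      have e2 : (R:ℤ) < ((R / M : ℕ) + 1) * M := by
        have := Nat.lt_succ_iff.2 (le_refl (R / M))
        have h3 : R < (R / M + 1) * M := by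
          have := Nat.lt_div_mul_add hM (a := R)
          linarith [Nat.add_mul (R/M) 1 M]
        exact_mod_cast h3
      have e3 : (((R / M + 1 : ℕ) : ℤ)) = ((R / M : ℕ) : ℤ) + 1 := by push_cast; ring
      rw [e3]
      have e4 : (b / (M:ℤ) + (((R / M : ℕ) : ℤ) + 1) + 1) * (M:ℤ) =
        (b / (M:ℤ) + 1) * M + (((R / M : ℕ) : ℤ) + 1) * M := by ring
      rw [e4]
      linarith
    omega
  rw [abs_le] at h1 ⊢
  constructor
  · have := key (⌊y m⌋ + (o m : ℤ)) (⌊x m⌋ + (o m : ℤ)) (by omega)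
    omega
  · have := key (⌊x m⌋ + (o m : ℤ)) (⌊y m⌋ + (o m : ℤ)) (by omega)
    omega

theorem W_w_le (k : ℕ) {M : ℕ} (hM : 0 < M) (h3 : 3 * M ≤ RN k) (o : Fin 3 → ℕ)
    {N : ℕ} (x : Fin N → E) :
    ∑ i, ∑ j, w k (dist (x i) (x j)) ≤ 27 / (M:ℝ) ^ 3 * SB M o x := by
  set R := RN k with hR
  have hRp : (0:ℝ) < R := RN_pos k
  have hMp : (0:ℝ) < M := by exact_mod_cast hM
  set K := R / M + 1 with hK
  have h1 : ∑ i, ∑ j, w k (dist (x i) (x j)) ≤
      ((R:ℝ) ^ 3)⁻¹ * ∑ i, ∑ j, (if (∀ m, |blk M o (x i) m - blk M o (x j) m| ≤ (K:ℤ)) then (1:ℝ) else 0) := by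
    rw [Finset.mul_sum]
    apply Finset.sum_le_sum; intro i _
    rw [Finset.mul_sum]
    apply Finset.sum_le_sum; intro j _
    unfold w
    split_ifs with h1 h2 h2
    · simp
      rfl
    · exact absurd (fun m => blk_near hM o h1 m) h2
    · positivity
    · simp
  have h2 := near_count_le K (fun i => blk M o (x i))
  have h3' : (2 * (K:ℝ) + 1) ≤ 3 * R / M := by
    have : (K:ℝ) ≤ R / M + 1 := by
      rw [hK]; push_cast
      have := Nat.cast_div_le (α := ℝ) (m := R) (n := M)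
      linarith
    have h4 : (3:ℝ) * M ≤ R := by exact_mod_cast h3
    have h5 : (3:ℝ) ≤ R / M := by
      rw [le_div_iff₀ hMp]; linarith
    have h6 : 3 * (R:ℝ) / M = 2 * (R / M) + R / M := by ring
    rw [h6]; linarith
  calc ∑ i, ∑ j, w k (dist (x i) (x j)) ≤ _ := h1
    _ ≤ ((R:ℝ) ^ 3)⁻¹ * ((2 * K + 1) ^ 3 * SB M o x) := by
        apply mul_le_mul_of_nonneg_left h2 (by positivity)
    _ ≤ ((R:ℝ) ^ 3)⁻¹ * ((3 * R / M) ^ 3 * SB M o x) := by
        have := SB_nonneg M o x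
        gcongr
    _ = _ := by field_simp; ring

/-- the unit-cell version -/
noncomputable def S2 {N : ℕ} (x : Fin N → E) : ℝ := SB 1 0 x

theorem W_w_le' (k : ℕ) {N : ℕ} (x : Fin N → E) :
    ∑ i, ∑ j, w k (dist (x i) (x j)) ≤ 27 * S2 x := by
  have h : 3 * 1 ≤ RN k := by
    have := RN_ge k
    have h' : (64:ℕ) ≤ RN k := by exact_mod_cast this
    omega
  have := W_w_le k one_pos h 0 x
  simpa [S2] using this

theorem psi_sum {t : ℕ → ℝ} (ht0 : ∀ k, 0 ≤ t k) (hts : Summable t) {N : ℕ}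
    (c : Fin N → Fin N → ℝ) (x : Fin N → E) :
    HasSum (fun k => t k * ∑ i, ∑ j, c i j * w k (dist (x i) (x j)))
      (∑ i, ∑ j, c i j * psi t (dist (x i) (x j))) := by
  have h : ∀ i j, HasSum (fun k => t k * (c i j * w k (dist (x i) (x j))))
      (c i j * psi t (dist (x i) (x j))) := by
    intro i j
    have := ((summable_tw ht0 hts (dist (x i) (x j))).hasSum).mul_left (c i j)
    have e : (fun k => t k * (c i j * w k (dist (x i) (x j)))) =
        fun k => c i j * (t k * w k (dist (x i) (x j))) := by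
      funext k; ring
    rw [e]
    exact this
  have h2 := hasSum_sum (s := univ) (fun i _ => hasSum_sum (s := univ) (fun j _ => h i j))
  convert h2 using 2 with k
  rw [Finset.mul_sum]
  apply Finset.sum_congr rfl
  intro i _
  rw [Finset.mul_sum]

theorem W_psi_le {t : ℕ → ℝ} (ht0 : ∀ k, 0 ≤ t k) (hts : Summable t) {N : ℕ} (x : Fin N → E) :
    ∑ i, ∑ j, psi t (dist (x i) (x j)) ≤ 27 * (∑' k, t k) * S2 x := by
  have h := psi_sum ht0 hts (fun _ _ => 1) x
  simp only [one_mul] at h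
  have h2 : HasSum (fun k => t k * (27 * S2 x)) ((∑' k, t k) * (27 * S2 x)) :=
    hts.hasSum.mul_right _
  have := hasSum_le (fun k => mul_le_mul_of_nonneg_left (W_w_le' k x) (ht0 k)) h h2
  linarith

theorem dist_lt_two {x y : E} (h : blk 1 0 x = blk 1 0 y) : dist x y < 2 := by
  have h1 : ∀ m, |x m - y m| < 1 := by
    intro m
    have := congrFun h m
    simp only [blk, Pi.zero_apply, Nat.cast_zero, add_zero, Nat.cast_one, Int.ediv_one] at this
    exact Int.abs_sub_lt_one_of_floor_eq_floor this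
  rw [EuclideanSpace.dist_eq]
  rw [show (2:ℝ) = Real.sqrt 4 by rw [show (4:ℝ) = 2^2 by norm_num]; simp]
  apply Real.sqrt_lt_sqrt (by positivity)
  rw [Fin.sum_univ_three]
  have h2 : ∀ m, dist (x m) (y m) ^ 2 < 1 := by
    intro m
    rw [Real.dist_eq]
    have := h1 m
    have h0 := abs_nonneg (x m - y m)
    nlinarith
  linarith [h2 0, h2 1, h2 2]

theorem W_core_ge {A : ℝ} (hA : 0 ≤ A) {N : ℕ} (x : Fin N → E) :
    A * S2 x ≤ ∑ i, ∑ j, core A (dist (x i) (x j)) := by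
  unfold S2 SB
  rw [Finset.mul_sum]
  apply Finset.sum_le_sum; intro i _
  rw [Finset.mul_sum]
  apply Finset.sum_le_sum; intro j _
  unfold core
  split_ifs with h1 h2 h2
  · simp
  · exact absurd (dist_lt_two h1) h2
  · simpa using hA
  · simp

theorem core_nonneg {A : ℝ} (hA : 0 ≤ A) (r : ℝ) : 0 ≤ core A r := by
  unfold core; split_ifs <;> linarith

/-- superstability -/
theorem W_phi_ge {A : ℝ} (hA : 0 ≤ A) {t : ℕ → ℝ} (ht0 : ∀ k, 0 ≤ t k) (hts : Summable t)
    {N : ℕ} (x : Fin N → E) :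
    (A - 27 * ∑' k, t k) * S2 x ≤ ∑ i, ∑ j, phi A t (dist (x i) (x j)) := by
  have h1 := W_core_ge hA x
  have h2 := W_psi_le ht0 hts x
  have h3 : ∑ i, ∑ j, phi A t (dist (x i) (x j)) =
      (∑ i, ∑ j, core A (dist (x i) (x j))) - ∑ i, ∑ j, psi t (dist (x i) (x j)) := by
    simp only [phi, Finset.sum_sub_distrib]
  rw [h3]
  linarith

end Vale.Agent.H16
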