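import Vale.Agent.H16.Potential

namespace Vale.Agent.H16

open MeasureTheory Finset Filter
open scoped ENNReal NNReal Topology

/-- the box `[0,L]^3` -/
def bx (L : ℝ) : Set E := {y | ∀ m, 0 ≤ y m ∧ y m ≤ L}

theorem coord_measurable (m : Fin 3) : Measurable (fun y : E => y m) := by fun_prop

theorem bx_measurable (L : ℝ) : MeasurableSet (bx L) := by
  unfold bx
  have : {y : E | ∀ m, 0 ≤ y m ∧ y m ≤ L} = ⋂ m, {y : E | 0 ≤ y m ∧ y m ≤ L} := by
    ext y; simp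
  rw [this]
  apply MeasurableSet.iInter
  intro m
  exact (measurableSet_le measurable_const (coord_measurable m)).inter
    (measurableSet_le (coord_measurable m) measurable_const)

theorem volume_bx {L : ℝ} (hL : 0 ≤ L) : volume (bx L) = ENNReal.ofReal (L ^ 3) := by
  have h := (EuclideanSpace.volume_preserving_symm_measurableEquiv_toLp (Fin 3))
  have e : bx L = (MeasurableEquiv.toLp 2 (Fin 3 → ℝ)).symm ⁻¹'
      (Set.Icc (fun _ => (0:ℝ)) (fun _ => L)) := by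
    ext y
    simp [bx, Pi.le_def, forall_and]
  rw [e, h.measure_preimage measurableSet_Icc.nullMeasurableSet, Real.volume_Icc_pi]
  simp only [sub_zero, Finset.prod_const, Finset.card_univ, Fintype.card_fin]
  rw [ENNReal.ofReal_pow hL]

/-- finite-volume grand canonical partition function (with an extra term `κ n²`) -/
noncomputable def Xi (A : ℝ) (t : ℕ → ℝ) (μ κ L : ℝ) : ℝ≥0∞ :=
  X (volume.restrict (bx L)) (bf (phi A t) μ κ)

theorem prod_bf {ι : Type*} [DecidableEq ι] (f : ℝ → ℝ) (μ κ : ℝ) (lab : E → ι) (s : Finset ι) {N : ℕ}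
    (x : Fin N → E) (h : ∀ i, lab (x i) ∈ s) :
    ∏ v ∈ s, bf f μ κ (flt (lab ⁻¹' {v}) (List.ofFn x)) =
      ENNReal.ofReal (Real.exp (μ * N + κ * (∑ i, ∑ j, if lab (x i) = lab (x j) then (1:ℝ) else 0)
        - ((∑ i, ∑ j, if lab (x i) = lab (x j) then f (dist (x i) (x j)) else 0) - N * f 0) / 2)) := by
  unfold bf
  rw [← ENNReal.ofReal_prod_of_nonneg (fun _ _ => Real.exp_nonneg _), ← Real.exp_sum]
  congr 2
  have h1 : ∑ v ∈ s, ((flt (lab ⁻¹' {v}) (List.ofFn x)).length : ℝ) = N := by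
    simp only [len_flt, Set.mem_preimage, Set.mem_singleton_iff]
    rw [Finset.sum_comm]
    have : ∀ i : Fin N, (∑ v ∈ s, if lab (x i) = v then (1:ℝ) else 0) = 1 := by
      intro i
      rw [Finset.sum_ite_eq]
      simp [h i]
    simp [this]
  have h2 : ∑ v ∈ s, ((flt (lab ⁻¹' {v}) (List.ofFn x)).length : ℝ) ^ 2 =
      ∑ i, ∑ j, if lab (x i) = lab (x j) then (1:ℝ) else 0 := by
    rw [pair_count_eq s (fun i => lab (x i)) (fun i => lab (x i)) h]
    apply Finset.sum_congr rfl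
    intro v _
    rw [len_flt, sq]
    simp only [Set.mem_preimage, Set.mem_singleton_iff]
  have h3 : ∑ v ∈ s, W f (flt (lab ⁻¹' {v}) (List.ofFn x)) =
      ∑ i, ∑ j, if lab (x i) = lab (x j) then f (dist (x i) (x j)) else 0 := by
    simp only [W_flt, Set.mem_preimage, Set.mem_singleton_iff]
    rw [Finset.sum_comm]
    apply Finset.sum_congr rfl
    intro i _
    rw [Finset.sum_comm]
    apply Finset.sum_congr rfl
    intro j _
    rw [Finset.sum_eq_single (lab (x i))]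
    · by_cases hh : lab (x i) = lab (x j)
      · simp [hh]
      · have hh' : ¬ lab (x j) = lab (x i) := fun e => hh e.symm
        simp [hh, hh']
    · intro v _ hv
      have : ¬ lab (x i) = v := fun e => hv e.symm
      simp [this]
    · intro hn; exact absurd (h i) hn
  rw [Finset.sum_sub_distrib, Finset.sum_add_distrib, ← Finset.mul_sum, ← Finset.mul_sum,
    ← Finset.sum_div, Finset.sum_sub_distrib, ← Finset.sum_mul, h1, h2, h3]

/-- pointwise stability bound -/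
theorem bf_le_pow {A : ℝ} (hA : 0 ≤ A) {t : ℕ → ℝ} (ht0 : ∀ k, 0 ≤ t k) (hts : Summable t)
    (hAt : 27 * ∑' k, t k ≤ A) (μ : ℝ) {N : ℕ} (x : Fin N → E) :
    bf (phi A t) μ 0 (List.ofFn x) ≤ (ENNReal.ofReal (Real.exp (μ + A / 2))) ^ (List.ofFn x).length := by
  unfold bf
  rw [← ENNReal.ofReal_pow (Real.exp_nonneg _), ← Real.exp_nat_mul]
  apply ENNReal.ofReal_le_ofReal
  apply Real.exp_le_exp.2
  rw [W_ofFn, List.length_ofFn]
  have h1 := W_phi_ge hA ht0 hts x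
  have h2 : 0 ≤ (A - 27 * ∑' k, t k) * S2 x := mul_nonneg (by linarith) (SB_nonneg _ _ _)
  have h3 : phi A t 0 ≤ A := by
    have := psi_nonneg ht0 0
    simp only [phi, core]
    norm_num
    exact this
  have h4 : (N:ℝ) * phi A t 0 ≤ N * A := mul_le_mul_of_nonneg_left h3 (by positivity)
  nlinarith

theorem Xi_le {A : ℝ} (hA : 0 ≤ A) {t : ℕ → ℝ} (ht0 : ∀ k, 0 ≤ t k) (hts : Summable t)
    (hAt : 27 * ∑' k, t k ≤ A) (μ : ℝ) {L : ℝ} (hL : 0 ≤ L) :
    Xi A t μ 0 L ≤ ENNReal.ofReal (Real.exp (Real.exp (μ + A / 2) * L ^ 3)) := by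
  unfold Xi
  rw [← X_exp (volume.restrict (bx L)) (Real.exp_nonneg _) (by positivity : 0 ≤ L ^ 3)
    (by rw [Measure.restrict_apply_univ, volume_bx hL])]
  apply X_mono_on _ (bx_measurable L)
  intro N x _
  exact bf_le_pow hA ht0 hts hAt μ x

theorem one_le_Xi (A : ℝ) (t : ℕ → ℝ) (μ κ L : ℝ) : 1 ≤ Xi A t μ κ L :=
  one_le_X _ _ (bf_nil _ _ _)

/-- logarithm of the partition function -/
noncomputable def lf (A : ℝ) (t : ℕ → ℝ) (μ L : ℝ) : ℝ := Real.log (Xi A t μ 0 L).toReal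

/-- hypotheses on the parameters -/
structure Good (A : ℝ) (t : ℕ → ℝ) : Prop where
  A0 : 0 ≤ A
  t0 : ∀ k, 0 ≤ t k
  ts : Summable t
  At : 27 * ∑' k, t k ≤ A

theorem Good.Xi_ne_top {A : ℝ} {t : ℕ → ℝ} (g : Good A t) (μ : ℝ) {L : ℝ} (hL : 0 ≤ L) :
    Xi A t μ 0 L ≠ ⊤ :=
  ne_top_of_le_ne_top ENNReal.ofReal_ne_top (Xi_le g.A0 g.t0 g.ts g.At μ hL)

theorem Good.Xi_eq {A : ℝ} {t : ℕ → ℝ} (g : Good A t) (μ : ℝ) {L : ℝ} (hL : 0 ≤ L) :
    Xi A t μ 0 L = ENNReal.ofReal (Real.exp (lf A t μ L)) := by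
  unfold lf
  have h1 : 0 < (Xi A t μ 0 L).toReal :=
    ENNReal.toReal_pos (fun h => by have := one_le_Xi A t μ 0 L; rw [h] at this; simp at this)
      (g.Xi_ne_top μ hL)
  rw [Real.exp_log h1, ENNReal.ofReal_toReal (g.Xi_ne_top μ hL)]

theorem Good.le_lf {A : ℝ} {t : ℕ → ℝ} (g : Good A t) (μ : ℝ) {L : ℝ} (hL : 0 ≤ L) {a : ℝ}
    (h : ENNReal.ofReal (Real.exp a) ≤ Xi A t μ 0 L) : a ≤ lf A t μ L := by
  rw [g.Xi_eq μ hL] at h
  exact Real.exp_le_exp.1 ((ENNReal.ofReal_le_ofReal_iff (Real.exp_nonneg _)).1 h)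

theorem Good.lf_le {A : ℝ} {t : ℕ → ℝ} (g : Good A t) (μ : ℝ) {L : ℝ} (hL : 0 ≤ L) {a : ℝ}
    (h : Xi A t μ 0 L ≤ ENNReal.ofReal (Real.exp a)) : lf A t μ L ≤ a := by
  rw [g.Xi_eq μ hL] at h
  exact Real.exp_le_exp.1 ((ENNReal.ofReal_le_ofReal_iff (Real.exp_nonneg _)).1 h)

theorem Good.lf_nonneg {A : ℝ} {t : ℕ → ℝ} (g : Good A t) (μ : ℝ) {L : ℝ} (hL : 0 ≤ L) :
    0 ≤ lf A t μ L := by
  apply g.le_lf μ hL
  simpa using one_le_Xi A t μ 0 L

theorem Good.lf_le_exp {A : ℝ} {t : ℕ → ℝ} (g : Good A t) (μ : ℝ) {L : ℝ} (hL : 0 ≤ L) :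
    lf A t μ L ≤ Real.exp (μ + A / 2) * L ^ 3 :=
  g.lf_le μ hL (Xi_le g.A0 g.t0 g.ts g.At μ hL)

end Vale.Agent.H16
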