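import Vale.Agent.H16.Bridge

namespace Vale.Agent.H16

open MeasureTheory Finset Filter
open scoped ENNReal NNReal Topology

theorem w_lintegral (k : ℕ) : ∫⁻ x : E, ENNReal.ofReal (w k ‖x‖) = volume (Metric.ball (0 : E) 1) := by
  have h1 : (fun x : E => ENNReal.ofReal (w k ‖x‖)) =
      (Metric.closedBall (0:E) (RN k)).indicator (fun _ => ENNReal.ofReal (((RN k : ℝ) ^ 3)⁻¹)) := by
    funext x
    unfold w
    by_cases h : ‖x‖ ≤ (RN k : ℝ)
    · rw [if_pos h, Set.indicator_of_mem]
      simpa using h
    · rw [if_neg h, Set.indicator_of_notMem]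
      · simp
      · simpa using h
  rw [h1, lintegral_indicator Metric.isClosed_closedBall.measurableSet, lintegral_const,
    Measure.restrict_apply_univ, Measure.addHaar_closedBall volume 0 (RN_pos k).le]
  have h3 : Module.finrank ℝ E = 3 := by simp
  rw [h3, ← mul_assoc, ← ENNReal.ofReal_mul (by have := RN_pos k; positivity),
    inv_mul_cancel₀ (by have := RN_pos k; positivity), ENNReal.ofReal_one, one_mul]

theorem psi_integrable {t : ℕ → ℝ} (ht0 : ∀ k, 0 ≤ t k) (hts : Summable t) :
    Integrable (fun x : E => psi t ‖x‖) := by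
  refine ⟨((psi_measurable ht0 hts).comp measurable_norm).aestronglyMeasurable, ?_⟩
  rw [hasFiniteIntegral_iff_ofReal (Eventually.of_forall fun x => psi_nonneg ht0 _)]
  have h1 : ∀ x : E, ENNReal.ofReal (psi t ‖x‖) = ∑' k, ENNReal.ofReal (t k) * ENNReal.ofReal (w k ‖x‖) := by
    intro x
    unfold psi
    rw [ENNReal.ofReal_tsum_of_nonneg (fun k => mul_nonneg (ht0 k) (w_nonneg k _)) (summable_tw ht0 hts _)]
    congr 1; funext k
    rw [ENNReal.ofReal_mul (ht0 k)]
  simp only [h1]
  rw [lintegral_tsum]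
  · have h2 : ∀ k, ∫⁻ x : E, ENNReal.ofReal (t k) * ENNReal.ofReal (w k ‖x‖) =
        ENNReal.ofReal (t k) * volume (Metric.ball (0 : E) 1) := by
      intro k
      rw [lintegral_const_mul' _ _ ENNReal.ofReal_ne_top, w_lintegral]
    simp only [h2]
    rw [ENNReal.tsum_mul_right, ← ENNReal.ofReal_tsum_of_nonneg ht0 hts]
    exact ENNReal.mul_lt_top ENNReal.ofReal_lt_top measure_ball_lt_top
  · intro k
    exact (((w_measurable k).comp measurable_norm).ennreal_ofReal.const_mul _).aemeasurable

theorem core_integrable (A : ℝ) : Integrable (fun x : E => core A ‖x‖) := by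
  have h1 : (fun x : E => core A ‖x‖) = (Metric.ball (0:E) 2).indicator (fun _ => A) := by
    funext x
    unfold core
    by_cases h : ‖x‖ < 2
    · rw [if_pos h, Set.indicator_of_mem]
      simpa using h
    · rw [if_neg h, Set.indicator_of_notMem]
      simpa using h
  rw [h1, integrable_indicator_iff Metric.isOpen_ball.measurableSet]
  exact integrableOn_const measure_ball_lt_top.ne

theorem phi_integrable (A : ℝ) {t : ℕ → ℝ} (ht0 : ∀ k, 0 ≤ t k) (hts : Summable t) :
    Integrable (fun x : E => phi A t ‖x‖) :=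
  (core_integrable A).sub (psi_integrable ht0 hts)

theorem phi_bounded {A : ℝ} {t : ℕ → ℝ} (g : Good A t) (r : ℝ) : |phi A t r| ≤ A := by
  have h1 := psi_nonneg g.t0 r
  have h2 := psi_le g.t0 g.ts r
  have h3 := g.At
  have h4 : 0 ≤ ∑' k, t k := tsum_nonneg g.t0
  have hA := g.A0
  unfold phi core
  rw [abs_le]
  split_ifs <;> constructor <;> linarith

end Vale.Agent.H16
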