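import Vale.Agent.H16.Press

namespace Vale.Agent.H16

open MeasureTheory Finset Filter
open scoped ENNReal NNReal Topology

/-- label of the period cube of side `L + 2` -/
noncomputable def plab (L : ℝ) (y : E) : Fin 3 → ℤ := fun m => ⌊y m / (L + 2)⌋

theorem plab_measurable (L : ℝ) : Measurable (plab L) := by
  apply measurable_pi_lambda
  intro m
  exact Int.measurable_floor.comp ((coord_measurable m).div_const _)

/-- cube of side `L` at position `v` -/
def cube (L : ℝ) (v : Fin 3 → ℤ) : Set E :=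
  {y | ∀ m, (L + 2) * v m ≤ y m ∧ y m ≤ (L + 2) * v m + L}

theorem cube_measurable (L : ℝ) (v : Fin 3 → ℤ) : MeasurableSet (cube L v) := by
  have : cube L v = ⋂ m, {y : E | (L + 2) * v m ≤ y m ∧ y m ≤ (L + 2) * v m + L} := by
    ext y; simp [cube]
  rw [this]
  apply MeasurableSet.iInter
  intro m
  exact (measurableSet_le measurable_const (coord_measurable m)).inter
    (measurableSet_le (coord_measurable m) measurable_const)

theorem plab_of_mem {L : ℝ} (hL : 0 < L) {v : Fin 3 → ℤ} {y : E} (h : y ∈ cube L v) :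
    plab L y = v := by
  funext m
  obtain ⟨h1, h2⟩ := h m
  unfold plab
  rw [Int.floor_eq_iff]
  constructor
  · rw [le_div_iff₀ (by linarith)]; linarith
  · rw [div_lt_iff₀ (by linarith)]; linarith

theorem dist_ge_two {L : ℝ} (hL : 0 < L) {v v' : Fin 3 → ℤ} {y y' : E} (h : y ∈ cube L v)
    (h' : y' ∈ cube L v') (hne : v ≠ v') : 2 ≤ dist y y' := by
  obtain ⟨m, hm⟩ := Function.ne_iff.1 hne
  refine le_trans ?_ (coord_le y y' m)
  obtain ⟨h1, h2⟩ := h m
  obtain ⟨h3, h4⟩ := h' m
  rcases lt_or_gt_of_ne hm with hlt | hlt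
  · have h5 : (v m : ℝ) + 1 ≤ v' m := by exact_mod_cast hlt
    rw [abs_sub_comm]
    refine le_trans ?_ (le_abs_self _)
    have : (L + 2) * ((v m : ℝ) + 1) ≤ (L + 2) * v' m :=
      mul_le_mul_of_nonneg_left h5 (by linarith)
    linarith
  · have h5 : (v' m : ℝ) + 1 ≤ v m := by exact_mod_cast hlt
    refine le_trans ?_ (le_abs_self _)
    have : (L + 2) * ((v' m : ℝ) + 1) ≤ (L + 2) * v m :=
      mul_le_mul_of_nonneg_left h5 (by linarith)
    linarith

theorem phi_nonpos_of_ge {A : ℝ} {t : ℕ → ℝ} (ht0 : ∀ k, 0 ≤ t k) {r : ℝ} (hr : 2 ≤ r) :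
    phi A t r ≤ 0 := by
  have := psi_nonneg ht0 r
  unfold phi core
  rw [if_neg (by linarith)]
  linarith

theorem X_cube {f : ℝ → ℝ} (hf : Measurable f) (μ κ L : ℝ) (v : Fin 3 → ℤ) :
    X (volume.restrict (cube L v)) (bf f μ κ) = X (volume.restrict (bx L)) (bf f μ κ) := by
  rw [X_translate hf μ κ (cube L v) (WithLp.toLp 2 (fun m => (L + 2) * (v m : ℝ)))]
  congr 2
  ext y
  simp only [cube, bx, Set.mem_preimage, Set.mem_setOf_eq, PiLp.add_apply]
  constructor
  · intro h m
    have := h m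
    constructor <;> linarith [this.1, this.2]
  · intro h m
    have := h m
    constructor <;> linarith [this.1, this.2]

/-- index set of `n^3` cubes -/
noncomputable def idx (n : ℕ) : Finset (Fin 3 → ℤ) := Fintype.piFinset (fun _ => Finset.Ico 0 (n:ℤ))

theorem idx_card (n : ℕ) : (idx n).card = n ^ 3 := by
  unfold idx
  rw [Fintype.card_piFinset]
  simp

theorem Xi_super {A : ℝ} {t : ℕ → ℝ} (g : Good A t) (μ : ℝ) {L L' : ℝ} (hL : 0 < L) (n : ℕ)
    (h : n * (L + 2) ≤ L' + 2) : (Xi A t μ 0 L) ^ (n ^ 3) ≤ Xi A t μ 0 L' := by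
  classical
  set S : Set E := ⋃ v ∈ idx n, cube L v with hS
  have hSm : MeasurableSet S := by
    rw [hS]
    exact Finset.measurableSet_biUnion _ (fun v _ => cube_measurable L v)
  have hf := phi_measurable A g.t0 g.ts
  have hSsub : S ⊆ bx L' := by
    intro y hy
    rw [hS] at hy
    simp only [Set.mem_iUnion] at hy
    obtain ⟨v, hv, hy⟩ := hy
    intro m
    obtain ⟨h1, h2⟩ := hy m
    have hvm := Fintype.mem_piFinset.1 hv m
    rw [Finset.mem_Ico] at hvm
    have h3 : (0:ℝ) ≤ v m := by exact_mod_cast hvm.1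
    have h4 : (v m : ℝ) + 1 ≤ n := by exact_mod_cast hvm.2
    constructor
    · have : 0 ≤ (L + 2) * (v m : ℝ) := by positivity
      linarith
    · have : (L + 2) * ((v m : ℝ) + 1) ≤ (L + 2) * n := mul_le_mul_of_nonneg_left h4 (by linarith)
      linarith
  have e1 : Xi A t μ 0 L' ≥ X (volume.restrict S) (bf (phi A t) μ 0) :=
    X_mono_set volume hSsub _
  have e2 : X (volume.restrict S) (bf (phi A t) μ 0) ≥
      X (volume.restrict S) (fun l => ∏ v ∈ idx n, bf (phi A t) μ 0 (flt (plab L ⁻¹' {v}) l)) := by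
    apply X_mono_on _ hSm
    intro N x hx
    have hlab : ∀ i, ∃ v ∈ idx n, x i ∈ cube L v := by
      intro i
      have := hx i
      rw [hS] at this
      simpa using this
    have hlab' : ∀ i, plab L (x i) ∈ idx n := by
      intro i
      obtain ⟨v, hv, hy⟩ := hlab i
      rw [plab_of_mem hL hy]; exact hv
    rw [prod_bf _ _ _ (plab L) (idx n) x hlab']
    unfold bf
    apply ENNReal.ofReal_le_ofReal
    apply Real.exp_le_exp.2
    rw [W_ofFn, List.length_ofFn]
    have key : ∑ i, ∑ j, phi A t (dist (x i) (x j)) ≤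
        ∑ i, ∑ j, if plab L (x i) = plab L (x j) then phi A t (dist (x i) (x j)) else 0 := by
      apply Finset.sum_le_sum; intro i _
      apply Finset.sum_le_sum; intro j _
      split_ifs with hij
      · exact le_rfl
      · obtain ⟨v, hv, hy⟩ := hlab i
        obtain ⟨v', hv', hy'⟩ := hlab j
        apply phi_nonpos_of_ge g.t0
        apply dist_ge_two hL hy hy'
        intro hvv
        apply hij
        rw [plab_of_mem hL hy, plab_of_mem hL hy', hvv]
    simp only [zero_mul, add_zero]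
    linarith
  have hSU : volume.restrict S = (volume.restrict S).restrict (⋃ v ∈ idx n, plab L ⁻¹' {v}) := by
    rw [Measure.restrict_restrict]
    · congr 1
      symm
      rw [Set.inter_eq_right]
      intro y hy
      rw [hS] at hy
      simp only [Set.mem_iUnion] at hy ⊢
      obtain ⟨v, hv, hy⟩ := hy
      exact ⟨v, hv, plab_of_mem hL hy⟩
    · exact Finset.measurableSet_biUnion _ (fun v _ => plab_measurable L (measurableSet_singleton v))
  have e3 : X (volume.restrict S) (fun l => ∏ v ∈ idx n, bf (phi A t) μ 0 (flt (plab L ⁻¹' {v}) l)) =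
      (Xi A t μ 0 L) ^ (n ^ 3) := by
    rw [hSU, X_prod (volume.restrict S) (idx n) (fun v => plab L ⁻¹' {v})
      (fun v => plab_measurable L (measurableSet_singleton v)) ?_ (fun _ => bf (phi A t) μ 0)
      (fun _ => MG_bf hf μ 0)]
    · rw [← idx_card n]
      apply Finset.prod_eq_pow_card
      intro v hv
      rw [Measure.restrict_restrict (plab_measurable L (measurableSet_singleton v))]
      have : plab L ⁻¹' {v} ∩ S = cube L v := by
        ext y
        constructor
        · rintro ⟨h1, h2⟩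
          rw [hS] at h2
          simp only [Set.mem_iUnion] at h2
          obtain ⟨v', hv', hy'⟩ := h2
          have := plab_of_mem hL hy'
          have h3 : plab L y = v := h1
          rw [h3] at this
          rw [this]
          exact hy'
        · intro hy
          refine ⟨plab_of_mem hL hy, ?_⟩
          rw [hS]
          simp only [Set.mem_iUnion]
          exact ⟨v, hv, hy⟩
      rw [this, X_cube hf]
      rfl
    · intro a _ b _ hab
      apply Set.disjoint_left.2
      intro y hy hy'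
      exact hab ((hy : plab L y = a).symm.trans hy')
  calc (Xi A t μ 0 L) ^ (n ^ 3) = _ := e3.symm
    _ ≤ _ := e2
    _ ≤ _ := e1

theorem lf_super {A : ℝ} {t : ℕ → ℝ} (g : Good A t) (μ : ℝ) {L L' : ℝ} (hL : 0 < L) (hL' : 0 ≤ L')
    (n : ℕ) (h : n * (L + 2) ≤ L' + 2) : (n:ℝ) ^ 3 * lf A t μ L ≤ lf A t μ L' := by
  apply g.le_lf μ hL'
  refine le_trans (le_of_eq ?_) (Xi_super g μ hL n h)
  rw [g.Xi_eq μ hL.le, ← ENNReal.ofReal_pow (Real.exp_nonneg _), ← Real.exp_nat_mul]
  push_cast
  rfl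

/-- the infinite-volume pressure -/
noncomputable def P (A : ℝ) (t : ℕ → ℝ) (μ : ℝ) : ℝ :=
  ⨆ L : Set.Ioi (0:ℝ), lf A t μ L / ((L:ℝ) + 2) ^ 3

theorem bdd_lf {A : ℝ} {t : ℕ → ℝ} (g : Good A t) (μ : ℝ) :
    BddAbove (Set.range fun L : Set.Ioi (0:ℝ) => lf A t μ L / ((L:ℝ) + 2) ^ 3) := by
  refine ⟨Real.exp (μ + A / 2), ?_⟩
  rintro _ ⟨⟨L, hL⟩, rfl⟩
  have hL' : (0:ℝ) < L := hL
  simp only
  rw [div_le_iff₀ (by positivity)]
  refine (g.lf_le_exp μ hL'.le).trans ?_
  have := Real.exp_nonneg (μ + A / 2)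
  gcongr
  linarith

theorem le_P {A : ℝ} {t : ℕ → ℝ} (g : Good A t) (μ : ℝ) {L : ℝ} (hL : 0 < L) :
    lf A t μ L ≤ (L + 2) ^ 3 * P A t μ := by
  have h := le_ciSup (bdd_lf g μ) ⟨L, hL⟩
  simp only at h
  rw [div_le_iff₀ (by positivity)] at h
  unfold P
  linarith

theorem P_le {A : ℝ} {t : ℕ → ℝ} (μ : ℝ) {a : ℝ}
    (h : ∀ L : ℝ, 0 < L → lf A t μ L ≤ a * (L + 2) ^ 3) : P A t μ ≤ a := by
  have : Nonempty (Set.Ioi (0:ℝ)) := ⟨⟨1, by norm_num⟩⟩
  apply ciSup_le
  rintro ⟨L, hL⟩
  have hL' : (0:ℝ) < L := hL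
  simp only
  rw [div_le_iff₀ (by positivity)]
  exact h L hL'

theorem P_nonneg {A : ℝ} {t : ℕ → ℝ} (g : Good A t) (μ : ℝ) : 0 ≤ P A t μ := by
  have h1 := g.lf_nonneg μ (zero_le_one)
  have h2 := le_P g μ one_pos
  have h3 : (0:ℝ) < (1 + 2) ^ 3 := by norm_num
  by_contra hc
  push Not at hc
  nlinarith

theorem tendsto_lf {A : ℝ} {t : ℕ → ℝ} (g : Good A t) (μ : ℝ) :
    Tendsto (fun L : ℝ => lf A t μ L / L ^ 3) atTop (𝓝 (P A t μ)) := by
  have hratio : Tendsto (fun L : ℝ => ((L + 2) / L) ^ 3) atTop (𝓝 1) := by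
    have h1 : Tendsto (fun L : ℝ => 1 + 2 / L) atTop (𝓝 (1 + 0)) :=
      tendsto_const_nhds.add (tendsto_const_nhds.div_atTop tendsto_id)
    have h2 : Tendsto (fun L : ℝ => (1 + 2 / L) ^ 3) atTop (𝓝 ((1 + 0) ^ 3)) := h1.pow 3
    simp only [add_zero, one_pow] at h2
    refine h2.congr' ?_
    filter_upwards [eventually_gt_atTop 0] with L hL
    congr 1
    field_simp
  rw [tendsto_order]
  constructor
  · intro a ha
    -- lower bound
    obtain ⟨⟨L, hL⟩, h1⟩ := exists_lt_of_lt_ciSup ha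
    have hL' : (0:ℝ) < L := hL
    simp only at h1
    set b := lf A t μ L / (L + 2) ^ 3 with hb
    -- n = floor((L'+2)/(L+2)) ≥ (L'+2)/(L+2) - 1
    have hlim : Tendsto (fun L' : ℝ => ((L' - L) / L') ^ 3 * b) atTop (𝓝 b) := by
      have h1 : Tendsto (fun L' : ℝ => 1 - L / L') atTop (𝓝 (1 - 0)) :=
        tendsto_const_nhds.sub (tendsto_const_nhds.div_atTop tendsto_id)
      have h2 : Tendsto (fun L' : ℝ => (1 - L / L') ^ 3 * b) atTop (𝓝 ((1 - 0) ^ 3 * b)) :=
        (h1.pow 3).mul_const b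
      simp only [sub_zero, one_pow, one_mul] at h2
      refine h2.congr' ?_
      filter_upwards [eventually_gt_atTop 0] with L' hL'
      congr 2
      field_simp
    filter_upwards [hlim.eventually (lt_mem_nhds h1), eventually_gt_atTop (max L 0)] with L' h2 h3
    have h3' : L < L' := lt_of_le_of_lt (le_max_left _ _) h3
    have h30 : 0 < L' := lt_of_le_of_lt (le_max_right _ _) h3
    set n := ⌊(L' + 2) / (L + 2)⌋₊ with hn
    have hn1 : (n:ℝ) * (L + 2) ≤ L' + 2 := by
      have := Nat.floor_le (show 0 ≤ (L' + 2) / (L + 2) by positivity)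
      rw [← hn] at this
      rwa [le_div_iff₀ (by linarith)] at this
    have hn2 : (L' - L) / (L + 2) ≤ n := by
      have := Nat.lt_floor_add_one ((L' + 2) / (L + 2))
      rw [← hn] at this
      have e : (L' - L) / (L + 2) = (L' + 2) / (L + 2) - 1 := by field_simp; ring
      rw [e]; linarith
    have h4 := lf_super g μ hL' h30.le n hn1
    refine lt_of_lt_of_le h2 ?_
    rw [le_div_iff₀ (by positivity)]
    refine le_trans ?_ h4
    have h5 : 0 ≤ lf A t μ L := g.lf_nonneg μ hL'.le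
    calc ((L' - L) / L') ^ 3 * b * L' ^ 3 = ((L' - L) / (L + 2)) ^ 3 * lf A t μ L := by
          rw [hb]; field_simp
      _ ≤ (n:ℝ) ^ 3 * lf A t μ L := by
          apply mul_le_mul_of_nonneg_right _ h5
          apply pow_le_pow_left₀ _ hn2
          apply div_nonneg <;> linarith
  · intro a ha
    have hlim : Tendsto (fun L : ℝ => ((L + 2) / L) ^ 3 * P A t μ) atTop (𝓝 (1 * P A t μ)) :=
      hratio.mul_const _
    rw [one_mul] at hlim
    filter_upwards [hlim.eventually (gt_mem_nhds ha), eventually_gt_atTop 0] with L h1 h2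
    refine lt_of_le_of_lt ?_ h1
    rw [div_le_iff₀ (by positivity)]
    refine (le_P g μ h2).trans (le_of_eq ?_)
    field_simp

end Vale.Agent.H16
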