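import Vale.Agent.H16.Growth

namespace Vale.Agent.H16

open MeasureTheory Finset Filter
open scoped ENNReal NNReal Topology

/-- indicator of exactly one particle -/
noncomputable def one1 (l : List E) : ℝ≥0∞ := if l.length = 1 then 1 else 0

theorem MG_one1 : MG one1 := by
  intro n
  unfold one1
  simp only [List.length_ofFn]
  exact measurable_const

theorem X_one1 (ν : Measure E) [SigmaFinite ν] : ν Set.univ ≤ X ν one1 := by
  calc ν Set.univ = jj ν 1 one1 := by
        unfold jj J one1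
        simp [Measure.pi_univ]
    _ ≤ X ν one1 := ENNReal.le_tsum 1

theorem volume_cube_two (v : Fin 3 → ℤ) : volume (cube 2 v) = ENNReal.ofReal (2 ^ 3) := by
  have h : bx 2 = (fun y : E => y + WithLp.toLp 2 (fun m => ((2:ℝ) + 2) * (v m : ℝ))) ⁻¹' (cube 2 v) := by
    ext y
    simp only [cube, bx, Set.mem_preimage, Set.mem_ofPred_eq, PiLp.add_apply]
    constructor
    · intro h m
      have := h m
      constructor <;> linarith [this.1, this.2]
    · intro h m
      have := h m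
      constructor <;> linarith [this.1, this.2]
  rw [← volume_bx (by norm_num : (0:ℝ) ≤ 2), h, measure_preimage_add_right]

/-- the big-block label -/
def big (q : ℕ) (v : Fin 3 → ℤ) : Fin 3 → ℤ := fun m => v m / (q : ℤ)

theorem dist_of_big {k : ℕ} {v v' : Fin 3 → ℤ} {y y' : E}
    (h : y ∈ cube 2 v) (h' : y' ∈ cube 2 v') (hb : big (2 ^ (k + 3)) v = big (2 ^ (k + 3)) v') :
    dist y y' ≤ RN k := by
  have hq : (0:ℤ) < (2:ℤ) ^ (k + 3) := by positivity
  have h1 : ∀ m, |(v m : ℝ) - v' m| ≤ 2 ^ (k + 3) - 1 := by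
    intro m
    have e := congrFun hb m
    simp only [big] at e
    push_cast at e
    have e1 := Int.emod_add_mul_ediv (v m) (2 ^ (k+3))
    have e2 := Int.emod_add_mul_ediv (v' m) (2 ^ (k+3))
    have e3 := Int.emod_nonneg (v m) hq.ne'
    have e4 := Int.emod_lt_of_pos (v m) hq
    have e5 := Int.emod_nonneg (v' m) hq.ne'
    have e6 := Int.emod_lt_of_pos (v' m) hq
    rw [e] at e1
    have : |v m - v' m| ≤ 2 ^ (k + 3) - 1 := by
      rw [abs_le]; constructor <;> omega
    exact_mod_cast this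
  have h2 : ∀ m, |y m - y' m| ≤ 2 ^ (k + 5) := by
    intro m
    obtain ⟨a1, a2⟩ := h m
    obtain ⟨a3, a4⟩ := h' m
    have := h1 m
    rw [abs_le] at this ⊢
    have e : (2:ℝ) ^ (k + 5) = 4 * 2 ^ (k + 3) := by ring
    rw [e]
    constructor <;> linarith [this.1, this.2]
  rw [EuclideanSpace.dist_eq]
  have hR : (RN k : ℝ) = Real.sqrt ((2 * 2 ^ (k + 5)) ^ 2) := by
    rw [Real.sqrt_sq (by positivity)]
    unfold RN
    push_cast
    ring
  rw [hR]
  apply Real.sqrt_le_sqrt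
  rw [Fin.sum_univ_three]
  have h3 : ∀ m, dist (y m) (y' m) ^ 2 ≤ (2 ^ (k + 5)) ^ 2 := by
    intro m
    rw [Real.dist_eq]
    have := h2 m
    exact pow_le_pow_left₀ (abs_nonneg _) this 2
  have := h3 0
  have := h3 1
  have := h3 2
  nlinarith

/-- pair energy of the `k`-th attraction for `N` particles in few big blocks -/
theorem trial_w {k j : ℕ} (hkj : k + 3 ≤ j) {N : ℕ} (hN : N = (2 ^ j) ^ 3) (x : Fin N → E)
    (lab : Fin N → Fin 3 → ℤ) (hlab : ∀ i, lab i ∈ idx (2 ^ j)) (hx : ∀ i, x i ∈ cube 2 (lab i)) :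
    (2:ℝ) ^ (-10 : ℤ) * N ≤ (∑ i, ∑ i', w k (dist (x i) (x i'))) - N * w k 0 := by
  have hU : ((idx (2 ^ (j - (k + 3)))).card : ℝ) = (2 ^ (j - (k+3))) ^ 3 := by
    rw [idx_card]; push_cast; ring
  have hmem : ∀ i, big (2 ^ (k + 3)) (lab i) ∈ idx (2 ^ (j - (k + 3))) := by
    intro i
    unfold idx big
    rw [Fintype.mem_piFinset]
    intro m
    have := Fintype.mem_piFinset.1 (hlab i) m
    rw [Finset.mem_Ico] at this ⊢
    constructor
    · exact Int.ediv_nonneg this.1 (by positivity)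
    · apply Int.ediv_lt_of_lt_mul (by positivity)
      have e : ((2 ^ (j - (k+3)) : ℕ) : ℤ) * ((2 ^ (k+3) : ℕ) : ℤ) = ((2 ^ j : ℕ) : ℤ) := by
        rw [← Nat.cast_mul, ← pow_add]
        congr 2
        omega
      rw [e]; exact this.2
  have h1 := sq_le_card_mul_pairs (idx (2 ^ (j - (k + 3)))) (fun i => big (2 ^ (k + 3)) (lab i)) hmem
  rw [hU] at h1
  set T := ∑ i, ∑ i', if big (2 ^ (k + 3)) (lab i) = big (2 ^ (k + 3)) (lab i') then (1:ℝ) else 0 with hT
  have h2 : ((RN k : ℝ) ^ 3)⁻¹ * T ≤ ∑ i, ∑ i', w k (dist (x i) (x i')) := by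
    rw [hT, Finset.mul_sum]
    apply Finset.sum_le_sum; intro i _
    rw [Finset.mul_sum]
    apply Finset.sum_le_sum; intro i' _
    split_ifs with hb
    · unfold w
      rw [if_pos (dist_of_big (hx i) (hx i') hb)]
      simp
    · simpa using w_nonneg k _
  have h3 : w k 0 = ((RN k : ℝ) ^ 3)⁻¹ := by
    unfold w
    rw [if_pos (RN_pos k).le]
  rw [h3]
  have hRN : (RN k : ℝ) = 2 ^ (k + 6) := by unfold RN; push_cast; ring
  have hNr : (N:ℝ) = (2 ^ j) ^ 3 := by rw [hN]; push_cast; ring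
  have hj : (2:ℝ) ^ j = 2 ^ (j - (k+3)) * 2 ^ (k + 3) := by
    rw [← pow_add]; congr 1; omega
  set a : ℝ := 2 ^ (j - (k+3)) with ha
  have hapos : 0 < a := by positivity
  set b : ℝ := 2 ^ k with hb
  have hb1 : 1 ≤ b := one_le_pow₀ (by norm_num)
  have e3 : (2:ℝ) ^ (k+3) = 8 * b := by rw [hb]; ring
  have e6 : (2:ℝ) ^ (k+6) = 64 * b := by rw [hb]; ring
  rw [hNr, hj, e3] at h1 ⊢
  rw [hRN, e6] at h2 ⊢
  -- h1 : ((a * (8 b))^3)^2 ≤ a^3 * T
  have hT' : a ^ 3 * (8 * b) ^ 6 ≤ T := by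
    have : a ^ 3 * (a ^ 3 * (8 * b) ^ 6) ≤ a ^ 3 * T := by
      calc a ^ 3 * (a ^ 3 * (8 * b) ^ 6) = ((a * (8 * b)) ^ 3) ^ 2 := by ring
        _ ≤ _ := h1
    exact le_of_mul_le_mul_left this (by positivity)
  have h5 : ((64 * b) ^ 3)⁻¹ * (a ^ 3 * (8 * b) ^ 6) ≤ ∑ i, ∑ i', w k (dist (x i) (x i')) :=
    le_trans (mul_le_mul_of_nonneg_left hT' (by positivity)) h2
  refine le_trans ?_ (sub_le_sub_right h5 _)
  have e7 : ((64 * b) ^ 3)⁻¹ * (a ^ 3 * (8 * b) ^ 6) = a ^ 3 * b ^ 3 := by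
    field_simp; ring
  have e8 : (a * (8 * b)) ^ 3 * ((64 * b) ^ 3)⁻¹ = a ^ 3 / 512 := by
    field_simp; ring
  rw [e7, e8]
  have e9 : (2:ℝ) ^ (-10:ℤ) * (a * (8 * b)) ^ 3 = a ^ 3 * b ^ 3 / 2 := by
    rw [zpow_neg]; norm_num; ring
  rw [e9]
  have hb3 : 1 ≤ b ^ 3 := one_le_pow₀ hb1
  nlinarith [pow_pos hapos 3]

theorem lf_trial {A : ℝ} {t : ℕ → ℝ} (g : Good A t) (μ : ℝ) (j : ℕ) :
    (2:ℝ) ^ (3 * j) * (μ + 2 ^ (-11 : ℤ) * ∑ k ∈ Finset.range (j - 2), t k) ≤
      lf A t μ (4 * 2 ^ j) := by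
  classical
  set L : ℝ := 4 * 2 ^ j with hL
  have hL0 : 0 < L := by positivity
  set c0 : ℝ := (2:ℝ) ^ (3 * j) * (μ + 2 ^ (-11 : ℤ) * ∑ k ∈ Finset.range (j - 2), t k) with hc0
  apply g.le_lf μ hL0.le
  set J := idx (2 ^ j) with hJ
  set S : Set E := ⋃ v ∈ J, cube 2 v with hS
  have hSm : MeasurableSet S := by
    rw [hS]
    exact Finset.measurableSet_biUnion _ (fun v _ => cube_measurable 2 v)
  have hSsub : S ⊆ bx L := by
    intro y hy
    rw [hS] at hy
    simp only [Set.mem_iUnion] at hy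
    obtain ⟨v, hv, hy⟩ := hy
    intro m
    obtain ⟨h1, h2⟩ := hy m
    have hvm := Fintype.mem_piFinset.1 hv m
    rw [Finset.mem_Ico] at hvm
    have h3 : (0:ℝ) ≤ v m := by exact_mod_cast hvm.1
    have h4 : (v m : ℝ) + 1 ≤ 2 ^ j := by
      have : v m + 1 ≤ ((2 ^ j : ℕ) : ℤ) := hvm.2
      exact_mod_cast this
    constructor
    · nlinarith
    · rw [hL]; nlinarith
  have hlabm : ∀ v : Fin 3 → ℤ, MeasurableSet (plab 2 ⁻¹' {v}) :=
    fun v => plab_measurable 2 (measurableSet_singleton v)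
  have hSU : volume.restrict S = (volume.restrict S).restrict (⋃ v ∈ J, plab 2 ⁻¹' {v}) := by
    rw [Measure.restrict_restrict]
    · congr 1
      symm
      rw [Set.inter_eq_right]
      intro y hy
      rw [hS] at hy
      simp only [Set.mem_iUnion] at hy ⊢
      obtain ⟨v, hv, hy⟩ := hy
      exact ⟨v, hv, plab_of_mem (by norm_num) hy⟩
    · exact Finset.measurableSet_biUnion _ (fun v _ => hlabm v)
  have e3 : 1 ≤ X (volume.restrict S) (fun l => ∏ v ∈ J, one1 (flt (plab 2 ⁻¹' {v}) l)) := by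
    rw [hSU, X_prod (volume.restrict S) J (fun v => plab 2 ⁻¹' {v})
      (fun v => hlabm v) ?_ (fun _ => one1) (fun _ => MG_one1)]
    · apply Finset.one_le_prod'
      intro v hv
      refine le_trans ?_ (X_one1 _)
      rw [Measure.restrict_apply_univ, Measure.restrict_apply (hlabm v)]
      have : cube 2 v ⊆ plab 2 ⁻¹' {v} ∩ S := by
        intro y hy
        refine ⟨plab_of_mem (by norm_num) hy, ?_⟩
        rw [hS]
        simp only [Set.mem_iUnion]
        exact ⟨v, hv, hy⟩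
      refine le_trans ?_ (measure_mono this)
      rw [volume_cube_two]
      rw [← ENNReal.ofReal_one]
      apply ENNReal.ofReal_le_ofReal
      norm_num
    · intro a _ b _ hab
      apply Set.disjoint_left.2
      intro y hy hy'
      exact hab ((hy : plab 2 y = a).symm.trans hy')
  calc ENNReal.ofReal (Real.exp c0) = ENNReal.ofReal (Real.exp c0) * 1 := by rw [mul_one]
    _ ≤ ENNReal.ofReal (Real.exp c0) *
        X (volume.restrict S) (fun l => ∏ v ∈ J, one1 (flt (plab 2 ⁻¹' {v}) l)) := by gcongr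
    _ = X (volume.restrict S) (fun l => ENNReal.ofReal (Real.exp c0) *
          ∏ v ∈ J, one1 (flt (plab 2 ⁻¹' {v}) l)) := by
        rw [X_const_mul _ ENNReal.ofReal_ne_top]
    _ ≤ X (volume.restrict S) (bf (phi A t) μ 0) := ?_
    _ ≤ Xi A t μ 0 L := X_mono_set volume hSsub _
  apply X_mono_on _ hSm
  intro N x hx
  by_cases hone : ∀ v ∈ J, (flt (plab 2 ⁻¹' {v}) (List.ofFn x)).length = 1
  swap
  · have : ∏ v ∈ J, one1 (flt (plab 2 ⁻¹' {v}) (List.ofFn x)) = 0 := by
      push Not at hone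
      obtain ⟨v, hv, hne⟩ := hone
      apply Finset.prod_eq_zero hv
      unfold one1
      rw [if_neg hne]
    rw [this, mul_zero]
    exact bot_le
  have hprod : ∏ v ∈ J, one1 (flt (plab 2 ⁻¹' {v}) (List.ofFn x)) = 1 := by
    apply Finset.prod_eq_one
    intro v hv
    unfold one1
    rw [if_pos (hone v hv)]
  rw [hprod, mul_one]
  have hlab : ∀ i, plab 2 (x i) ∈ J ∧ x i ∈ cube 2 (plab 2 (x i)) := by
    intro i
    have := hx i
    rw [hS] at this
    simp only [Set.mem_iUnion] at this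
    obtain ⟨v, hv, hy⟩ := this
    rw [plab_of_mem (by norm_num) hy]
    exact ⟨hv, hy⟩
  have hlen : ∀ v ∈ J, (∑ i, if plab 2 (x i) = v then (1:ℝ) else 0) = 1 := by
    intro v hv
    have h := len_flt (plab 2 ⁻¹' {v}) x
    rw [hone v hv] at h
    simp only [Set.mem_preimage, Set.mem_singleton_iff, Nat.cast_one] at h
    convert h.symm
  have hNJ : (N:ℝ) = J.card := by
    have h1 : (N : ℝ) = ∑ v ∈ J, (∑ i, if plab 2 (x i) = v then (1:ℝ) else 0) := by
      rw [Finset.sum_comm]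
      have : ∀ i : Fin N, (∑ v ∈ J, if plab 2 (x i) = v then (1:ℝ) else 0) = 1 := by
        intro i
        rw [Finset.sum_ite_eq]
        simp [(hlab i).1]
      simp [this]
    rw [h1, Finset.sum_congr rfl hlen]
    simp
  have hN : N = (2 ^ j) ^ 3 := by
    have : N = J.card := by exact_mod_cast hNJ
    rw [this, hJ, idx_card]
  have hsame : (∑ i, ∑ i', if plab 2 (x i) = plab 2 (x i') then (1:ℝ) else 0) = N := by
    rw [pair_count_eq J _ _ (fun i => (hlab i).1), hNJ]
    rw [Finset.sum_congr rfl (fun v hv => by rw [hlen v hv])]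
    simp
  -- energy bound
  unfold bf
  apply ENNReal.ofReal_le_ofReal
  apply Real.exp_le_exp.2
  rw [W_ofFn, List.length_ofFn]
  have hcore : ∑ i, ∑ i', core A (dist (x i) (x i')) ≤ A * N := by
    rw [← hsame, Finset.mul_sum]
    apply Finset.sum_le_sum; intro i _
    rw [Finset.mul_sum]
    apply Finset.sum_le_sum; intro i' _
    have hA := g.A0
    unfold core
    split_ifs with h1 h2 h2
    · simp
    · exact absurd (dist_ge_two (by norm_num) (hlab i).2 (hlab i').2 h2) (not_le.2 h1)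
    · simpa using hA
    · simp
  have hpsi : (∑ k ∈ Finset.range (j - 2), t k * (2 ^ (-10 : ℤ) * N)) ≤
      (∑ i, ∑ i', psi t (dist (x i) (x i'))) - N * psi t 0 := by
    have h1 := psi_sum g.t0 g.ts (fun _ _ => 1) x
    simp only [one_mul] at h1
    have h2 : HasSum (fun k => t k * w k 0) (psi t 0) := (summable_tw g.t0 g.ts 0).hasSum
    have h3 : HasSum (fun k => t k * ((∑ i, ∑ i', w k (dist (x i) (x i'))) - N * w k 0))
        ((∑ i, ∑ i', psi t (dist (x i) (x i'))) - N * psi t 0) := by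
      have h4 := h1.sub (h2.mul_left (N:ℝ))
      have e : (fun k => t k * ((∑ i, ∑ i', w k (dist (x i) (x i'))) - N * w k 0)) =
          fun k => t k * (∑ i, ∑ i', w k (dist (x i) (x i'))) - N * (t k * w k 0) := by
        funext k; ring
      rw [e]
      exact h4
    rw [← h3.tsum_eq]
    have hnn : ∀ k, 0 ≤ t k * ((∑ i, ∑ i', w k (dist (x i) (x i'))) - N * w k 0) := by
      intro k
      apply mul_nonneg (g.t0 k)
      have h4 : ∀ i : Fin N, w k 0 ≤ ∑ i', w k (dist (x i) (x i')) := by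
        intro i
        have h5 := Finset.single_le_sum (f := fun i' => w k (dist (x i) (x i')))
          (fun i' _ => w_nonneg k _) (Finset.mem_univ i)
        simpa using h5
      have : (N:ℝ) * w k 0 ≤ ∑ i, ∑ i', w k (dist (x i) (x i')) := by
        calc (N:ℝ) * w k 0 = ∑ i : Fin N, w k 0 := by simp
          _ ≤ _ := Finset.sum_le_sum fun i _ => h4 i
      linarith
    refine le_trans ?_ (h3.summable.sum_le_tsum (Finset.range (j-2)) (fun k _ => hnn k))
    apply Finset.sum_le_sum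
    intro k hk
    have hk' := Finset.mem_range.1 hk
    apply mul_le_mul_of_nonneg_left _ (g.t0 k)
    exact trial_w (by omega) hN x (fun i => plab 2 (x i)) (fun i => (hlab i).1) (fun i => (hlab i).2)
  have hphi0 : phi A t 0 = A - psi t 0 := by simp [phi, core]
  have hsum : ∑ i, ∑ i', phi A t (dist (x i) (x i')) =
      (∑ i, ∑ i', core A (dist (x i) (x i'))) - ∑ i, ∑ i', psi t (dist (x i) (x i')) := by
    simp only [phi, Finset.sum_sub_distrib]
  rw [hphi0, hsum]
  have hNr : (N:ℝ) = 2 ^ (3 * j) := by rw [hN]; push_cast; ring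
  have hc : c0 = μ * N + (∑ k ∈ Finset.range (j - 2), t k * (2 ^ (-10 : ℤ) * N)) / 2 := by
    rw [hc0, ← Finset.sum_mul, hNr]
    have : (2:ℝ) ^ (-10:ℤ) = 2 * 2 ^ (-11:ℤ) := by
      rw [zpow_neg, zpow_neg]; norm_num
    rw [this]; ring
  rw [hc]
  generalize (∑ i, ∑ i', core A (dist (x i) (x i'))) = a1 at *
  generalize (∑ i, ∑ i', psi t (dist (x i) (x i'))) = a2 at *
  generalize (∑ k ∈ Finset.range (j - 2), t k * ((2:ℝ) ^ (-10 : ℤ) * N)) = a3 at *
  have e : μ * (N:ℝ) + 0 * (N:ℝ) ^ 2 - (a1 - a2 - N * (A - psi t 0)) / 2 =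
    μ * N + (A * N - a1) / 2 + (a2 - N * psi t 0) / 2 := by ring
  rw [e]
  linarith

/-- the lower bound given by the regular trial configuration -/
theorem P_trial {A : ℝ} {t : ℕ → ℝ} (g : Good A t) (μ : ℝ) :
    μ / 64 + (∑' k, t k) / 131072 ≤ P A t μ := by
  have hlim1 : Tendsto (fun j : ℕ => (4 * 2 ^ j : ℝ)) atTop atTop :=
    (tendsto_pow_atTop_atTop_of_one_lt (by norm_num : (1:ℝ) < 2)).const_mul_atTop (by norm_num)
  have h1 := (tendsto_lf g μ).comp hlim1
  have h2 : Tendsto (fun j : ℕ => μ / 64 + (∑ k ∈ Finset.range (j - 2), t k) / 131072) atTop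
      (𝓝 (μ / 64 + (∑' k, t k) / 131072)) := by
    apply Tendsto.const_add
    apply Tendsto.div_const
    exact g.ts.hasSum.tendsto_sum_nat.comp (tendsto_sub_atTop_nat 2)
  apply le_of_tendsto_of_tendsto' h2 h1
  intro j
  simp only [Function.comp]
  rw [le_div_iff₀ (by positivity)]
  refine le_trans (le_of_eq ?_) (lf_trial g μ j)
  have : (2:ℝ) ^ (-11:ℤ) = 1 / 2048 := by rw [zpow_neg]; norm_num
  rw [this]
  have e : (2:ℝ) ^ (3 * j) = (2 ^ j) ^ 3 := by rw [mul_comm, pow_mul]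
  rw [e]
  ring

end Vale.Agent.H16
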